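import Mathlib
import Crest.Prelude.Def_RandomSAT

/-!
# Row 153 (random k-SAT): definitions and the list expectation

* `ind p` : real indicator of a proposition.
* `EL m f` : expectation of `f` over lists of `m` independent uniform elements of a finite type.
* `en v G` : energy (total cost) of the list of constraints `G`, `v c σ` the cost of `c` at `σ`.
* `Alive j E` : some configuration has energy at most `j`.
* `tau v j E G` : number of times `t ≤ G.length` at which `E + en v (G.take t)` is alive.
* `minE E` : ground state energy.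
* `Lit`, `vL`, `vC`, `vR`, `Kill` : literals, costs of a literal / clause on distinct variables /
  clause with replacement, and the set of killing literals.
-/

set_option autoImplicit false
set_option linter.unusedVariables false
set_option linter.unusedSectionVars false

namespace Crest.Agent.R153

open Finset
open scoped BigOperators
open Crest.ProbabilityR.RandomSAT

open Classical in
/-- Real indicator of a proposition. -/
noncomputable def ind (p : Prop) : ℝ := if p then 1 else 0

theorem ind_pos {p : Prop} (h : p) : ind p = 1 := by simp [ind, h]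
theorem ind_neg {p : Prop} (h : ¬ p) : ind p = 0 := by simp [ind, h]
theorem ind_nonneg (p : Prop) : 0 ≤ ind p := by unfold ind; split_ifs <;> norm_num
theorem ind_le_one (p : Prop) : ind p ≤ 1 := by unfold ind; split_ifs <;> norm_num
theorem ind_mono {p q : Prop} (h : p → q) : ind p ≤ ind q := by
  by_cases hp : p
  · rw [ind_pos hp, ind_pos (h hp)]
  · rw [ind_neg hp]; exact ind_nonneg _
theorem ind_congr {p q : Prop} (h : p ↔ q) : ind p = ind q := by rw [propext h]
theorem ind_and (p q : Prop) : ind (p ∧ q) = ind p * ind q := by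
  by_cases hp : p <;> by_cases hq : q <;> simp [ind, hp, hq]
theorem ind_or_le (p q : Prop) : ind (p ∨ q) ≤ ind p + ind q := by
  by_cases hp : p <;> by_cases hq : q <;> simp [ind, hp, hq]
theorem ind_not (p : Prop) : ind (¬ p) = 1 - ind p := by
  by_cases hp : p <;> simp [ind, hp]
theorem ind_eq_ite (p : Prop) [Decidable p] : ind p = if p then 1 else 0 := by
  by_cases hp : p <;> simp [ind, hp]

/-- The uniform average of an indicator is a ratio of cardinalities. -/
theorem expect_ind {C : Type*} [Fintype C] (p : C → Prop) [DecidablePred p] :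
    𝔼 c : C, ind (p c) = ((univ.filter p).card : ℝ) / Fintype.card C := by
  rw [Fintype.expect_eq_sum_div_card]
  congr 1
  simp only [ind_eq_ite]
  rw [Finset.sum_boole]

section EL

variable {C : Type*} [Fintype C]

/-- Expectation over lists of `m` independent uniform elements of `C`. -/
noncomputable def EL : ℕ → (List C → ℝ) → ℝ
  | 0, f => f []
  | m + 1, f => 𝔼 c : C, EL m (fun l => f (c :: l))

@[simp] theorem EL_zero (f : List C → ℝ) : EL 0 f = f [] := rfl

theorem EL_succ (m : ℕ) (f : List C → ℝ) :
    EL (m + 1) f = 𝔼 c : C, EL m (fun l => f (c :: l)) := rfl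

theorem EL_mono {m : ℕ} {f g : List C → ℝ} (h : ∀ l, l.length = m → f l ≤ g l) :
    EL m f ≤ EL m g := by
  induction m generalizing f g with
  | zero => exact h [] rfl
  | succ m ih =>
    rw [EL_succ, EL_succ]
    exact expect_le_expect fun c _ => ih fun l hl => h _ (by simp [hl])

theorem EL_congr {m : ℕ} {f g : List C → ℝ} (h : ∀ l, l.length = m → f l = g l) :
    EL m f = EL m g :=
  le_antisymm (EL_mono fun l hl => (h l hl).le) (EL_mono fun l hl => (h l hl).ge)

theorem EL_add (m : ℕ) (f g : List C → ℝ) :
    EL m (fun l => f l + g l) = EL m f + EL m g := by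
  induction m generalizing f g with
  | zero => rfl
  | succ m ih => simp only [EL_succ, ih, expect_add_distrib]

theorem EL_const_mul (m : ℕ) (a : ℝ) (f : List C → ℝ) :
    EL m (fun l => a * f l) = a * EL m f := by
  induction m generalizing f with
  | zero => rfl
  | succ m ih => simp only [EL_succ, ih, mul_expect]

theorem EL_mul_const (m : ℕ) (a : ℝ) (f : List C → ℝ) :
    EL m (fun l => f l * a) = EL m f * a := by
  simp only [mul_comm _ a, EL_const_mul]

theorem EL_sub (m : ℕ) (f g : List C → ℝ) :
    EL m (fun l => f l - g l) = EL m f - EL m g := by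
  have h := EL_add m f (fun l => (-1) * g l)
  rw [EL_const_mul] at h
  simp only [neg_mul, one_mul, ← sub_eq_add_neg] at h
  exact h

@[simp] theorem EL_const_zero (m : ℕ) : EL m (fun _ : List C => (0 : ℝ)) = 0 := by
  induction m with
  | zero => rfl
  | succ m ih => simp only [EL_succ, ih, expect_const_zero]

theorem EL_const [Nonempty C] (m : ℕ) (a : ℝ) : EL m (fun _ : List C => a) = a := by
  induction m with
  | zero => rfl
  | succ m ih => simp only [EL_succ, ih, Fintype.expect_const]

theorem EL_nonneg {m : ℕ} {f : List C → ℝ} (h : ∀ l, l.length = m → 0 ≤ f l) : 0 ≤ EL m f := by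
  rw [← EL_const_zero (C := C) m]; exact EL_mono h

theorem EL_le_const [Nonempty C] {m : ℕ} {f : List C → ℝ} {a : ℝ}
    (h : ∀ l, l.length = m → f l ≤ a) : EL m f ≤ a := by
  rw [← EL_const (C := C) m a]; exact EL_mono h

theorem const_le_EL [Nonempty C] {m : ℕ} {f : List C → ℝ} {a : ℝ}
    (h : ∀ l, l.length = m → a ≤ f l) : a ≤ EL m f := by
  rw [← EL_const (C := C) m a]; exact EL_mono h

theorem EL_sum {ι : Type*} (s : Finset ι) (m : ℕ) (f : ι → List C → ℝ) :
    EL m (fun l => ∑ i ∈ s, f i l) = ∑ i ∈ s, EL m (f i) := by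
  induction m generalizing f with
  | zero => rfl
  | succ m ih => simp only [EL_succ, ih, expect_sum_comm]

theorem EL_expect {ι : Type*} (s : Finset ι) (m : ℕ) (f : ι → List C → ℝ) :
    EL m (fun l => 𝔼 i ∈ s, f i l) = 𝔼 i ∈ s, EL m (f i) := by
  induction m generalizing f with
  | zero => rfl
  | succ m ih => simp only [EL_succ, ih]; exact expect_comm _ _ _

theorem EL_comm {D : Type*} [Fintype D] (m m' : ℕ) (f : List C → List D → ℝ) :
    EL m (fun l => EL m' (fun l' => f l l')) = EL m' (fun l' => EL m (fun l => f l l')) := by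
  induction m generalizing f with
  | zero => rfl
  | succ m ih => simp only [EL_succ, ih, EL_expect]

theorem EL_append (m m' : ℕ) (f : List C → ℝ) :
    EL (m + m') f = EL m (fun l => EL m' (fun l' => f (l ++ l'))) := by
  induction m generalizing f with
  | zero => simp
  | succ m ih => rw [Nat.add_right_comm, EL_succ, EL_succ]; simp only [ih, List.cons_append]

theorem EL_take [Nonempty C] {t M : ℕ} (h : t ≤ M) (f : List C → ℝ) :
    EL M (fun l => f (l.take t)) = EL t f := by
  obtain ⟨u, rfl⟩ := Nat.exists_eq_add_of_le h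
  rw [EL_append]
  refine EL_congr fun l hl => ?_
  have : ∀ l' : List C, (l ++ l').take t = l := fun l' => by rw [← hl]; simp
  simp only [this, EL_const]

/-- Exchangeability: the element at position `i` can be sampled first. -/
theorem EL_insertIdx {i m : ℕ} (h : i ≤ m) (f : List C → ℝ) :
    EL (m + 1) f = 𝔼 c : C, EL m (fun l => f (l.insertIdx i c)) := by
  induction m generalizing f i with
  | zero =>
    obtain rfl : i = 0 := by omega
    simp [EL_succ]
  | succ m ih =>
    cases i with
    | zero => simp [EL_succ]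
    | succ i =>
      rw [EL_succ]
      have h1 : ∀ c : C, EL (m + 1) (fun l => f (c :: l)) =
          𝔼 c' : C, EL m (fun l => f (c :: l.insertIdx i c')) :=
        fun c => ih (Nat.le_of_succ_le_succ h) _
      have h2 : ∀ c' : C, EL (m + 1) (fun l => f (l.insertIdx (i + 1) c')) =
          𝔼 c : C, EL m (fun l => f (c :: l.insertIdx i c')) := fun c' => rfl
      simp only [h1, h2]
      exact expect_comm _ _ _

/-- `EL` is the uniform average over tuples. -/
theorem EL_eq_expect_ofFn (m : ℕ) (f : List C → ℝ) :
    EL m f = 𝔼 F : Fin m → C, f (List.ofFn F) := by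
  induction m generalizing f with
  | zero => simp
  | succ m ih =>
    rw [EL_succ]
    simp only [ih]
    rw [← Finset.expect_product', Finset.univ_product_univ]
    refine Fintype.expect_equiv (Fin.consEquiv fun _ : Fin (m + 1) => C) _ _ ?_
    rintro ⟨c, F⟩
    simp [Fin.consEquiv, List.ofFn_succ]

/-- Jensen for the square. -/
theorem sq_expect_le [Nonempty C] (f : C → ℝ) : (𝔼 c : C, f c) ^ 2 ≤ 𝔼 c : C, f c ^ 2 := by
  have h := expect_mul_sq_le_sq_mul_sq (univ : Finset C) f (fun _ => (1 : ℝ))
  simpa using h

theorem sq_EL_le [Nonempty C] (m : ℕ) (f : List C → ℝ) :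
    (EL m f) ^ 2 ≤ EL m (fun l => f l ^ 2) := by
  induction m generalizing f with
  | zero => exact le_rfl
  | succ m ih =>
    rw [EL_succ, EL_succ]
    exact (sq_expect_le _).trans (expect_le_expect fun c _ => ih _)

/-- Transport along a map that pushes the uniform law to the uniform law. -/
theorem EL_map {D : Type*} [Fintype D] (φ : C → D)
    (hφ : ∀ g : D → ℝ, 𝔼 c : C, g (φ c) = 𝔼 d : D, g d) (m : ℕ) (f : List D → ℝ) :
    EL m (fun l : List C => f (l.map φ)) = EL m f := by
  induction m generalizing f with
  | zero => rfl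
  | succ m ih =>
    rw [EL_succ, EL_succ, ← hφ]
    refine expect_congr rfl fun c _ => ?_
    simp only [List.map_cons]
    exact ih fun l => f (φ c :: l)

end EL

section Energy

variable {Ω C : Type*}

/-- Total cost of a list of constraints. -/
def en (v : C → Ω → ℕ) (G : List C) : Ω → ℕ := fun σ => (G.map fun c => v c σ).sum

@[simp] theorem en_nil (v : C → Ω → ℕ) : en v [] = 0 := by ext σ; simp [en]

@[simp] theorem en_cons (v : C → Ω → ℕ) (c : C) (G : List C) :
    en v (c :: G) = v c + en v G := by ext σ; simp [en]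

@[simp] theorem en_append (v : C → Ω → ℕ) (G G' : List C) :
    en v (G ++ G') = en v G + en v G' := by ext σ; simp [en]

/-- Some configuration has energy at most `j`. -/
def Alive (j : ℕ) (E : Ω → ℕ) : Prop := ∃ σ, E σ ≤ j

theorem Alive.mono {j j' : ℕ} {E E' : Ω → ℕ} (h : Alive j E) (hE : E' ≤ E) (hj : j ≤ j') :
    Alive j' E' := by
  obtain ⟨σ, hσ⟩ := h
  exact ⟨σ, ((hE σ).trans hσ).trans hj⟩

open Classical in
/-- Number of times `t ≤ G.length` at which `E + en v (G.take t)` is alive at level `j`
(the death time truncated at `G.length + 1`). -/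
noncomputable def tau (v : C → Ω → ℕ) (j : ℕ) : (Ω → ℕ) → List C → ℕ
  | E, [] => if Alive j E then 1 else 0
  | E, c :: G => (if Alive j E then 1 else 0) + tau v j (E + v c) G

/-- Ground state energy. -/
noncomputable def minE (E : Ω → ℕ) : ℕ := ⨅ σ, E σ

theorem minE_le (E : Ω → ℕ) (σ : Ω) : minE E ≤ E σ := ciInf_le (OrderBot.bddBelow _) σ

theorem exists_minE [Nonempty Ω] (E : Ω → ℕ) : ∃ σ, E σ = minE E :=
  Nat.sInf_mem (Set.range_nonempty E)

theorem alive_iff_minE_le [Nonempty Ω] {j : ℕ} {E : Ω → ℕ} : Alive j E ↔ minE E ≤ j := by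
  constructor
  · rintro ⟨σ, h⟩; exact (minE_le E σ).trans h
  · intro h
    obtain ⟨σ, hσ⟩ := exists_minE E
    exact ⟨σ, hσ ▸ h⟩

theorem minE_mono [Nonempty Ω] {E E' : Ω → ℕ} (h : E ≤ E') : minE E ≤ minE E' := by
  obtain ⟨σ, hσ⟩ := exists_minE E'
  exact (minE_le E σ).trans (hσ ▸ h σ)

end Energy

/-- A literal: the variable and its required value. -/
abbrev Lit (n : ℕ) : Type := Fin n × Bool

/-- Cost of a literal: `1` when it is false. -/
def vL {n : ℕ} (ℓ : Lit n) (σ : Fin n → Bool) : ℕ := if σ ℓ.1 = ℓ.2 then 0 else 1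

/-- The `i`-th literal of a clause. -/
def lit {k n : ℕ} (c : Clause k n) (i : Fin k) : Lit n := (c.1.1 i, c.2 i)

/-- Cost of a clause on distinct variables: `1` when it is violated. -/
def vC {k n : ℕ} (c : Clause k n) (σ : Fin n → Bool) : ℕ :=
  if ∃ i, σ (c.1.1 i) = c.2 i then 0 else 1

/-- Cost of a clause whose literals are sampled with replacement: `1` when it is violated. -/
def vR {k n : ℕ} (c : Fin k → Lit n) (σ : Fin n → Bool) : ℕ :=
  if ∃ i, σ (c i).1 = (c i).2 then 0 else 1

theorem vC_eq_vR {k n : ℕ} (c : Clause k n) : vC c = vR (lit c) := rfl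

open Classical in
/-- The literals whose addition kills the level-`j` set of `E`. -/
noncomputable def Kill {n : ℕ} (j : ℕ) (E : (Fin n → Bool) → ℕ) : Finset (Lit n) :=
  univ.filter fun ℓ => ¬ Alive j (E + vL ℓ)

theorem mem_Kill {n j : ℕ} {E : (Fin n → Bool) → ℕ} {ℓ : Lit n} :
    ℓ ∈ Kill j E ↔ ¬ Alive j (E + vL ℓ) := by simp [Kill]

theorem clause_nonempty {k n : ℕ} (h : k ≤ n) : Nonempty (Clause k n) :=
  ⟨(⟨Fin.castLE h, Fin.castLE_injective h⟩, fun _ => true)⟩

/-- The event that adding the unit clauses `U` at time `0` lowers the death time by more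
than `s`. -/
def Loss {k n : ℕ} (j : ℕ) (U : List (Lit n)) (s : ℕ) (G : List (Clause k n)) : Prop :=
  tau vC j (en vL U) G + s < tau vC j 0 G

/-- The literals of `U` avoid the variables `X` and have pairwise distinct variables. -/
def Good {n : ℕ} : Finset (Fin n) → List (Lit n) → Prop
  | _, [] => True
  | X, ℓ :: U => ℓ.1 ∉ X ∧ Good (insert ℓ.1 X) U

/-- Expected ground state energy, clauses on distinct variables. -/
noncomputable def eD (k n m : ℕ) : ℝ :=
  EL m fun G : List (Clause k n) => (minE (en vC G) : ℝ)

/-- Expected ground state energy, literals with replacement. -/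
noncomputable def eR (k n m : ℕ) : ℝ :=
  EL m fun G : List (Fin k → Lit n) => (minE (en vR G) : ℝ)

end Crest.Agent.R153
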