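import Crest.Agent.R153.Trial
import Crest.Agent.Lib.Comp.Rat

/-! # Row 153: rational certificates (definitions) and enumeration of lists -/

set_option autoImplicit false
set_option linter.unusedVariables false
set_option linter.unusedSectionVars false

namespace Crest.Agent.R153

open Finset
open scoped BigOperators

open Crest.Agent.Lib.Comp

/-- All lists of length `n` with entries in `xs`. -/
def allL {α : Type*} (xs : List α) : ℕ → List (List α)
  | 0 => [[]]
  | n + 1 => xs.flatMap fun x => (allL xs n).map (x :: ·)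

/-- The list `xs` enumerates the finite type `C` through `e`. -/
def Enum {α C : Type*} [Fintype C] (xs : List α) (e : C → α) : Prop :=
  ∀ g : α → ℝ, (xs.map g).sum = ∑ c, g (e c)

def bools : List Bool := [false, true]

theorem enum_bools : Enum bools (fun b : Bool => b) := fun g => by
  simp [bools, add_comm]

theorem enum_range (b : ℕ) : Enum (List.range b) (fun s : Fin b => (s : ℕ)) := fun g => by
  rw [Fin.sum_univ_eq_sum_range g b, ← List.sum_toFinset g List.nodup_range, List.toFinset_range]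

theorem Enum.allL {α C : Type*} [Fintype C] {xs : List α} {e : C → α} (h : Enum xs e) (m : ℕ) :
    Enum (allL xs m) (fun F : Fin m → C => List.ofFn fun i => e (F i)) := by
  induction m with
  | zero => intro g; simp [R153.allL]
  | succ m ih =>
    intro g
    have h1 : ((R153.allL xs (m + 1)).map g).sum =
        (xs.map fun x => ((R153.allL xs m).map fun l => g (x :: l)).sum).sum := by
      simp only [R153.allL, List.map_flatMap, List.map_map]
      induction xs with
      | nil => simp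
      | cons x xs _ => simp [List.flatMap_def, List.sum_flatten, Function.comp_def]
    rw [h1, h]
    simp only [ih fun l => g (_ :: l)]
    rw [← Finset.sum_product', Finset.univ_product_univ]
    refine Fintype.sum_equiv (Fin.consEquiv fun _ : Fin (m + 1) => C) _ _ ?_
    rintro ⟨c, F⟩
    simp [Fin.consEquiv, List.ofFn_succ]

theorem mem_allL {α : Type*} {xs : List α} {m : ℕ} {l : List α} :
    l ∈ allL xs m ↔ l.length = m ∧ ∀ x ∈ l, x ∈ xs := by
  induction m generalizing l with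
  | zero =>
    simp only [allL, List.mem_singleton, List.length_eq_zero_iff]
    constructor
    · rintro rfl; simp
    · exact fun h => h.1
  | succ m ih =>
    simp only [allL, List.mem_flatMap, List.mem_map]
    constructor
    · rintro ⟨x, hx, l', hl', rfl⟩
      obtain ⟨h1, h2⟩ := ih.1 hl'
      refine ⟨by simp [h1], ?_⟩
      simpa [hx] using h2
    · rintro ⟨h1, h2⟩
      cases l with
      | nil => simp at h1
      | cons x l' =>
        exact ⟨x, h2 x (by simp), l', ih.2 ⟨by simpa using h1, fun y hy => h2 y (by simp [hy])⟩, rfl⟩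

theorem primrec_allL {α : Type*} [Primcodable α] :
    Primrec₂ (allL : List α → ℕ → List (List α)) := by
  have h : Primrec₂ fun (xs : List α) (p : ℕ × List (List α)) =>
      xs.flatMap fun x => p.2.map (x :: ·) :=
    Primrec.list_flatMap Primrec.fst (Primrec.list_map
      (Primrec.snd.comp (Primrec.snd.comp Primrec.fst))
      (Primrec.list_cons.comp (Primrec.snd.comp Primrec.fst) Primrec.snd).to₂).to₂
  refine (Primrec.nat_rec (Primrec.const [[]]) h).of_eq fun xs n => ?_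
  induction n with
  | zero => rfl
  | succ n ih => simp only [allL, ← ih]

theorem rat_list_prod : Primrec (List.prod : List ℚ → ℚ) := by
  have h : Primrec₂ fun (_ : List ℚ) (p : ℚ × ℚ) => p.1 * p.2 :=
    rat_mul.comp (Primrec.fst.comp Primrec.snd) (Primrec.snd.comp Primrec.snd)
  exact (Primrec.list_foldr Primrec.id (Primrec.const 1) h).of_eq fun l => rfl

/-! ### Lower certificates -/

/-- All literals on `n` variables. -/
def litsQ (n : ℕ) : List (ℕ × Bool) := (List.range n).flatMap fun x => bools.map fun b => (x, b)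

/-- Cost of a coded clause. -/
def costQ (σ : List Bool) (c : List (ℕ × Bool)) : ℕ :=
  if ∃ ℓ ∈ c, σ.getD ℓ.1 false = ℓ.2 then 0 else 1

/-- Ground state energy of a coded formula. -/
def minQ (n : ℕ) (F : List (List (ℕ × Bool))) : ℕ :=
  ((allL bools n).map fun σ => (F.map (costQ σ)).sum).foldr min F.length

/-- The rational number `eR 3 n m`. -/
def eRQ (n m : ℕ) : ℚ :=
  ((allL (allL (litsQ n) 3) m).map fun F => (minQ n F : ℚ)).sum / ((2 * n : ℕ) : ℚ) ^ (3 * m)

/-- The lower certificate `w = (n, m, t, u)` for `q`. -/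
def lowCheck (Λ C₀ : ℕ) (q : ℚ) (w : ℕ × ℕ × ℕ × ℕ) : Prop :=
  0 < w.1 ∧ 0 < w.2.2.1 ∧ w.2.1 ≤ Λ * w.1 ∧ w.2.1 ≤ w.2.2.2 ^ 2 ∧
    eRQ w.1 w.2.1 + w.2.2.2 ≤ w.1 / (w.2.2.1 : ℚ) ^ 3 ∧
    q ≤ (w.2.1 : ℚ) / w.1 - (C₀ : ℚ) / w.2.2.1

/-! ### Roots and logarithms -/

/-- Lower approximation of `x ^ θ` with precision `1 / S` (for `0 ≤ x ≤ 1`, `0 < θ`). -/
def rlo (S : ℕ) (x θ : ℚ) : ℚ :=
  (Nat.findGreatest (fun u => ((u : ℚ) / S) ^ θ.den ≤ x ^ pn θ) S : ℚ) / S

/-- Upper approximation of `x ^ θ`. -/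
def rup (S : ℕ) (x θ : ℚ) : ℚ := min 1 (rlo S x θ + 1 / S)

/-- Lower approximation of `-log x`. -/
def nl (n : ℕ) (x : ℚ) : ℚ := ((List.range n).map fun i : ℕ => (1 - x) ^ (i + 1) / (i + 1)).sum

/-- Upper approximation of `-log x`. -/
def nu (n : ℕ) (x : ℚ) : ℚ := nl n x + (1 - x) ^ (n + 1) / x

/-- Lower approximation of the Poisson weight. -/
def plo (lam : ℚ) (n d : ℕ) : ℚ :=
  (1 - lam / n) ^ n * ((List.range d).map fun i : ℕ => lam / (i + 1)).prod

/-! ### Coded trials and upper certificates -/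

/-- Code of a trial with rational data: `(b, r, π, A, p, m)`. -/
abbrev TC : Type := ℕ × ℕ × List ℚ × List (List (List ℚ)) × List ℚ × List ℚ

namespace TC

def b (T : TC) : ℕ := T.1
def r (T : TC) : ℕ := T.2.1
def π (T : TC) (s : ℕ) : ℚ := T.2.2.1.getD s 0
def A (T : TC) (k s s' : ℕ) : ℚ := ((T.2.2.2.1.getD k []).getD s []).getD s' 0
def p (T : TC) (s : ℕ) : ℚ := T.2.2.2.2.1.getD s 0
def m (T : TC) (k : ℕ) : ℚ := T.2.2.2.2.2.getD k 0

/-- The real trial of a code. -/
def toTr (T : TC) : Tr :=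
  ⟨T.b, T.r, fun s => T.π s, fun k s s' => T.A k s s', fun s => T.p s, fun k => T.m k⟩

def Valid (T : TC) : Prop :=
  (∀ s < T.b, 0 ≤ T.π s ∧ 0 ≤ T.p s ∧ T.p s ≤ 1) ∧ ((List.range T.b).map T.π).sum = 1 ∧
  (∀ k < T.r, ∀ s < T.b, (∀ s' < T.b, 0 ≤ T.A k s s') ∧
    ((List.range T.b).map (T.A k s)).sum = 1) ∧
  (∀ k < T.r, 0 < T.m k ∧ T.m k < 1 ∧ (k + 1 < T.r → T.m (k + 1) < T.m k))

def q (T : TC) (s : ℕ) (σ : Bool) : ℚ := if σ then T.p s else 1 - T.p s

def w (T : TC) (L k : ℕ) (s s' : List ℕ) : ℚ :=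
  ((List.range L).map fun i => T.A k (s.getD i 0) (s'.getD i 0)).prod

/-- Nested power means computed with the root approximation `ρ`. -/
def pmQ (T : TC) (ρ : ℚ → ℚ → ℚ) (L : ℕ) (W : List ℕ → ℚ) : ℕ → List ℕ → ℚ
  | 0, s => W s
  | k + 1, s => ρ (((allL (List.range T.b) L).map fun s' =>
      T.w L k s s' * ρ (pmQ T ρ L W k s') (T.m k)).sum) (T.m k)⁻¹

def nvalQ (T : TC) (ρ : ℚ → ℚ → ℚ) (g : ℚ → ℚ) (L : ℕ) (W : List ℕ → ℚ) : ℚ :=
  ((allL (List.range T.b) L).map fun s =>
    ((List.range L).map fun i => T.π (s.getD i 0)).prod * g (T.pmQ ρ L W T.r s)).sum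

def edgeWQ (T : TC) (κ : ℚ) (J : List Bool) (s : List ℕ) : ℚ :=
  1 - κ * ((List.range 3).map fun ℓ => T.q (s.getD ℓ 0) (J.getD ℓ false)).prod

def siteWQ (T : TC) (κ : ℚ) (d : ℕ) (J : List Bool) (s : List ℕ) : ℚ :=
  (1 / 2) * (bools.map fun ε => ((List.range d).map fun j =>
    1 - κ * (if ε = J.getD (2 + 3 * j) false then 1 else 0) *
      (T.q (s.getD (2 * j) 0) (J.getD (3 * j) false) *
        T.q (s.getD (1 + 2 * j) 0) (J.getD (1 + 3 * j) false))).prod).sum

def edgeUp (T : TC) (κ : ℚ) (n S : ℕ) : ℚ :=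
  ((allL bools 3).map fun J =>
    T.nvalQ (rlo S) (fun x => nu n (max x (1 - κ))) 3 (T.edgeWQ κ J)).sum / 8

def siteLo (T : TC) (κ : ℚ) (d n S : ℕ) : ℚ :=
  ((allL bools (d * 3)).map fun J =>
    T.nvalQ (rup S) (nl n) (d * 2) (T.siteWQ κ d J)).sum / 2 ^ (d * 3)

end TC

/-- The upper certificate `w = (T, κ, D, n, S)` for `a`. -/
def upCheck (a : ℚ) (w : TC × ℚ × ℕ × ℕ × ℕ) : Prop :=
  w.1.Valid ∧ 0 ≤ w.2.1 ∧ w.2.1 < 1 ∧ 0 < a ∧ 0 < w.2.2.2.2 ∧ a * 3 ≤ w.2.2.2.1 ∧
    1 + a * 2 * w.1.edgeUp w.2.1 w.2.2.2.1 w.2.2.2.2 <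
      ((List.range w.2.2.1).map fun d =>
        plo (a * 3) w.2.2.2.1 d * w.1.siteLo w.2.1 d w.2.2.2.1 w.2.2.2.2).sum

end Crest.Agent.R153
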