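import Crest.Agent.R153.Basic

/-! # Row 153: killing literals and counting clauses -/

set_option autoImplicit false
set_option linter.unusedVariables false
set_option linter.unusedSectionVars false

namespace Crest.Agent.R153

open Finset
open scoped BigOperators
open Crest.ProbabilityR.RandomSAT

variable {k n : ℕ}

theorem Kill_mono {j : ℕ} {E E' : (Fin n → Bool) → ℕ} (h : E ≤ E') : Kill j E ⊆ Kill j E' := by
  intro ℓ hℓ
  rw [mem_Kill] at hℓ ⊢
  exact fun h' => hℓ (h'.mono (add_le_add h le_rfl) le_rfl)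

/-- If `E σ + vR c σ ≤ j` then, since `E σ + vL (c i) σ > j` for all `i`, every literal is false
at `σ`, so `vR c σ = 1 = vL (c 0) σ`: contradiction. -/
theorem not_alive_of_kill (hk : 0 < k) {j : ℕ} {E : (Fin n → Bool) → ℕ} {c : Fin k → Lit n}
    (h : ∀ i, c i ∈ Kill j E) : ¬ Alive j (E + vR c) := by
  rintro ⟨σ, hσ⟩
  have h1 : ∀ i, j < E σ + vL (c i) σ := fun i => by
    by_contra hc
    exact mem_Kill.1 (h i) ⟨σ, not_lt.1 hc⟩
  simp only [Pi.add_apply, vR] at hσ
  split_ifs at hσ with hx
  · obtain ⟨i, hi⟩ := hx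
    have := h1 i
    simp only [vL, if_pos hi] at this
    omega
  · have := h1 ⟨0, hk⟩
    simp only [vL] at this
    split_ifs at this <;> omega

/-- `vR c ≤ vL (c i)`. -/
theorem alive_of_not_kill {j : ℕ} {E : (Fin n → Bool) → ℕ} {c : Fin k → Lit n} {i : Fin k}
    (h : c i ∉ Kill j E) : Alive j (E + vR c) := by
  rw [mem_Kill, not_not] at h
  refine h.mono (add_le_add le_rfl fun σ => ?_) le_rfl
  simp only [vR, vL]
  split_ifs with h1 h2 h2
  · exact le_rfl
  · exact Nat.zero_le _
  · exact absurd ⟨i, h2⟩ h1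
  · exact le_rfl

/-- A living configuration satisfies one of two complementary literals. -/
theorem Kill_injOn {j : ℕ} {E : (Fin n → Bool) → ℕ} (h : Alive j E) :
    Set.InjOn Prod.fst (Kill j E : Set (Lit n)) := by
  obtain ⟨σ, hσ⟩ := h
  have key : ∀ ℓ ∈ Kill j E, σ ℓ.1 ≠ ℓ.2 := fun ℓ hℓ e =>
    mem_Kill.1 hℓ ⟨σ, by simpa [vL, e] using hσ⟩
  rintro ⟨x, a⟩ h1 ⟨y, b⟩ h2 e
  simp only at e
  subst e
  have k1 := key _ h1
  have k2 := key _ h2
  simp only at k1 k2
  congr 1
  revert k1 k2
  cases a <;> cases b <;> cases σ x <;> simp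

theorem card_le_of_injOn {K : Finset (Lit n)} (hK : Set.InjOn Prod.fst (K : Set (Lit n))) :
    K.card ≤ n := by
  simpa using card_le_card_of_injOn (t := univ) Prod.fst (fun _ _ => mem_univ _) hK

/-- `Fintype.card_embedding_eq`, `Equiv.subtypeInjectiveEquivEmbedding`. -/
theorem card_clause (k n : ℕ) : Fintype.card (Clause k n) = n.descFactorial k * 2 ^ k := by
  have : Fintype.card {v : Fin k → Fin n // Function.Injective v} = n.descFactorial k := by
    rw [Fintype.card_congr (Equiv.subtypeInjectiveEquivEmbedding (Fin k) (Fin n))]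
    simp
  show Fintype.card ({v : Fin k → Fin n // Function.Injective v} × (Fin k → Bool)) = _
  rw [Fintype.card_prod, this]
  simp

/-- Clauses all of whose literals lie in `K` correspond to embeddings `Fin k ↪ K`. -/
theorem card_allIn {K : Finset (Lit n)} (hK : Set.InjOn Prod.fst (K : Set (Lit n))) :
    (univ.filter fun c : Clause k n => ∀ i, lit c i ∈ K).card = K.card.descFactorial k := by
  have e : Fintype.card (Fin k ↪ K) = K.card.descFactorial k := by simp
  rw [← e, ← Fintype.card_subtype]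
  refine Fintype.card_congr
    { toFun := fun c => ⟨fun i => ⟨lit c.1 i, c.2 i⟩, fun i i' h => c.1.1.2 ?_⟩
      invFun := fun f => ⟨(⟨fun i => (f i).1.1, fun i i' h => f.injective
        (Subtype.ext (hK (f i).2 (f i').2 h))⟩, fun i => (f i).1.2), fun i => (f i).2⟩
      left_inv := fun c => rfl
      right_inv := fun f => rfl }
  exact congrArg (fun x : K => x.1.1) h

/-- `Fintype.piFinset`, `Fintype.card_piFinset`. -/
theorem expect_allIn_R (K : Finset (Lit n)) :
    𝔼 c : Fin k → Lit n, ind (∀ i, c i ∈ K) = ((K.card : ℝ) / (2 * n)) ^ k := by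
  rw [expect_ind]
  have : (univ.filter fun c : Fin k → Lit n => ∀ i, c i ∈ K) = Fintype.piFinset fun _ => K := by
    ext c; simp
  rw [this, Fintype.card_piFinset]
  simp [div_pow, mul_comm]

theorem expect_allIn_D {K : Finset (Lit n)} (hK : Set.InjOn Prod.fst (K : Set (Lit n))) :
    𝔼 c : Clause k n, ind (∀ i, lit c i ∈ K) =
      (K.card.descFactorial k : ℝ) / (n.descFactorial k * 2 ^ k) := by
  rw [expect_ind, card_allIn hK, card_clause]
  push_cast
  rfl

theorem Count_desc_mul {b n : ℕ} (h : b ≤ n) (k : ℕ) :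
    b.descFactorial k * n ^ k ≤ b ^ k * n.descFactorial k := by
  induction k with
  | zero => simp
  | succ k ih =>
    have h1 : (b - k) * n ≤ b * (n - k) := by
      rw [Nat.sub_mul, Nat.mul_sub]
      exact Nat.sub_le_sub_left (by rw [mul_comm]; exact Nat.mul_le_mul_left _ h) _
    rw [Nat.descFactorial_succ, Nat.descFactorial_succ, pow_succ, pow_succ]
    calc (b - k) * b.descFactorial k * (n ^ k * n)
        = ((b - k) * n) * (b.descFactorial k * n ^ k) := by ring
      _ ≤ (b * (n - k)) * (b ^ k * n.descFactorial k) := Nat.mul_le_mul h1 ih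
      _ = _ := by ring

/-- `(b - i) / (n - i) ≤ b / n` for `b ≤ n`; induction on `k` in the form
`b.descFactorial k * n ^ k ≤ b ^ k * n.descFactorial k`. -/
theorem expect_allIn_D_le (hn : k ≤ n) {K : Finset (Lit n)}
    (hK : Set.InjOn Prod.fst (K : Set (Lit n))) :
    𝔼 c : Clause k n, ind (∀ i, lit c i ∈ K) ≤ ((K.card : ℝ) / (2 * n)) ^ k := by
  rw [expect_allIn_D hK]
  have hb := card_le_of_injOn hK
  have h1 : (K.card.descFactorial k : ℝ) * n ^ k ≤ K.card ^ k * n.descFactorial k := by
    exact_mod_cast Count_desc_mul hb k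
  have h2 : (0 : ℝ) < n.descFactorial k := by exact_mod_cast Nat.descFactorial_pos.2 hn
  rcases Nat.eq_zero_or_pos k with rfl | hk
  · simp
  have h3 : (0 : ℝ) < n := by exact_mod_cast hk.trans_le hn
  rw [div_pow, div_le_div_iff₀ (by positivity) (by positivity), mul_pow]
  nlinarith [mul_le_mul_of_nonneg_right h1 (show (0 : ℝ) ≤ 2 ^ k by positivity)]

/-- `b ^ 3 ≤ b.descFactorial 3 + 3 * b ^ 2`, `n.descFactorial 3 ≤ n ^ 3`, `b ≤ n`. -/
theorem le_expect_allIn_D (hn : 3 ≤ n) {K : Finset (Lit n)}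
    (hK : Set.InjOn Prod.fst (K : Set (Lit n))) :
    ((K.card : ℝ) / (2 * n)) ^ 3 ≤ 𝔼 c : Clause 3 n, ind (∀ i, lit c i ∈ K) + 1 / n := by
  rw [expect_allIn_D hK]
  have hb : (K.card : ℝ) ≤ n := by exact_mod_cast card_le_of_injOn hK
  have h1 : (K.card : ℝ) ^ 3 ≤ K.card.descFactorial 3 + 3 * K.card ^ 2 := by
    have : ∀ b : ℕ, b ^ 3 ≤ b.descFactorial 3 + 3 * b ^ 2 := by
      intro b
      rcases b with _ | _ | b
      · simp
      · simp
      · simp only [Nat.descFactorial_succ, Nat.descFactorial_zero]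
        have e1 : b + 1 + 1 - 2 = b := by omega
        have e2 : b + 1 + 1 - 1 = b + 1 := by omega
        rw [e1, e2, Nat.sub_zero]
        nlinarith [Nat.zero_le b]
    exact_mod_cast this K.card
  have h2 : (0 : ℝ) < n.descFactorial 3 := by exact_mod_cast Nat.descFactorial_pos.2 hn
  have h3 : (n.descFactorial 3 : ℝ) ≤ n ^ 3 := by exact_mod_cast Nat.descFactorial_le_pow n 3
  have h4 : (0 : ℝ) < n := by exact_mod_cast (by omega : 0 < n)
  have h5 : (K.card.descFactorial 3 : ℝ) / (n ^ 3 * 2 ^ 3) ≤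
      (K.card.descFactorial 3 : ℝ) / (n.descFactorial 3 * 2 ^ 3) := by gcongr
  have h0 : (0 : ℝ) ≤ K.card := Nat.cast_nonneg _
  have h6 : (K.card : ℝ) ^ 2 ≤ n ^ 2 := by gcongr
  have h7 : ((K.card : ℝ) / (2 * n)) ^ 3 ≤
      (K.card.descFactorial 3 : ℝ) / (n ^ 3 * 2 ^ 3) + 1 / n := by
    rw [div_add_div _ _ (by positivity) h4.ne', div_pow, div_le_div_iff₀ (by positivity)
      (by positivity)]
    have : (K.card : ℝ) ^ 3 ≤ K.card.descFactorial 3 + 8 * n ^ 2 := by nlinarith
    nlinarith [mul_le_mul_of_nonneg_right this (show (0 : ℝ) ≤ 8 * n ^ 4 by positivity)]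
  linarith

/-- One step of the hazard bound. If `E` is dead the left side is `0` and `θ ≤ 2 n`
(`card (Kill) ≤ 2 n`). Otherwise use `not_alive_of_kill`, `expect_allIn_D`,
`Nat.pow_sub_le_descFactorial` and `Nat.descFactorial_le_pow`. -/
theorem hazard_one (hk : 0 < k) (hn : k ≤ n) {θ : ℝ} (hθ : 0 ≤ θ) {j : ℕ}
    {E : (Fin n → Bool) → ℕ} (h : θ + k ≤ (Kill j E).card) :
    𝔼 c : Clause k n, ind (Alive j (E + vC c)) ≤ 1 - (θ / (2 * n)) ^ k := by
  have : Nonempty (Clause k n) := clause_nonempty hn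
  have h4 : (0 : ℝ) < n := by exact_mod_cast hk.trans_le hn
  by_cases hA : Alive j E
  · have hK := Kill_injOn hA
    have h1 : 𝔼 c : Clause k n, ind (Alive j (E + vC c)) ≤
        𝔼 c : Clause k n, (1 - ind (∀ i, lit c i ∈ Kill j E)) := by
      refine expect_le_expect fun c _ => ?_
      rw [← ind_not]
      exact ind_mono fun h1 h2 => not_alive_of_kill hk h2 h1
    rw [expect_sub_distrib, Fintype.expect_const, expect_allIn_D hK] at h1
    refine h1.trans (sub_le_sub_left ?_ _)
    have h2 : (0 : ℝ) < n.descFactorial k := by exact_mod_cast Nat.descFactorial_pos.2 hn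
    have h3 : (n.descFactorial k : ℝ) ≤ n ^ k := by exact_mod_cast Nat.descFactorial_le_pow n k
    have hkK : k ≤ (Kill j E).card := by
      have : (k : ℝ) ≤ (Kill j E).card := by linarith
      exact_mod_cast this
    have h5 : θ ^ k ≤ ((Kill j E).card.descFactorial k : ℝ) := by
      have a1 : ((((Kill j E).card + 1 - k : ℕ) : ℝ)) ^ k ≤
          ((Kill j E).card.descFactorial k : ℝ) := by
        exact_mod_cast Nat.pow_sub_le_descFactorial (Kill j E).card k
      refine le_trans (pow_le_pow_left₀ hθ ?_ k) a1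
      rw [Nat.cast_sub (by omega)]
      push_cast
      linarith
    rw [div_pow, mul_pow, mul_comm ((2 : ℝ) ^ k)]
    gcongr
  · have h1 : 𝔼 c : Clause k n, ind (Alive j (E + vC c)) = 0 := by
      refine expect_eq_zero fun c _ => ind_neg fun h' => hA ?_
      exact h'.mono le_self_add le_rfl
    rw [h1, sub_nonneg]
    refine pow_le_one₀ (by positivity) ?_
    rw [div_le_one (by positivity)]
    have : ((Kill j E).card : ℝ) ≤ 2 * n := by
      have := card_le_univ (Kill j E)
      simp only [Fintype.card_prod, Fintype.card_fin, Fintype.card_bool] at this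
      exact_mod_cast this.trans_eq (mul_comm _ _)
    have : (0 : ℝ) ≤ k := Nat.cast_nonneg _
    linarith

/-- A fixed assignment satisfies a random clause with probability `1 - 2^{-k}`
(average over the signs first). -/
theorem expect_vC_eq_zero (hn : k ≤ n) (σ : Fin n → Bool) :
    𝔼 c : Clause k n, ind (vC c σ = 0) = 1 - (1 / 2) ^ k := by
  have : Nonempty (Clause k n) := clause_nonempty hn
  let K : Finset (Lit n) := univ.image fun x : Fin n => (x, !σ x)
  have hK : Set.InjOn Prod.fst (K : Set (Lit n)) := by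
    intro a ha b hb e
    obtain ⟨x, -, rfl⟩ := mem_image.1 (mem_coe.1 ha)
    obtain ⟨y, -, rfl⟩ := mem_image.1 (mem_coe.1 hb)
    simp only at e
    rw [e]
  have hc : K.card = n := by
    rw [card_image_of_injective _ (fun x y e => congrArg Prod.fst e)]; simp
  have h1 : ∀ c : Clause k n, ind (vC c σ = 0) = 1 - ind (∀ i, lit c i ∈ K) := by
    intro c
    rw [← ind_not]
    refine ind_congr ?_
    have : ∀ i, lit c i ∈ K ↔ ¬ σ (c.1.1 i) = c.2 i := by
      intro i
      simp only [K, lit, mem_image, mem_univ, true_and, Prod.mk.injEq]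
      constructor
      · rintro ⟨x, rfl, e⟩; rw [← e]; simp
      · intro e; refine ⟨_, rfl, ?_⟩
        revert e; cases σ (c.1.1 i) <;> cases c.2 i <;> simp
    simp only [vC, this]
    split_ifs with h <;> simpa using h
  simp only [h1]
  rw [expect_sub_distrib, Fintype.expect_const, expect_allIn_D hK, hc]
  have h2 : (0 : ℝ) < n.descFactorial k := by exact_mod_cast Nat.descFactorial_pos.2 hn
  rw [one_div_pow]
  field_simp

end Crest.Agent.R153
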