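import Crest.Agent.R153.UpApprox

/-! # Row 153: from real trials to certificates and back -/

set_option autoImplicit false
set_option linter.unusedVariables false
set_option linter.unusedSectionVars false

namespace Crest.Agent.R153

open Finset
open scoped BigOperators

open Filter Topology
open Crest.Agent.Lib.Comp
open Crest.ProbabilityR.Diluted (poissonWeight)

theorem Dense_pw_nonneg {lam : ℝ} (hl : 0 ≤ lam) (d : ℕ) : 0 ≤ poissonWeight lam d := by
  unfold poissonWeight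
  positivity

theorem Dense_list_sum (D : ℕ) (f : ℕ → ℚ) :
    ((((List.range D).map f).sum : ℚ) : ℝ) = ∑ d ∈ range D, (f d : ℝ) := by
  induction D with
  | zero => simp
  | succ D ih => rw [List.range_succ, List.map_append, List.sum_append, sum_range_succ, ← ih]; simp

theorem Tr.Valid.summable_site {T : Tr} (h : T.Valid) {lam κ : ℝ} (hl : 0 ≤ lam) (hκ0 : 0 ≤ κ)
    (hκ1 : κ < 1) : Summable fun d : ℕ => poissonWeight lam d * T.site κ d := by
  have hc : 0 ≤ -Real.log (1 - κ) := neg_nonneg.2 (Real.log_nonpos (by linarith) (by linarith))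
  refine Summable.of_nonneg_of_le
    (fun d => mul_nonneg (Dense_pw_nonneg hl d) (h.site_mem hκ0 hκ1 d).1) (fun d => ?_)
    ((Real.summable_pow_div_factorial (lam * 2)).mul_left (Real.exp (-lam) * -Real.log (1 - κ)))
  have h1 : (d : ℝ) ≤ 2 ^ d := by exact_mod_cast Nat.lt_two_pow_self.le
  calc poissonWeight lam d * T.site κ d ≤ poissonWeight lam d * (2 ^ d * -Real.log (1 - κ)) :=
        mul_le_mul_of_nonneg_left ((h.site_mem hκ0 hκ1 d).2.trans
          (mul_le_mul_of_nonneg_right h1 hc)) (Dense_pw_nonneg hl d)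
    _ = _ := by
        unfold poissonWeight
        rw [mul_pow]
        ring

/-- `log 2 ≤ 1`, `edge_le_edgeUp`, `siteLo_le_site`, `plo_le`, `plo_nonneg`, `site_mem`,
`Summable.sum_le_tsum`. -/
theorem upCheck_sound {a : ℚ} {w : TC × ℚ × ℕ × ℕ × ℕ} (h : upCheck a w) :
    w.1.toTr.Valid ∧ w.1.toTr.P a w.2.1 < 0 := by
  obtain ⟨T, κ, D, n, S⟩ := w
  obtain ⟨hv, hκ0, hκ1, ha, hS, hn, hlt⟩ := h
  simp only at hv hκ0 hκ1 hS hn hlt ⊢
  have hv' := TC.valid_iff.1 hv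
  refine ⟨hv', ?_⟩
  have hκ0' : (0 : ℝ) ≤ κ := by exact_mod_cast hκ0
  have hκ1' : (κ : ℝ) < 1 := by exact_mod_cast hκ1
  have ha' : (0 : ℝ) < a := by exact_mod_cast ha
  have ha3 : 0 ≤ a * 3 := by positivity
  have h1 := (Rat.cast_lt (K := ℝ)).2 hlt
  rw [Dense_list_sum] at h1
  push_cast at h1
  have h2 : ∑ d ∈ range D, (plo (a * 3) n d : ℝ) * T.siteLo κ d n S ≤
      ∑ d ∈ range D, poissonWeight (a * 3) d * T.toTr.site κ d := by
    refine sum_le_sum fun d _ => ?_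
    have h3 : (0 : ℝ) ≤ plo (a * 3) n d := by exact_mod_cast plo_nonneg ha3 hn d
    have h4 := plo_le ha3 hn d
    push_cast at h4
    exact (mul_le_mul_of_nonneg_left (TC.siteLo_le_site hv' hκ0 hκ1 d n hS) h3).trans
      (mul_le_mul_of_nonneg_right h4 (hv'.site_mem hκ0' hκ1' d).1)
  have h5 := (hv'.summable_site (lam := a * 3) (by positivity) hκ0' hκ1').sum_le_tsum (range D)
    fun d _ => mul_nonneg (Dense_pw_nonneg (by positivity) d) (hv'.site_mem hκ0' hκ1' d).1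
  have h6 := mul_le_mul_of_nonneg_left (TC.edge_le_edgeUp hv' hκ0 hκ1 n hS)
    (show (0 : ℝ) ≤ a * 2 by positivity)
  unfold Tr.P
  linarith [Real.log_two_lt_d9]

/-- First choose `n` (with `3 a ≤ n`), then `S > 0` (`Tendsto.eventually_lt`). -/
theorem upCheck_complete {T : TC} (h : T.toTr.Valid) {a κ : ℚ} (ha : 0 < a) (hκ0 : 0 ≤ κ)
    (hκ1 : κ < 1) (D : ℕ)
    (hlt : 1 + (a : ℝ) * 2 * T.toTr.edge κ <
      ∑ d ∈ range D, poissonWeight (a * 3) d * T.toTr.site κ d) :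
    ∃ n S, upCheck a (T, κ, D, n, S) := by
  obtain ⟨e, he, he'⟩ := TC.edgeUp_tendsto h hκ0 hκ1
  choose es hes hes' using TC.siteLo_tendsto h hκ0 hκ1
  have h1 : Tendsto (fun n => 1 + (a : ℝ) * 2 * e n) atTop (𝓝 (1 + a * 2 * T.toTr.edge κ)) :=
    (he.const_mul _).const_add _
  have h2 : Tendsto (fun n => ∑ d ∈ range D, (plo (a * 3) n d : ℝ) * es d n) atTop
      (𝓝 (∑ d ∈ range D, poissonWeight (a * 3) d * T.toTr.site κ d)) := by
    refine tendsto_finsetSum _ fun d _ => Tendsto.mul ?_ (hes d)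
    have := tendsto_plo (a * 3) d
    push_cast at this
    exact this
  obtain ⟨n, hn1, hn2⟩ := ((h1.eventually_lt h2 hlt).and (eventually_ge_atTop ⌈a * 3⌉₊)).exists
  have h3 : Tendsto (fun S => 1 + (a : ℝ) * 2 * T.edgeUp κ n S) atTop (𝓝 (1 + a * 2 * e n)) :=
    ((he' n).const_mul _).const_add _
  have h4 : Tendsto (fun S => ∑ d ∈ range D, (plo (a * 3) n d : ℝ) * T.siteLo κ d n S) atTop
      (𝓝 (∑ d ∈ range D, (plo (a * 3) n d : ℝ) * es d n)) :=
    tendsto_finsetSum _ fun d _ => (hes' d n).const_mul _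
  obtain ⟨S, hS1, hS2⟩ := ((h3.eventually_lt h4 hn1).and (eventually_gt_atTop 0)).exists
  refine ⟨n, S, TC.valid_iff.2 h, hκ0, hκ1, ha, hS2, Nat.ceil_le.1 hn2, ?_⟩
  rw [← Rat.cast_lt (K := ℝ), Dense_list_sum]
  push_cast
  exact hS1

theorem exists_trunc {T : Tr} (h : T.Valid) {a κ : ℝ} (ha : 0 < a) (hκ0 : 0 ≤ κ) (hκ1 : κ < 1)
    (hP : T.P a κ < -1) :
    ∃ D, 1 + a * 2 * T.edge κ < ∑ d ∈ range D, poissonWeight (a * 3) d * T.site κ d := by
  have h1 := (h.summable_site (lam := a * 3) (by positivity) hκ0 hκ1).hasSum.tendsto_sum_nat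
  refine (h1.eventually (lt_mem_nhds ?_)).exists
  unfold Tr.P at hP
  linarith [Real.log_nonneg (show (1 : ℝ) ≤ 2 by norm_num)]

theorem Dense_floor {x : ℝ} (hx : 0 ≤ x) :
    Tendsto (fun i : ℕ => (⌊x * i⌋₊ : ℝ) / i) atTop (𝓝 x) :=
  (tendsto_nat_floor_mul_div_atTop hx).comp tendsto_natCast_atTop_atTop

/-- Rational probability vectors `(⌊i x s⌋₊ + 1) / ∑ s', (⌊i x s'⌋₊ + 1)` converge to `x`
(`tendsto_nat_floor_mul_div_atTop`; note `b > 0` because the sum is `1`). -/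
theorem exists_rat_prob {b : ℕ} {x : ℕ → ℝ} (h0 : ∀ s < b, 0 ≤ x s) (h1 : ∑ s ∈ range b, x s = 1) :
    ∃ y : ℕ → ℕ → ℚ, (∀ i s, 0 ≤ y i s) ∧ (∀ i, ∑ s ∈ range b, y i s = 1) ∧
      ∀ s < b, Tendsto (fun i => (y i s : ℝ)) atTop (𝓝 (x s)) := by
  have hb : (range b).Nonempty := by
    rw [nonempty_iff_ne_empty]
    intro hb
    simp [hb] at h1
  have hpos : ∀ i : ℕ, (0 : ℚ) < ∑ s ∈ range b, ((⌊x s * i⌋₊ : ℚ) + 1) := fun i =>
    sum_pos (fun s _ => by positivity) hb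
  refine ⟨fun i s => ((⌊x s * i⌋₊ : ℚ) + 1) / ∑ s ∈ range b, ((⌊x s * i⌋₊ : ℚ) + 1),
    fun i s => div_nonneg (by positivity) (hpos i).le, fun i => ?_, fun s hs => ?_⟩
  · rw [← sum_div, div_self (hpos i).ne']
  · have h2 : ∀ s < b, Tendsto (fun i : ℕ => ((⌊x s * i⌋₊ : ℝ) + 1) / i) atTop (𝓝 (x s)) := by
      intro s hs
      have := (Dense_floor (h0 s hs)).add tendsto_one_div_atTop_nhds_zero_nat
      simpa only [← add_div, add_zero] using this
    have h3 := (h2 s hs).div (tendsto_finsetSum (range b) fun s hs => h2 s (mem_range.1 hs))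
      (by rw [h1]; exact one_ne_zero)
    rw [h1, div_one] at h3
    refine h3.congr' ?_
    filter_upwards [eventually_gt_atTop 0] with i hi
    have hi' : (i : ℝ) ≠ 0 := by positivity
    rw [Pi.div_apply, ← sum_div, div_div_div_cancel_right₀ hi']
    push_cast
    rfl

theorem Dense_expect_tendsto {C : Type*} [Fintype C] {f : ℕ → C → ℝ} {g : C → ℝ}
    (h : ∀ c, Tendsto (fun i => f i c) atTop (𝓝 (g c))) :
    Tendsto (fun i => 𝔼 c, f i c) atTop (𝓝 (𝔼 c, g c)) := by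
  simp only [Fintype.expect_eq_sum_div_card]
  exact (tendsto_finsetSum _ fun c _ => h c).div_const _

section family

variable {T : Tr} {π : ℕ → ℕ → ℝ} {A : ℕ → ℕ → ℕ → ℕ → ℝ} {p m : ℕ → ℕ → ℝ}

theorem Dense_nval_tendsto (h : T.Valid)
    (hπ : ∀ s < T.b, Tendsto (fun i => π i s) atTop (𝓝 (T.π s)))
    (hA : ∀ k < T.r, ∀ s < T.b, ∀ s' < T.b, Tendsto (fun i => A i k s s') atTop (𝓝 (T.A k s s')))
    (hm : ∀ k < T.r, Tendsto (fun i => m i k) atTop (𝓝 (T.m k))) (L : ℕ)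
    {W : ℕ → (Fin L → Fin T.b) → ℝ} {W' : (Fin L → Fin T.b) → ℝ}
    (hW : ∀ s, Tendsto (fun i => W i s) atTop (𝓝 (W' s))) {c : ℝ} (hc : 0 < c)
    (hW' : ∀ s, c ≤ W' s ∧ W' s ≤ 1) :
    Tendsto (fun i => (Tr.mk T.b T.r (π i) (A i) (p i) (m i)).nval L (W i)) atTop
      (𝓝 (T.nval L W')) := by
  change Tendsto (fun i => ∑ s : Fin L → Fin T.b, (∏ j, π i (s j)) * -Real.log
    (pm (fun k (s s' : Fin L → Fin T.b) => ∏ j, A i k (s j) (s' j)) (m i) (W i) T.r s)) atTop _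
  refine tendsto_finsetSum _ fun s _ => Tendsto.mul
    (tendsto_finsetProd _ fun j _ => hπ _ (s j).2) (Tendsto.neg (Tendsto.log ?_ ?_))
  · exact pm_tendsto (fun k hk s s' => tendsto_finsetProd _ fun j _ => hA k hk _ (s j).2 _ (s' j).2)
      hm h.m0 hW s
  · exact (hc.trans_le (h.pm_mem L hc.le hW' le_rfl s).1).ne'

theorem Dense_q_tendsto (hp : ∀ s < T.b, Tendsto (fun i => p i s) atTop (𝓝 (T.p s)))
    (s : Fin T.b) (σ : Bool) :
    Tendsto (fun i => (Tr.mk T.b T.r (π i) (A i) (p i) (m i)).q s σ) atTop (𝓝 (T.q s σ)) := by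
  cases σ
  · exact (hp s s.2).const_sub 1
  · exact hp s s.2

theorem Dense_edge_tendsto (h : T.Valid)
    (hπ : ∀ s < T.b, Tendsto (fun i => π i s) atTop (𝓝 (T.π s)))
    (hA : ∀ k < T.r, ∀ s < T.b, ∀ s' < T.b, Tendsto (fun i => A i k s s') atTop (𝓝 (T.A k s s')))
    (hp : ∀ s < T.b, Tendsto (fun i => p i s) atTop (𝓝 (T.p s)))
    (hm : ∀ k < T.r, Tendsto (fun i => m i k) atTop (𝓝 (T.m k))) {κ : ℝ} (hκ0 : 0 ≤ κ)
    (hκ1 : κ < 1) :
    Tendsto (fun i => (Tr.mk T.b T.r (π i) (A i) (p i) (m i)).edge κ) atTop (𝓝 (T.edge κ)) :=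
  Dense_expect_tendsto fun J => Dense_nval_tendsto h hπ hA hm 3
    (fun s => ((tendsto_finsetProd _ fun ℓ _ => Dense_q_tendsto hp (s ℓ) (J ℓ)).const_mul κ).const_sub
      1) (sub_pos.2 hκ1) (h.edgeW_mem hκ0 J)

theorem Dense_site_tendsto (h : T.Valid)
    (hπ : ∀ s < T.b, Tendsto (fun i => π i s) atTop (𝓝 (T.π s)))
    (hA : ∀ k < T.r, ∀ s < T.b, ∀ s' < T.b, Tendsto (fun i => A i k s s') atTop (𝓝 (T.A k s s')))
    (hp : ∀ s < T.b, Tendsto (fun i => p i s) atTop (𝓝 (T.p s)))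
    (hm : ∀ k < T.r, Tendsto (fun i => m i k) atTop (𝓝 (T.m k))) {κ : ℝ} (hκ0 : 0 ≤ κ)
    (hκ1 : κ < 1) (d : ℕ) :
    Tendsto (fun i => (Tr.mk T.b T.r (π i) (A i) (p i) (m i)).site κ d) atTop (𝓝 (T.site κ d)) :=
  Dense_expect_tendsto fun J => Dense_nval_tendsto h hπ hA hm (d * 2)
    (fun s => (tendsto_finsetSum _ fun ε _ => tendsto_finsetProd _ fun j _ =>
      (((Dense_q_tendsto hp _ _).mul (Dense_q_tendsto hp _ _)).const_mul _).const_sub 1).const_mul _)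
    (pow_pos (sub_pos.2 hκ1) d) (h.siteW_mem hκ0 hκ1.le d J)

end family

theorem Dense_getD {α : Type*} {b s : ℕ} (hs : s < b) (f : ℕ → α) (x : α) :
    ((List.range b).map f).getD s x = f s := by
  rw [List.getD_eq_getElem _ _ (by simpa using hs)]
  simp

/-- Approximate `π` and the rows of `A` by `exists_rat_prob`, `p` and `m` by `⌊i x⌋₊ / i`; code
the data by `(List.range _).map`. The codes `T' i = (T.b, T.r, ..)` are eventually valid and
`edge`, `site` converge (`pm_tendsto`, `Tr.Valid.pm_mem` for positivity, `Tendsto.log`). -/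
theorem exists_code {T : Tr} (h : T.Valid) {a κ : ℝ} (hκ0 : 0 ≤ κ) (hκ1 : κ < 1) (D : ℕ)
    (hlt : 1 + a * 2 * T.edge κ < ∑ d ∈ range D, poissonWeight (a * 3) d * T.site κ d) :
    ∃ T' : TC, T'.toTr.Valid ∧ 1 + a * 2 * T'.toTr.edge κ <
      ∑ d ∈ range D, poissonWeight (a * 3) d * T'.toTr.site κ d := by
  obtain ⟨y, hy0, hy1, hy⟩ := exists_rat_prob h.π0 h.π1
  choose! z hz0 hz1 hz using fun k (hk : k < T.r) s (hs : s < T.b) =>
    exists_rat_prob (h.A0 k hk s hs) (h.A1 k hk s hs)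
  let C : ℕ → TC := fun i => (T.b, T.r, (List.range T.b).map (y i),
    (List.range T.r).map fun k => (List.range T.b).map fun s => (List.range T.b).map (z k s i),
    (List.range T.b).map fun s => (⌊T.p s * i⌋₊ : ℚ) / i,
    (List.range T.r).map fun k => (⌊T.m k * i⌋₊ : ℚ) / i)
  have eπ : ∀ i, ∀ s < T.b, (C i).toTr.π s = y i s := fun i s hs =>
    congrArg Rat.cast (Dense_getD hs _ _)
  have eA : ∀ i, ∀ k < T.r, ∀ s < T.b, ∀ s' < T.b, (C i).toTr.A k s s' = z k s i s' := by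
    intro i k hk s hs s' hs'
    refine congrArg Rat.cast ?_
    simp only [TC.A, C]
    rw [Dense_getD hk, Dense_getD hs, Dense_getD hs']
  have ep : ∀ i, ∀ s < T.b, (C i).toTr.p s = (⌊T.p s * i⌋₊ : ℝ) / i := fun i s hs =>
    (congrArg Rat.cast (Dense_getD hs _ _)).trans (by push_cast; rfl)
  have em : ∀ i, ∀ k < T.r, (C i).toTr.m k = (⌊T.m k * i⌋₊ : ℝ) / i := fun i k hk =>
    (congrArg Rat.cast (Dense_getD hk _ _)).trans (by push_cast; rfl)
  have hπ : ∀ s < T.b, Tendsto (fun i => (C i).toTr.π s) atTop (𝓝 (T.π s)) := fun s hs =>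
    (hy s hs).congr fun i => (eπ i s hs).symm
  have hA : ∀ k < T.r, ∀ s < T.b, ∀ s' < T.b,
      Tendsto (fun i => (C i).toTr.A k s s') atTop (𝓝 (T.A k s s')) := fun k hk s hs s' hs' =>
    (hz k hk s hs s' hs').congr fun i => (eA i k hk s hs s' hs').symm
  have hp : ∀ s < T.b, Tendsto (fun i => (C i).toTr.p s) atTop (𝓝 (T.p s)) := fun s hs =>
    (Dense_floor (h.p0 s hs)).congr fun i => (ep i s hs).symm
  have hm : ∀ k < T.r, Tendsto (fun i => (C i).toTr.m k) atTop (𝓝 (T.m k)) := fun k hk =>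
    (Dense_floor (h.m0 k hk).le).congr fun i => (em i k hk).symm
  have h1 : Tendsto (fun i => 1 + a * 2 * (C i).toTr.edge κ) atTop (𝓝 (1 + a * 2 * T.edge κ)) :=
    ((Dense_edge_tendsto h hπ hA hp hm hκ0 hκ1).const_mul _).const_add _
  have h2 : Tendsto (fun i => ∑ d ∈ range D, poissonWeight (a * 3) d * (C i).toTr.site κ d) atTop
      (𝓝 (∑ d ∈ range D, poissonWeight (a * 3) d * T.site κ d)) :=
    tendsto_finsetSum _ fun d _ => (Dense_site_tendsto h hπ hA hp hm hκ0 hκ1 d).const_mul _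
  have h3 : ∀ᶠ i in atTop, ∀ k ∈ range T.r, 0 < (C i).toTr.m k ∧ (C i).toTr.m k < 1 ∧
      (k + 1 < T.r → (C i).toTr.m (k + 1) < (C i).toTr.m k) := by
    refine (eventually_all_finset _).2 fun k hk => ?_
    have hk' := mem_range.1 hk
    refine ((hm k hk').eventually (lt_mem_nhds (h.m0 k hk'))).and
      (((hm k hk').eventually (gt_mem_nhds (h.m1 k hk'))).and ?_)
    by_cases hk1 : k + 1 < T.r
    · exact ((hm _ hk1).eventually_lt (hm k hk') (h.manti k hk1)).mono fun i hi _ => hi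
    · exact Eventually.of_forall fun i hi => absurd hi hk1
  obtain ⟨i, hi1, hi2⟩ := ((h1.eventually_lt h2 hlt).and h3).exists
  refine ⟨C i, ⟨fun s hs => ?_, ?_, fun k hk s hs s' hs' => ?_, fun k hk s hs => ?_,
    fun s hs => ?_, fun s hs => ?_, fun k hk => (hi2 k (mem_range.2 hk)).1,
    fun k hk => (hi2 k (mem_range.2 hk)).2.1,
    fun k hk => (hi2 k (mem_range.2 (Nat.lt_of_succ_lt hk))).2.2 hk⟩, hi1⟩
  · rw [eπ i s hs]
    exact_mod_cast hy0 i s
  · refine (sum_congr rfl fun s hs => eπ i s (mem_range.1 hs)).trans ?_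
    exact_mod_cast hy1 i
  · rw [eA i k hk s hs s' hs']
    exact_mod_cast hz0 k hk s hs i s'
  · refine (sum_congr rfl fun s' hs' => eA i k hk s hs s' (mem_range.1 hs')).trans ?_
    exact_mod_cast hz1 k hk s hs i
  · rw [ep i s hs]
    positivity
  · rw [ep i s hs]
    have hi0 : (0 : ℝ) ≤ i := Nat.cast_nonneg i
    exact div_le_one_of_le₀ ((Nat.floor_le (mul_nonneg (h.p0 s hs) hi0)).trans
      (mul_le_of_le_one_left hi0 (h.p1 s hs))) hi0

end Crest.Agent.R153
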