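import Crest.Agent.R153.Count

/-! # Row 153: two literals of a clause touching `X` are dominated by independent literals -/

set_option autoImplicit false
set_option linter.unusedVariables false
set_option linter.unusedSectionVars false

namespace Crest.Agent.R153

open Finset
open scoped BigOperators
open Crest.ProbabilityR.RandomSAT

variable {k n : ℕ}

theorem dom_expect_le {C D : Type*} [Fintype C] [Fintype D] [DecidableEq D] [Nonempty D] (T : C → D)
    (h : ∀ d d', (univ.filter fun c => T c = d).card ≤ (univ.filter fun c => T c = d').card)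
    (ψ : D → ℝ) (hψ : ∀ d, 0 ≤ ψ d) : 𝔼 c, ψ (T c) ≤ (∑ d, ψ d) / Fintype.card D := by
  have h1 : ∀ d, ((univ.filter fun c => T c = d).card : ℝ) * Fintype.card D ≤ Fintype.card C := by
    intro d
    have h2 : Fintype.card C = ∑ d', (univ.filter fun c => T c = d').card :=
      card_eq_sum_card_fiberwise fun _ _ => mem_univ _
    have h3 := card_nsmul_le_sum univ (fun d' => (univ.filter fun c => T c = d').card) _
      fun d' _ => h d d'
    rw [← h2, smul_eq_mul, card_univ, mul_comm] at h3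
    exact_mod_cast h3
  have hD : (0 : ℝ) < Fintype.card D := by exact_mod_cast Fintype.card_pos
  rw [Fintype.expect_eq_sum_div_card, ← sum_fiberwise' univ T ψ]
  rcases (Fintype.card C).eq_zero_or_pos with hC | hC
  · rw [hC, Nat.cast_zero, div_zero]
    exact div_nonneg (sum_nonneg fun d _ => hψ d) hD.le
  rw [div_le_div_iff₀ (by exact_mod_cast hC) hD, sum_mul, sum_mul]
  refine sum_le_sum fun d _ => ?_
  rw [sum_const, nsmul_eq_mul, mul_right_comm, mul_comm (ψ d)]
  exact mul_le_mul_of_nonneg_right (h1 d) (hψ d)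

/-- The triple (variable at `a`, literal at `p`, literal at `q`) takes each value with
probability at most `1 / (4 n (n-1) (n-2)) ≤ 5 / (n (2n)^2)`. One proof: for a value
`(x, ℓ₁, ℓ₂)` with nonempty fibre and any target with `x', ℓ₁'.1, ℓ₂'.1` distinct there is a
permutation of `Fin n` moving the three variables to the target; applying it to the variables of
`c` and resetting the signs at `p, q` injects the fibre into the fibre of the target, so
`card fibre * (4 n (n-1) (n-2)) ≤ card (Clause k n)`. Then write the average as a sum over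
fibres (`Finset.sum_fiberwise`/`Finset.sum_comp`). -/
theorem dom_three (hn : k ≤ n) {a p q : Fin k} (hap : a ≠ p) (haq : a ≠ q) (hpq : p ≠ q)
    (X : Finset (Fin n)) (φ : Lit n → Lit n → ℝ) (hφ : ∀ ℓ ℓ', 0 ≤ φ ℓ ℓ') :
    𝔼 c : Clause k n, ind (c.1.1 a ∈ X) * φ (lit c p) (lit c q) ≤
      5 * X.card / n * 𝔼 ℓ : Lit n, 𝔼 ℓ' : Lit n, φ ℓ ℓ' := by
  classical
  have hi : Function.Injective ![a, p, q] := by
    intro i j
    fin_cases i <;> fin_cases j <;> simp [hap, haq, hpq, hap.symm, haq.symm, hpq.symm]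
  have hn3 : 3 ≤ n := le_trans (by simpa using Fintype.card_le_of_injective _ hi) hn
  let T : Clause k n → (Fin 3 ↪ Fin n) × Bool × Bool := fun c =>
    (⟨c.1.1 ∘ ![a, p, q], c.1.2.comp hi⟩, c.2 p, c.2 q)
  have : Nonempty (Fin 3 ↪ Fin n) := ⟨Fin.castLEEmb hn3⟩
  have key := dom_expect_le T (fun d d' => ?_)
    (fun d => ind (d.1 0 ∈ X) * φ (d.1 1, d.2.1) (d.1 2, d.2.2))
    fun d => mul_nonneg (ind_nonneg _) (hφ _ _)
  · refine key.trans ?_
    have h1 : ∑ d : (Fin 3 ↪ Fin n) × Bool × Bool,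
        ind (d.1 0 ∈ X) * φ (d.1 1, d.2.1) (d.1 2, d.2.2) ≤
        ∑ t : Fin n × Lit n × Lit n, ind (t.1 ∈ X) * φ t.2.1 t.2.2 := by
      refine le_trans (sum_image (g := fun d : (Fin 3 ↪ Fin n) × Bool × Bool =>
        ((d.1 0, (d.1 1, d.2.1), (d.1 2, d.2.2)) : Fin n × Lit n × Lit n))
        (f := fun t => ind (t.1 ∈ X) * φ t.2.1 t.2.2) fun d _ d' _ h => ?_).ge
        (sum_le_univ_sum_of_nonneg fun t => mul_nonneg (ind_nonneg _) (hφ _ _))
      simp only [Prod.mk.injEq] at h
      obtain ⟨h0, ⟨h1, h2⟩, h3, h4⟩ := h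
      refine Prod.ext (DFunLike.ext _ _ fun i => ?_) (Prod.ext h2 h4)
      fin_cases i
      exacts [h0, h1, h3]
    have h2 : ∑ t : Fin n × Lit n × Lit n, ind (t.1 ∈ X) * φ t.2.1 t.2.2 =
        X.card * ∑ ℓ, ∑ ℓ', φ ℓ ℓ' := by
      simp only [Fintype.sum_prod_type (α₁ := Fin n) (α₂ := Lit n × Lit n),
        Fintype.sum_prod_type (α₁ := Lit n), ind_eq_ite]
      simp
    have hS : 0 ≤ ∑ ℓ, ∑ ℓ', φ ℓ ℓ' := sum_nonneg fun _ _ => sum_nonneg fun _ _ => hφ _ _
    obtain ⟨m, rfl⟩ := Nat.exists_eq_add_of_le' hn3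
    simp only [Fintype.expect_eq_sum_div_card, ← sum_div, Fintype.card_prod, Fintype.card_fin,
      Fintype.card_bool, Fintype.card_embedding_eq]
    refine (div_le_div_of_nonneg_right (h1.trans_eq h2) (by positivity)).trans ?_
    simp only [Nat.descFactorial_succ, Nat.descFactorial_zero, show m + 3 - 2 = m + 1 from rfl,
      show m + 3 - 1 = m + 2 from rfl, Nat.sub_zero]
    push_cast
    generalize (∑ ℓ, ∑ ℓ', φ ℓ ℓ') = S at hS
    have hm : (0 : ℝ) ≤ m := Nat.cast_nonneg m
    rw [div_div, div_mul_div_comm, div_le_div_iff₀ (by positivity) (by positivity)]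
    have h3 : ((m : ℝ) + 3) ^ 2 ≤ 5 * ((m + 1) * (m + 2)) := by nlinarith
    have h4 := mul_le_mul_of_nonneg_left h3 (show 0 ≤ 4 * (X.card * S * (m + 3)) by positivity)
    linarith
  obtain ⟨σ, hσ⟩ := Equiv.Perm.exists_extending_pair _ _ d.1.injective d'.1.injective
  refine card_le_card_of_injOn (fun c => (⟨σ ∘ c.1.1, σ.injective.comp c.1.2⟩,
    Function.update (Function.update c.2 p d'.2.1) q d'.2.2)) (fun c hc => ?_)
    fun c hc c' hc' h => ?_
  · obtain rfl := (mem_filter.1 hc).2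
    refine mem_filter.2 ⟨mem_univ _, Prod.ext (DFunLike.ext _ _ fun i => hσ i) (Prod.ext ?_ ?_)⟩
    · simp [T, hpq]
    · simp [T]
  · have e := (mem_filter.1 hc).2.trans (mem_filter.1 hc').2.symm
    simp only [T, Prod.mk.injEq, Subtype.mk.injEq] at h e
    refine Prod.ext (Subtype.ext (σ.injective.comp_left h.1)) (funext fun i => ?_)
    by_cases h1 : i = q
    · rw [h1, e.2.2]
    by_cases h2 : i = p
    · rw [h2, e.2.1]
    simpa [h1, h2] using congrFun h.2 i

/-- Choose for each position `a` two distinct positions `P a, Q a ≠ a`, and for a clause touching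
`X` a position `a(c)` with variable in `X`; `p c = P (a c)`, `q c = Q (a c)`. For one clause bound
the integrand by the sum over `a` of the integrands of `dom_three`. Then induct on `d`
generalizing `Φ` (`EL_succ`, `EL_expect`, `ind_and`). -/
theorem exists_pick (hk : 3 ≤ k) (hn : k ≤ n) (X : Finset (Fin n)) :
    ∃ p q : Clause k n → Fin k, ∀ (d : ℕ) (Φ : List (Lit n) → List (Lit n) → ℝ),
      (∀ U V, 0 ≤ Φ U V) →
      EL d (fun W : List (Clause k n) => ind (∀ c ∈ W, ∃ i, c.1.1 i ∈ X) *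
          Φ (W.map fun c => lit c (p c)) (W.map fun c => lit c (q c))) ≤
        (5 * k * X.card / n) ^ d * EL d (fun U => EL d (fun V => Φ U V)) := by
  classical
  have h0 : ∀ a : Fin k, ∃ p q : Fin k, a ≠ p ∧ a ≠ q ∧ p ≠ q := fun a => by
    obtain ⟨p, hp, q, hq, hpq⟩ := one_lt_card.1
      (show 1 < ((univ : Finset (Fin k)).erase a).card by simp; omega)
    exact ⟨p, q, (mem_erase.1 hp).1.symm, (mem_erase.1 hq).1.symm, hpq⟩
  choose P Q hP hQ hPQ using h0
  have h1 : ∀ c : Clause k n, ∃ a, (∃ i, c.1.1 i ∈ X) → c.1.1 a ∈ X := fun c => by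
    by_cases h : ∃ i, c.1.1 i ∈ X
    · exact h.imp fun _ h _ => h
    · exact ⟨⟨0, by omega⟩, fun h' => absurd h' h⟩
  choose A hA using h1
  have h2 : ∀ φ : Lit n → Lit n → ℝ, (∀ ℓ ℓ', 0 ≤ φ ℓ ℓ') →
      𝔼 c : Clause k n, ind (∃ i, c.1.1 i ∈ X) * φ (lit c (P (A c))) (lit c (Q (A c))) ≤
        5 * k * X.card / n * 𝔼 ℓ : Lit n, 𝔼 ℓ' : Lit n, φ ℓ ℓ' := fun φ hφ => by
    refine (expect_le_expect (g := fun c : Clause k n =>
      ∑ a, ind (c.1.1 a ∈ X) * φ (lit c (P a)) (lit c (Q a))) fun c _ => ?_).trans ?_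
    · exact (mul_le_mul_of_nonneg_right (ind_mono (hA c)) (hφ _ _)).trans
        (single_le_sum (f := fun a => ind (c.1.1 a ∈ X) * φ (lit c (P a)) (lit c (Q a)))
          (fun a _ => mul_nonneg (ind_nonneg _) (hφ _ _)) (mem_univ (A c)))
    rw [expect_sum_comm]
    refine (sum_le_sum fun a _ => dom_three hn (hP a) (hQ a) (hPQ a) X φ hφ).trans_eq ?_
    rw [sum_const, card_univ, Fintype.card_fin, nsmul_eq_mul]
    ring
  refine ⟨fun c => P (A c), fun c => Q (A c), fun d => ?_⟩
  induction d with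
  | zero => intro Φ _; simp [ind_pos]
  | succ d ih =>
    intro Φ hΦ
    have hK : (0 : ℝ) ≤ (5 * k * X.card / n) ^ d := by positivity
    simp only [EL_succ, List.forall_mem_cons, ind_and, List.map_cons, mul_assoc (ind _),
      EL_const_mul, EL_expect]
    refine (expect_le_expect fun c _ => mul_le_mul_of_nonneg_left
      (ih (fun U V => Φ (lit c (P (A c)) :: U) (lit c (Q (A c)) :: V)) fun _ _ => hΦ _ _)
      (ind_nonneg _)).trans ?_
    refine (h2 (fun ℓ ℓ' => (5 * k * X.card / n) ^ d *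
      EL d fun U => EL d fun V => Φ (ℓ :: U) (ℓ' :: V)) fun _ _ =>
        mul_nonneg hK (EL_nonneg fun _ _ => EL_nonneg fun _ _ => hΦ _ _)).trans_eq ?_
    simp only [← mul_expect]
    ring

/-- Induction on `d` generalizing `X`. -/
theorem not_good_le (hn : 0 < n) (d : ℕ) (X : Finset (Fin n)) :
    EL d (fun U : List (Lit n) => ind (¬ Good X U)) ≤ d * (X.card + d) / n := by
  classical
  have : Nonempty (Lit n) := ⟨(⟨0, hn⟩, true)⟩
  have hn' : (0 : ℝ) < n := by exact_mod_cast hn
  induction d generalizing X with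
  | zero => simp [Good, ind_neg]
  | succ d ih =>
    have h1 : 𝔼 ℓ : Lit n, ind (ℓ.1 ∈ X) = X.card / n := by
      rw [expect_ind, show (univ.filter fun ℓ : Lit n => ℓ.1 ∈ X) = X ×ˢ univ by ext; simp]
      simp
      field_simp
    rw [EL_succ]
    refine (expect_le_expect (g := fun ℓ : Lit n => ind (ℓ.1 ∈ X) + d * (X.card + 1 + d) / n)
      fun ℓ _ => ?_).trans ?_
    · refine (EL_mono (g := fun U => ind (ℓ.1 ∈ X) + ind (¬ Good (insert ℓ.1 X) U))
        fun U _ => (ind_mono fun h => ?_).trans (ind_or_le _ _)).trans ?_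
      · simp only [Good] at h
        tauto
      rw [EL_add, EL_const]
      refine add_le_add le_rfl ((ih _).trans ?_)
      have : ((insert ℓ.1 X).card : ℝ) ≤ X.card + 1 := by exact_mod_cast card_insert_le _ _
      gcongr
    rw [expect_add_distrib, h1, Fintype.expect_const, ← add_div]
    gcongr
    push_cast
    nlinarith [Nat.cast_nonneg (α := ℝ) d]

theorem Good.avoid {X : Finset (Fin n)} {U : List (Lit n)} (h : Good X U) :
    ∀ ℓ ∈ U, ℓ.1 ∉ X := by
  induction U generalizing X with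
  | nil => simp
  | cons ℓ U ih =>
    exact List.forall_mem_cons.2 ⟨h.1, fun ℓ' hℓ' hX => ih h.2 ℓ' hℓ' (mem_insert_of_mem hX)⟩

/-- Induction on `U` generalizing `X`, with `Function.update` and `Good.avoid`. -/
theorem Good.consistent {X : Finset (Fin n)} {U : List (Lit n)} (h : Good X U) :
    ∃ σ, en vL U σ = 0 := by
  induction U generalizing X with
  | nil => exact ⟨fun _ => true, rfl⟩
  | cons ℓ U ih =>
    obtain ⟨σ, hσ⟩ := ih h.2
    refine ⟨Function.update σ ℓ.1 ℓ.2, ?_⟩
    rw [en_cons, Pi.add_apply, ← hσ, show vL ℓ (Function.update σ ℓ.1 ℓ.2) = 0 by simp [vL],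
      zero_add, en, en]
    refine congrArg List.sum (List.map_congr_left fun ℓ' hℓ' => ?_)
    have : ℓ'.1 ≠ ℓ.1 := fun e => h.2.avoid ℓ' hℓ' (e ▸ mem_insert_self _ _)
    simp [vL, this]

end Crest.Agent.R153
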