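import Crest.Agent.R153.Split
import Crest.Agent.R153.Count

/-! # Row 153: ground state energy comparisons (Lindeberg replacement, blocks) -/

set_option autoImplicit false
set_option linter.unusedVariables false
set_option linter.unusedSectionVars false

namespace Crest.Agent.R153

open Finset
open scoped BigOperators
open Crest.ProbabilityR.RandomSAT

/-- Induction on `m` generalizing `E`; move the average over the new constraint inside
(`EL_expect`), using commutativity of `+` on energies. -/
theorem lindeberg {Ω C D : Type*} [Fintype C] [Fintype D] [Nonempty C] [Nonempty D]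
    (v : C → Ω → ℕ) (w : D → Ω → ℕ) (ε : ℝ)
    (h : ∀ E : Ω → ℕ, 𝔼 c : C, (minE (E + v c) : ℝ) ≤ 𝔼 d : D, (minE (E + w d) : ℝ) + ε)
    (m : ℕ) (E : Ω → ℕ) :
    EL m (fun G : List C => (minE (E + en v G) : ℝ)) ≤
      EL m (fun G : List D => (minE (E + en w G) : ℝ)) + m * ε := by
  induction m generalizing E with
  | zero => simp
  | succ m ih =>
    have h1 : EL (m + 1) (fun G : List C => (minE (E + en v G) : ℝ)) ≤
        𝔼 c : C, (EL m (fun G : List D => (minE (E + en w G + v c) : ℝ)) + m * ε) := by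
      rw [EL_succ]
      refine expect_le_expect fun c _ => ?_
      simp only [en_cons, ← add_assoc, add_right_comm E _ (v c)]
      exact ih (E + v c)
    rw [expect_add_distrib, Fintype.expect_const, ← EL_expect] at h1
    have h2 : EL m (fun G : List D => 𝔼 c : C, (minE (E + en w G + v c) : ℝ)) ≤
        EL m (fun G : List D => 𝔼 d : D, (minE (E + en w G + w d) : ℝ) + ε) :=
      EL_mono fun G _ => h _
    rw [EL_add, EL_const, EL_expect univ m fun d G => (minE (E + en w G + w d) : ℝ)] at h2
    have h3 : EL (m + 1) (fun G : List D => (minE (E + en w G) : ℝ)) =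
        𝔼 d : D, EL m (fun G : List D => (minE (E + en w G + w d) : ℝ)) := by
      rw [EL_succ]
      refine expect_congr rfl fun d _ => ?_
      simp only [en_cons, ← add_assoc, add_right_comm E _ (w d)]
    rw [h3]
    push_cast
    linarith

variable {k n : ℕ}

theorem energy_en_le (G : List (Fin k → Lit n)) (σ : Fin n → Bool) : en vR G σ ≤ G.length := by
  induction G with
  | nil => simp
  | cons c G ih =>
    have : vR c σ ≤ 1 := by
      unfold vR
      split_ifs <;> simp
    simp only [en_cons, Pi.add_apply, List.length_cons]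
    omega

theorem energy_minE_add (E : (Fin n → Bool) → ℕ) (G : List (Fin k → Lit n)) :
    minE (E + en vR G) ≤ minE E + G.length := by
  obtain ⟨σ, hσ⟩ := exists_minE E
  rw [← hσ]
  exact (minE_le _ σ).trans (Nat.add_le_add_left (energy_en_le G σ) _)

theorem energy_nonempty (hn : 0 < n) : Nonempty (Fin k → Lit n) := ⟨fun _ => (⟨0, hn⟩, true)⟩

/-- `not_alive_of_kill`, `alive_of_not_kill`, `alive_iff_minE_le`, costs are `≤ 1`. -/
theorem minE_add_vR (hk : 0 < k) (E : (Fin n → Bool) → ℕ) (c : Fin k → Lit n) :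
    (minE (E + vR c) : ℝ) = minE E + ind (∀ i, c i ∈ Kill (minE E) E) := by
  by_cases h : ∀ i, c i ∈ Kill (minE E) E
  · have h1 := not_alive_of_kill hk h
    rw [alive_iff_minE_le] at h1
    have h2 := energy_minE_add E [c]
    simp only [en_cons, en_nil, add_zero, List.length_cons, List.length_nil] at h2
    rw [ind_pos h, show minE (E + vR c) = minE E + 1 by omega]
    push_cast
    rfl
  · rw [ind_neg h, add_zero]
    obtain ⟨i, hi⟩ := not_forall.1 h
    have h1 := alive_iff_minE_le.1 (alive_of_not_kill hi)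
    rw [le_antisymm h1 (minE_mono le_self_add)]

theorem energy_injOn (E : (Fin n → Bool) → ℕ) :
    Set.InjOn Prod.fst (Kill (minE E) E : Set (Lit n)) :=
  Kill_injOn (alive_iff_minE_le.2 le_rfl)

theorem energy_expect_R (hk : 0 < k) (hn : 0 < n) (E : (Fin n → Bool) → ℕ) :
    𝔼 c : Fin k → Lit n, (minE (E + vR c) : ℝ) =
      minE E + (((Kill (minE E) E).card : ℝ) / (2 * n)) ^ k := by
  have := energy_nonempty (k := k) hn
  simp only [minE_add_vR hk]
  rw [expect_add_distrib, Fintype.expect_const, expect_allIn_R]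

theorem energy_expect_D (hk : 0 < k) (hn : k ≤ n) (E : (Fin n → Bool) → ℕ) :
    𝔼 c : Clause k n, (minE (E + vC c) : ℝ) =
      minE E + 𝔼 c : Clause k n, ind (∀ i, lit c i ∈ Kill (minE E) E) := by
  have := clause_nonempty hn
  simp only [vC_eq_vR, minE_add_vR hk]
  rw [expect_add_distrib, Fintype.expect_const]

/-- `lindeberg` with `ε = 0`, `vC_eq_vR`, `expect_allIn_D_le`, `expect_allIn_R`, `Kill_injOn`. -/
theorem eD_le_eR (hk : 0 < k) (hn : k ≤ n) (m : ℕ) : eD k n m ≤ eR k n m := by
  have := clause_nonempty hn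
  have := energy_nonempty (k := k) (hk.trans_le hn)
  have h := lindeberg (vC (k := k) (n := n)) (vR (k := k)) 0 (fun E => ?_) m 0
  · simpa [eD, eR] using h
  · rw [energy_expect_R hk (hk.trans_le hn), energy_expect_D hk hn, add_zero]
    exact add_le_add_right (expect_allIn_D_le hn (energy_injOn E)) _

theorem eR_le_eD (hn : 3 ≤ n) (m : ℕ) : eR 3 n m ≤ eD 3 n m + m * (1 / n) := by
  have := clause_nonempty hn
  have hn0 : 0 < n := by omega
  have := energy_nonempty (k := 3) hn0
  have h := lindeberg (vR (k := 3)) (vC (k := 3) (n := n)) (1 / n) (fun E => ?_) m 0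
  · simpa only [eD, eR, zero_add] using h
  · rw [energy_expect_R three_pos hn0, energy_expect_D three_pos hn, add_assoc]
    exact add_le_add_right (le_expect_allIn_D hn (energy_injOn E)) _

theorem eR_nonneg (k n m : ℕ) : 0 ≤ eR k n m := by
  exact EL_nonneg fun _ _ => Nat.cast_nonneg _

theorem eR_le (hn : 0 < n) (m : ℕ) : eR k n m ≤ m := by
  have := energy_nonempty (k := k) hn
  refine EL_le_const fun G hG => ?_
  rw [← hG, Nat.cast_le]
  exact (minE_le _ fun _ => true).trans (energy_en_le G _)

theorem eR_mono (hn : 0 < n) {m m' : ℕ} (h : m ≤ m') : eR k n m ≤ eR k n m' := by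
  have := energy_nonempty (k := k) hn
  obtain ⟨d, rfl⟩ := Nat.exists_eq_add_of_le h
  rw [eR, eR, EL_append]
  refine EL_mono fun G _ => const_le_EL fun G' _ => ?_
  rw [Nat.cast_le, en_append]
  exact minE_mono le_self_add

/-- Each additional clause costs at most one (the subtraction is in `ℕ`). -/
theorem eR_le_add (hn : 0 < n) (m m' : ℕ) : eR k n m' ≤ eR k n m + ((m' - m : ℕ) : ℝ) := by
  have := energy_nonempty (k := k) hn
  rcases le_total m' m with h | h
  · exact (eR_mono hn h).trans (le_add_of_nonneg_right (Nat.cast_nonneg _))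
  · obtain ⟨d, rfl⟩ := Nat.exists_eq_add_of_le h
    rw [Nat.add_sub_cancel_left, eR, eR, EL_append, ← EL_const (C := Fin k → Lit n) m (d : ℝ),
      ← EL_add]
    refine EL_mono fun G _ => EL_le_const fun G' hG' => ?_
    rw [en_append, ← hG']
    exact_mod_cast energy_minE_add _ G'

/-- The literal `ℓ` placed in block `w`. -/
def energy_lit {L : ℕ} (w : Fin L) (ℓ : Lit n) : Lit (L * n) := (finProdFinEquiv (w, ℓ.1), ℓ.2)

/-- A clause placed in a block. -/
def energy_lift {L : ℕ} (p : Fin L × (Fin k → Lit n)) : Fin k → Lit (L * n) :=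
  fun i => energy_lit p.1 (p.2 i)

theorem energy_card {L : ℕ} (K : Finset (Lit (L * n))) :
    ∑ w : Fin L, (univ.filter fun ℓ : Lit n => energy_lit w ℓ ∈ K).card = K.card := by
  have h : (univ.filter fun p : Fin L × Lit n => energy_lit p.1 p.2 ∈ K).card = K.card := by
    refine card_bij (fun p _ => energy_lit p.1 p.2) (fun p hp => (mem_filter.1 hp).2) ?_ ?_
    · rintro ⟨w, x, b⟩ _ ⟨w', x', b'⟩ _ h
      simp only [energy_lit, Prod.mk.injEq, EmbeddingLike.apply_eq_iff_eq] at h
      obtain ⟨⟨rfl, rfl⟩, rfl⟩ := h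
      rfl
    · rintro ⟨y, b⟩ hy
      obtain ⟨⟨w, x⟩, rfl⟩ := finProdFinEquiv.surjective y
      exact ⟨(w, x, b), mem_filter.2 ⟨mem_univ _, hy⟩, rfl⟩
  rw [← h, card_filter, Fintype.sum_prod_type]
  simp only [card_filter]

theorem energy_step (hk : 0 < k) (hn : 0 < n) {L : ℕ} (hL : 0 < L)
    (E : (Fin (L * n) → Bool) → ℕ) :
    𝔼 c : Fin k → Lit (L * n), (minE (E + vR c) : ℝ) ≤
      𝔼 p : Fin L × (Fin k → Lit n), (minE (E + vR (energy_lift p)) : ℝ) := by
  have := energy_nonempty (k := k) hn
  have : Nonempty (Fin L) := ⟨⟨0, hL⟩⟩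
  rw [energy_expect_R hk (Nat.mul_pos hL hn)]
  simp only [minE_add_vR hk]
  rw [expect_add_distrib, Fintype.expect_const, ← univ_product_univ, expect_product]
  refine add_le_add_right ?_ _
  set K := Kill (minE E) E
  have h1 : ∀ w : Fin L, 𝔼 c : Fin k → Lit n, ind (∀ i, energy_lift (w, c) i ∈ K) =
      (((univ.filter fun ℓ : Lit n => energy_lit w ℓ ∈ K).card : ℝ) / (2 * n)) ^ k := by
    intro w
    rw [← expect_allIn_R]
    refine expect_congr rfl fun c _ => ind_congr ?_
    simp [energy_lift]
  have hL' : (0 : ℝ) < L := by exact_mod_cast hL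
  have h2 := Real.pow_arith_mean_le_arith_mean_pow univ (fun _ : Fin L => (L : ℝ)⁻¹)
    (fun w => ((univ.filter fun ℓ : Lit n => energy_lit w ℓ ∈ K).card : ℝ) / (2 * n))
    (fun _ _ => by positivity) (by simp [hL'.ne']) (fun _ _ => by positivity) k
  simp only [h1]
  rw [← mul_sum, ← mul_sum, ← sum_div, ← Nat.cast_sum, energy_card] at h2
  rw [Fintype.expect_eq_sum_div_card, Fintype.card_fin, div_eq_inv_mul _ (L : ℝ)]
  refine le_trans (le_of_eq ?_) h2
  congr 1
  push_cast
  field_simp

theorem energy_glue {L : ℕ} (G : List (Fin L × (Fin k → Lit n))) :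
    (minE (en (fun p => vR (energy_lift p)) G) : ℝ) ≤
      ∑ w, (minE (en vR (blockOf w G)) : ℝ) := by
  choose σ hσ using fun w : Fin L => exists_minE (en vR (blockOf w G))
  have key : ∀ G : List (Fin L × (Fin k → Lit n)), en (fun p => vR (energy_lift p)) G
      (fun x => σ (finProdFinEquiv.symm x).1 (finProdFinEquiv.symm x).2) =
      ∑ w, en vR (blockOf w G) (σ w) := by
    intro G
    induction G with
    | nil => simp [blockOf]
    | cons p G ih =>
      have h1 : ∀ w, en vR (blockOf w (p :: G)) (σ w) =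
          (if p.1 = w then vR p.2 (σ w) else 0) + en vR (blockOf w G) (σ w) := by
        intro w
        by_cases h : p.1 = w <;> simp [blockOf, h]
      simp only [h1, sum_add_distrib, sum_ite_eq, mem_univ, if_true, en_cons, Pi.add_apply, ih]
      congr 1
      simp only [vR, energy_lift, energy_lit, Equiv.symm_apply_apply]
  rw [← Nat.cast_sum, Nat.cast_le]
  refine (minE_le _ _).trans ((key G).trans_le (le_of_eq ?_))
  exact sum_congr rfl fun w _ => hσ w

/-- Block interpolation. A block clause `(w, c) : Fin L × (Fin k → Lit n)` has cost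
`vR (fun i => (finProdFinEquiv (w, (c i).1), (c i).2))`. With `K = Kill (minE E) E` and
`K_w = {ℓ | (finProdFinEquiv (w, ℓ.1), ℓ.2) ∈ K}`, `∑ w, card K_w = card K`, so by Jensen
(`(𝔼 w, a w)^k ≤ 𝔼 w, (a w)^k`, e.g. `Finset.pow_sum_div_card_le_sum_pow` or
`inner_le_nnorm_mul_nnorm`-free `Real.pow_arith_mean_le_arith_mean_pow`) `lindeberg` applies with
`ε = 0`. For block lists `minE (en G) ≤ ∑ w, minE (en vR (blockOf w G))` (glue minimisers), and
`EL_blockOf`, `eR_le_add`, `EL_blockOf_sq`, `sq_EL_le` give `eR k n m + √m` for each block. -/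
theorem eR_block (hk : 0 < k) (hn : 0 < n) {L : ℕ} (hL : 0 < L) (m : ℕ) :
    eR k (L * n) (L * m) ≤ L * (eR k n m + √m) := by
  have := energy_nonempty (k := k) hn
  have := energy_nonempty (k := k) (Nat.mul_pos hL hn)
  have : Nonempty (Fin L) := ⟨⟨0, hL⟩⟩
  have h := lindeberg (vR (k := k)) (fun p : Fin L × (Fin k → Lit n) => vR (energy_lift p)) 0
    (fun E => (energy_step hk hn hL E).trans_eq (add_zero _).symm) (L * m) 0
  simp only [zero_add, mul_zero, add_zero] at h
  refine h.trans ((EL_mono fun G _ => energy_glue G).trans ?_)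
  rw [EL_sum]
  refine (sum_le_sum (g := fun _ => eR k n m + √m) fun w _ => ?_).trans (by simp [mul_add])
  rw [EL_blockOf w (L * m) fun G => (minE (en vR G) : ℝ)]
  have h1 : EL (L * m) (fun G : List (Fin L × (Fin k → Lit n)) =>
      eR k n (blockOf w G).length) ≤
      EL (L * m) (fun G : List (Fin L × (Fin k → Lit n)) =>
        eR k n m + |((blockOf w G).length : ℝ) - m|) := by
    refine EL_mono fun G _ => (eR_le_add hn m _).trans (add_le_add_right ?_ _)
    rcases le_total (blockOf w G).length m with h | h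
    · rw [Nat.sub_eq_zero_of_le h, Nat.cast_zero]
      exact abs_nonneg _
    · rw [Nat.cast_sub h]
      exact le_abs_self _
  rw [EL_add, EL_const] at h1
  refine h1.trans (add_le_add_right (Real.le_sqrt_of_sq_le ((sq_EL_le _ _).trans ?_)) _)
  have h2 := EL_blockOf_sq (C := Fin k → Lit n) w (L * m)
  have hL' : (L : ℝ) ≠ 0 := by exact_mod_cast hL.ne'
  rw [Fintype.card_fin, Nat.cast_mul, mul_div_cancel_left₀ _ hL'] at h2
  simpa only [sq_abs] using h2

end Crest.Agent.R153
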