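import Crest.Agent.R153.Tau
import Crest.Agent.R153.Count

/-! # Row 153: the hazard bounds -/

set_option autoImplicit false
set_option linter.unusedVariables false
set_option linter.unusedSectionVars false

namespace Crest.Agent.R153

open Finset
open scoped BigOperators
open Crest.ProbabilityR.RandomSAT

variable {k n : ℕ}

theorem hazard_q_nonneg (hk : 0 < k) (hn : k ≤ n) {θ : ℝ} (hθ : 0 ≤ θ) (hθ' : θ ≤ 2 * n) :
    0 ≤ 1 - (θ / (2 * n)) ^ k := by
  have hn0 : (0 : ℝ) < n := by exact_mod_cast hk.trans_le hn
  have h1 : θ / (2 * n) ≤ 1 := by rwa [div_le_one (by positivity)]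
  exact sub_nonneg.2 (pow_le_one₀ (by positivity) h1)

theorem hazard_tau_cons {Ω C : Type*} (v : C → Ω → ℕ) (j : ℕ) (E : Ω → ℕ) (c : C) (G : List C) :
    tau v j E (c :: G) ≤ 1 + tau v j (E + v c) G := by
  rw [tau]
  split_ifs <;> omega

theorem hazard_expect_le {C : Type*} [Fintype C] [Nonempty C] {f : C → ℝ} {a : ℝ}
    (h : ∀ c, f c ≤ a) : 𝔼 c : C, f c ≤ a :=
  expect_le univ_nonempty fun c _ => h c

/-- With many killing literals the process dies geometrically fast. Induction on `s`
generalizing `M E`: `s + 1 < tau E (c :: G)` gives `s < tau (E + vC c) G` and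
`Alive j (E + vC c)`; use `Kill_mono` and `hazard_one` (for `M = 0` the event is impossible). -/
theorem survive_le (hk : 0 < k) (hn : k ≤ n) {θ : ℝ} (hθ : 0 ≤ θ) (hθ' : θ ≤ 2 * n) (j s M : ℕ)
    {E : (Fin n → Bool) → ℕ} (h : θ + k ≤ (Kill j E).card) :
    EL M (fun G : List (Clause k n) => ind (s < tau vC j E G)) ≤ (1 - (θ / (2 * n)) ^ k) ^ s := by
  have := clause_nonempty hn
  have hq := hazard_q_nonneg hk hn hθ hθ'
  induction s generalizing M E with
  | zero => rw [pow_zero]; exact EL_le_const fun G _ => ind_le_one _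
  | succ s ih =>
    cases M with
    | zero =>
      have h1 := tau_le vC j E ([] : List (Clause k n))
      rw [EL_zero, ind_neg (by simp only [List.length_nil] at h1; omega)]
      positivity
    | succ M =>
      rw [EL_succ]
      have key : ∀ c : Clause k n, EL M (fun G => ind (s + 1 < tau vC j E (c :: G))) ≤
          ind (Alive j (E + vC c)) * (1 - (θ / (2 * n)) ^ k) ^ s := by
        intro c
        by_cases ha : Alive j (E + vC c)
        · rw [ind_pos ha, one_mul]
          have hc : θ + k ≤ (Kill j (E + vC c)).card :=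
            h.trans (by exact_mod_cast card_le_card (Kill_mono le_self_add))
          refine le_trans (EL_mono fun G _ => ind_mono fun hG => ?_) (ih M hc)
          have := hazard_tau_cons vC j E c G
          omega
        · rw [ind_neg ha, zero_mul]
          refine EL_le_const fun G _ => (ind_neg fun hG => ha ?_).le
          have h1 := hazard_tau_cons vC j E c G
          have h2 := ((lt_tau_iff vC j (E + vC c) G 0).1 (by omega)).2
          simpa using h2
      refine (expect_le_expect fun c _ => key c).trans ?_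
      rw [← expect_mul, pow_succ']
      exact mul_le_mul_of_nonneg_right (hazard_one hk hn hθ h) (pow_nonneg hq _)

/-- At some time there are many killing literals and the process survives `s` more steps. -/
def Bad (θ : ℝ) (j s : ℕ) (E : (Fin n → Bool) → ℕ) (G : List (Clause k n)) : Prop :=
  ∃ t, θ + k ≤ ((Kill j (E + en vC (G.take t))).card : ℝ) ∧ t + s < tau vC j E G

/-- Induction on `M` generalizing `E`: if `θ + k ≤ card (Kill j E)` use `survive_le`; otherwise
`t ≥ 1` (for `G = []` there is no such `t`) and `Bad E (c :: G) → Bad (E + vC c) G`. -/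
theorem bad_le (hk : 0 < k) (hn : k ≤ n) {θ : ℝ} (hθ : 0 ≤ θ) (hθ' : θ ≤ 2 * n) (j s M : ℕ)
    (E : (Fin n → Bool) → ℕ) :
    EL M (fun G : List (Clause k n) => ind (Bad θ j s E G)) ≤ (1 - (θ / (2 * n)) ^ k) ^ s := by
  have := clause_nonempty hn
  have hq := hazard_q_nonneg hk hn hθ hθ'
  induction M generalizing E with
  | zero =>
    by_cases h : θ + k ≤ (Kill j E).card
    · refine le_trans (EL_mono fun G _ => ind_mono ?_) (survive_le hk hn hθ hθ' j s 0 h)
      rintro ⟨t, -, ht⟩
      omega
    · rw [EL_zero, ind_neg]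
      · positivity
      · rintro ⟨t, ht, -⟩
        exact h (by simpa using ht)
  | succ M ih =>
    by_cases h : θ + k ≤ (Kill j E).card
    · refine le_trans (EL_mono fun G _ => ind_mono ?_) (survive_le hk hn hθ hθ' j s (M + 1) h)
      rintro ⟨t, -, ht⟩
      omega
    · rw [EL_succ]
      refine hazard_expect_le fun c => ?_
      refine le_trans (EL_mono fun G _ => ind_mono ?_) (ih (E + vC c))
      rintro ⟨t, ht, ht'⟩
      cases t with
      | zero => exact absurd (by simpa using ht) h
      | succ t =>
        refine ⟨t, ?_, ?_⟩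
        · rwa [List.take_succ_cons, en_cons, ← add_assoc] at ht
        · have := hazard_tau_cons vC j E c G
          omega

/-- One random unit clause. With `t = tau E G - s - 1`, the event forces
`ℓ ∈ Kill j (E + en vC (G.take t))` (`lt_tau_iff`, `tau_le`), which has fewer than `θ + k`
elements; `expect_ind`, `card (Lit n) = 2 n`. -/
theorem unit_le (hn : 0 < n) {θ : ℝ} (hθ : 0 ≤ θ) {j s : ℕ} {E : (Fin n → Bool) → ℕ}
    {G : List (Clause k n)} (h : ¬ Bad θ j s E G) :
    𝔼 ℓ : Lit n, ind (tau vC j (E + vL ℓ) G + s < tau vC j E G) ≤ (θ + k) / (2 * n) := by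
  classical
  have : Nonempty (Lit n) := ⟨(⟨0, hn⟩, true)⟩
  have hn0 : (0 : ℝ) < n := by exact_mod_cast hn
  by_cases hs : s < tau vC j E G
  · obtain ⟨t, ht⟩ : ∃ t, tau vC j E G = t + s + 1 := ⟨tau vC j E G - s - 1, by omega⟩
    have hlen := tau_le vC j E G
    have hK : ((Kill j (E + en vC (G.take t))).card : ℝ) < θ + k := by
      by_contra hc
      exact h ⟨t, not_lt.1 hc, by omega⟩
    have key : ∀ ℓ : Lit n, ind (tau vC j (E + vL ℓ) G + s < tau vC j E G) ≤
        ind (ℓ ∈ Kill j (E + en vC (G.take t))) := by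
      intro ℓ
      refine ind_mono fun hℓ => mem_Kill.2 fun ha => ?_
      have h1 : t < tau vC j (E + vL ℓ) G :=
        (lt_tau_iff vC j (E + vL ℓ) G t).2 ⟨by omega, by rwa [add_right_comm]⟩
      omega
    refine (expect_le_expect fun ℓ _ => key ℓ).trans ?_
    rw [expect_ind, filter_mem_eq_inter, univ_inter]
    have h2 : (Fintype.card (Lit n) : ℝ) = 2 * n := by simp [mul_comm]
    rw [h2]
    exact div_le_div_of_nonneg_right hK.le (by positivity)
  · refine hazard_expect_le fun ℓ => ?_
    rw [ind_neg (by omega)]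
    positivity

/-- `d` random unit clauses, against a weight `ψ`. Induction on `d` generalizing `E`: the event
for `ℓ :: U` implies `tau (E + vL ℓ) + s < tau E` or the event for `U` with base `E + vL ℓ`;
the first is bounded by `unit_le` off `Bad` and by `bad_le` on `Bad`. -/
theorem units_le (hk : 0 < k) (hn : k ≤ n) {θ : ℝ} (hθ : 0 ≤ θ) (hθ' : θ ≤ 2 * n)
    (j s M d : ℕ) (E : (Fin n → Bool) → ℕ) (ψ : List (Clause k n) → ℝ) (h0 : ∀ G, 0 ≤ ψ G)
    (h1 : ∀ G, ψ G ≤ 1) :
    EL M (fun G => ψ G * EL d (fun U : List (Lit n) =>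
        ind (tau vC j (E + en vL U) G + d * s < tau vC j E G))) ≤
      d * ((θ + k) / (2 * n) * EL M ψ + (1 - (θ / (2 * n)) ^ k) ^ s) := by
  have hn' : 0 < n := hk.trans_le hn
  have : Nonempty (Lit n) := ⟨(⟨0, hn'⟩, true)⟩
  have hn0 : (0 : ℝ) < n := by exact_mod_cast hn'
  induction d generalizing E with
  | zero =>
    simp only [EL_zero, en_nil, add_zero, zero_mul, lt_irrefl, Nat.cast_zero]
    simp [ind_neg]
  | succ d ih =>
    have key : ∀ G : List (Clause k n), ψ G * EL (d + 1) (fun U : List (Lit n) =>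
        ind (tau vC j (E + en vL U) G + (d + 1) * s < tau vC j E G)) ≤
        ((θ + k) / (2 * n) * ψ G + ind (Bad θ j s E G)) +
          𝔼 ℓ : Lit n, ψ G * EL d (fun U : List (Lit n) =>
            ind (tau vC j (E + vL ℓ + en vL U) G + d * s < tau vC j (E + vL ℓ) G)) := by
      intro G
      have h2 : EL (d + 1) (fun U : List (Lit n) =>
          ind (tau vC j (E + en vL U) G + (d + 1) * s < tau vC j E G)) ≤
          𝔼 ℓ : Lit n, ind (tau vC j (E + vL ℓ) G + s < tau vC j E G) +
            𝔼 ℓ : Lit n, EL d (fun U : List (Lit n) =>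
              ind (tau vC j (E + vL ℓ + en vL U) G + d * s < tau vC j (E + vL ℓ) G)) := by
        rw [EL_succ, ← expect_add_distrib]
        refine expect_le_expect fun ℓ _ => ?_
        rw [← EL_const (C := Lit n) d (ind (tau vC j (E + vL ℓ) G + s < tau vC j E G)), ← EL_add]
        refine EL_mono fun U _ => le_trans (ind_mono fun hU => ?_) (ind_or_le _ _)
        rw [en_cons, ← add_assoc, add_mul, one_mul] at hU
        omega
      have h3 : ψ G * 𝔼 ℓ : Lit n, ind (tau vC j (E + vL ℓ) G + s < tau vC j E G) ≤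
          (θ + k) / (2 * n) * ψ G + ind (Bad θ j s E G) := by
        by_cases hB : Bad θ j s E G
        · rw [ind_pos hB]
          have h4 : 𝔼 ℓ : Lit n, ind (tau vC j (E + vL ℓ) G + s < tau vC j E G) ≤ 1 :=
            hazard_expect_le fun ℓ => ind_le_one _
          have h5 := mul_le_mul_of_nonneg_left h4 (h0 G)
          have h6 : 0 ≤ (θ + k) / (2 * n) * ψ G := mul_nonneg (by positivity) (h0 G)
          linarith [h1 G]
        · rw [ind_neg hB, add_zero, mul_comm]
          exact mul_le_mul_of_nonneg_right (unit_le hn' hθ hB) (h0 G)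
      have h4 := mul_le_mul_of_nonneg_left h2 (h0 G)
      rw [mul_add, mul_expect _ (fun ℓ : Lit n => EL d _)] at h4
      linarith
    refine (EL_mono fun G _ => key G).trans ?_
    rw [EL_add, EL_add, EL_const_mul, EL_expect]
    have h5 := bad_le hk hn hθ hθ' j s M E
    have h6 := hazard_expect_le fun ℓ : Lit n => ih (E + vL ℓ)
    push_cast
    linarith

end Crest.Agent.R153
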