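import Crest.Agent.R153.Tau
import Crest.Agent.R153.Count

/-! # Row 153: `satProb` in terms of `EL`, first moment bound, tails of the series -/

set_option autoImplicit false
set_option linter.unusedVariables false
set_option linter.unusedSectionVars false

namespace Crest.Agent.R153

open Finset
open scoped BigOperators
open Crest.ProbabilityR.RandomSAT

variable {k n : ℕ}

theorem Sat_en_eq_zero {Ω C : Type*} (v : C → Ω → ℕ) (G : List C) (σ : Ω) :
    en v G σ = 0 ↔ ∀ c ∈ G, v c σ = 0 := by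
  simp [en, List.sum_eq_zero_iff]

theorem Sat_vC_eq_zero (c : Clause k n) (σ : Fin n → Bool) : vC c σ = 0 ↔ ClauseSat σ c := by
  unfold vC ClauseSat
  split_ifs with h <;> simp [h]

/-- `EL_eq_expect_ofFn`, `expect_ind`; `en vC (List.ofFn F) σ ≤ 0 ↔ ∀ j, ClauseSat σ (F j)`. -/
theorem satProb_eq (k n m : ℕ) :
    satProb k n m = EL m (fun G : List (Clause k n) => ind (Alive 0 (en vC G))) := by
  classical
  rw [EL_eq_expect_ofFn, expect_ind, satProb, Crest.FinProb.uniformProb]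
  congr 2
  refine congrArg Finset.card ?_
  ext F
  simp only [mem_filter, mem_univ, true_and, Set.mem_ofPred_eq, Satisfiable, Alive,
    Nat.le_zero, Sat_en_eq_zero, List.forall_mem_ofFn_iff, Sat_vC_eq_zero]

theorem satProb_nonneg (k n m : ℕ) : 0 ≤ satProb k n m := by
  rw [satProb_eq]
  exact EL_nonneg fun _ _ => ind_nonneg _

theorem satProb_le_one (k n m : ℕ) : satProb k n m ≤ 1 := by
  unfold satProb Crest.FinProb.uniformProb
  refine div_le_one_of_le₀ ?_ (Nat.cast_nonneg _)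
  exact_mod_cast card_le_univ _

/-- `EL_take`, `List.take_append_drop`. -/
theorem satProb_anti (hn : k ≤ n) {m m' : ℕ} (h : m ≤ m') : satProb k n m' ≤ satProb k n m := by
  have := clause_nonempty hn
  rw [satProb_eq, satProb_eq, ← EL_take h]
  refine EL_mono fun G _ => ind_mono fun hG => hG.mono ?_ le_rfl
  conv_rhs => rw [← List.take_append_drop m G, en_append]
  exact le_self_add

theorem Sat_EL_zero (hn : k ≤ n) (σ : Fin n → Bool) (m : ℕ) :
    EL m (fun G : List (Clause k n) => ind (en vC G σ = 0)) = (1 - (1 / 2) ^ k) ^ m := by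
  induction m with
  | zero => simp [ind_pos]
  | succ m ih =>
    rw [EL_succ]
    simp only [en_cons, Pi.add_apply, Nat.add_eq_zero_iff, ind_and, EL_const_mul, ih]
    rw [← expect_mul, expect_vC_eq_zero hn, pow_succ']

/-- Union bound over `σ`; `EL m (ind (en vC G σ = 0)) = (1 - (1/2)^k)^m` by induction and
`expect_vC_eq_zero`. -/
theorem satProb_le (hn : k ≤ n) (m : ℕ) : satProb k n m ≤ 2 ^ n * (1 - (1 / 2) ^ k) ^ m := by
  rw [satProb_eq]
  calc EL m (fun G : List (Clause k n) => ind (Alive 0 (en vC G)))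
      ≤ EL m (fun G : List (Clause k n) => ∑ σ : Fin n → Bool, ind (en vC G σ = 0)) := by
        refine EL_mono fun G _ => ?_
        by_cases h : Alive 0 (en vC G)
        · obtain ⟨σ, hσ⟩ := h
          refine (ind_le_one _).trans ?_
          rw [← ind_pos (Nat.le_zero.1 hσ)]
          exact single_le_sum (f := fun σ => ind (en vC G σ = 0)) (fun _ _ => ind_nonneg _)
            (mem_univ σ)
        · rw [ind_neg h]
          exact sum_nonneg fun _ _ => ind_nonneg _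
    _ = _ := by
        rw [EL_sum]
        simp only [Sat_EL_zero hn]
        simp

/-- `tau_eq_sum`, `EL_sum`, `EL_take`. -/
theorem EL_tau_eq (hn : k ≤ n) (M : ℕ) :
    EL M (fun G : List (Clause k n) => (tau vC 0 0 G : ℝ)) =
      ∑ t ∈ range (M + 1), satProb k n t := by
  have := clause_nonempty hn
  rw [EL_congr (g := fun G : List (Clause k n) =>
    ∑ t ∈ range (M + 1), ind (Alive 0 (en vC (G.take t)))) fun G hG => by
      rw [tau_eq_sum, hG]; simp only [zero_add], EL_sum]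
  refine sum_congr rfl fun t ht => ?_
  rw [satProb_eq, ← EL_take (Nat.lt_succ_iff.1 (mem_range.1 ht))]

theorem EL_tau_sq_eq (hn : k ≤ n) (M : ℕ) :
    EL M (fun G : List (Clause k n) => (tau vC 0 0 G : ℝ) ^ 2) =
      ∑ t ∈ range (M + 1), (2 * (t : ℝ) + 1) * satProb k n t := by
  have := clause_nonempty hn
  rw [EL_congr (g := fun G : List (Clause k n) =>
    ∑ t ∈ range (M + 1), (2 * (t : ℝ) + 1) * ind (Alive 0 (en vC (G.take t)))) fun G hG => by
      rw [tau_sq_eq_sum, hG]; simp only [zero_add], EL_sum]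
  refine sum_congr rfl fun t ht => ?_
  rw [EL_const_mul, satProb_eq, ← EL_take (Nat.lt_succ_iff.1 (mem_range.1 ht))]

theorem Sat_q_nonneg (k : ℕ) : (0 : ℝ) ≤ 1 - (1 / 2) ^ k :=
  sub_nonneg.2 (pow_le_one₀ (by norm_num) (by norm_num))

theorem Sat_q_lt_one (k : ℕ) : (1 : ℝ) - (1 / 2) ^ k < 1 :=
  sub_lt_self _ (by positivity)

theorem Sat_summable_geom {q : ℝ} (h0 : 0 ≤ q) (h1 : q < 1) :
    Summable fun m : ℕ => (2 * (m : ℝ) + 1) * q ^ m := by
  have a := summable_pow_mul_geometric_of_norm_lt_one 1 (r := q)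
    (by rwa [Real.norm_of_nonneg h0])
  have b := summable_geometric_of_lt_one h0 h1
  refine ((a.mul_left 2).add b).congr fun m => ?_
  ring

theorem summable_satProb (hn : k ≤ n) : Summable fun m : ℕ => satProb k n m :=
  Summable.of_nonneg_of_le (satProb_nonneg k n) (satProb_le hn)
    ((summable_geometric_of_lt_one (Sat_q_nonneg k) (Sat_q_lt_one k)).mul_left _)

theorem summable_mul_satProb (hn : k ≤ n) :
    Summable fun m : ℕ => (2 * (m : ℝ) + 1) * satProb k n m := by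
  refine Summable.of_nonneg_of_le
    (fun m => mul_nonneg (by positivity) (satProb_nonneg k n m)) (fun m => ?_)
    ((Sat_summable_geom (Sat_q_nonneg k) (Sat_q_lt_one k)).mul_left (2 ^ n))
  rw [mul_left_comm]
  exact mul_le_mul_of_nonneg_left (satProb_le hn m) (by positivity)

/-- With `q = 1 - (1/2)^k ∈ [0,1)` choose `Λ ≥ 1` with `4 q^Λ ≤ 1`. The term of index
`m + (Λ n + 1)` is at most `(2m + 2Λn + 3) 2^n q^(Λ n) q^m ≤ (2m+1) q^m (2Λn+3) 2^{-n}`. -/
theorem tail_satProb (k : ℕ) :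
    ∃ (Λ : ℕ) (C : ℝ), ∀ n : ℕ, k ≤ n →
      ∑' m : ℕ, (2 * ((m + (Λ * n + 1) : ℕ) : ℝ) + 1) * satProb k n (m + (Λ * n + 1)) ≤ C := by
  have h0 := Sat_q_nonneg k
  have h1 := Sat_q_lt_one k
  obtain ⟨Λ, hΛ⟩ := exists_pow_lt_of_lt_one (show (0 : ℝ) < 1 / 4 by norm_num) h1
  have hs := Sat_summable_geom h0 h1
  refine ⟨Λ, (2 * Λ + 3) * ∑' m : ℕ, (2 * (m : ℝ) + 1) * (1 - (1 / 2) ^ k) ^ m, fun n hn => ?_⟩
  rw [← tsum_mul_left]
  refine Summable.tsum_le_tsum (fun m => ?_)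
    ((summable_nat_add_iff (Λ * n + 1)).2 (summable_mul_satProb hn)) (hs.mul_left _)
  refine (mul_le_mul_of_nonneg_left (satProb_le hn _) (by positivity)).trans ?_
  generalize (1 : ℝ) - (1 / 2) ^ k = q at h0 h1 hΛ
  have a1 : (2 : ℝ) ^ n * (q ^ Λ) ^ n * (n + 1) ≤ 1 := by
    have b1 : ((n : ℝ) + 1) ≤ 2 ^ n := by exact_mod_cast Nat.lt_two_pow_self
    have b2 : (q ^ Λ) ^ n ≤ (1 / 4) ^ n := pow_le_pow_left₀ (by positivity) hΛ.le n
    calc (2 : ℝ) ^ n * (q ^ Λ) ^ n * (n + 1) ≤ 2 ^ n * (1 / 4) ^ n * 2 ^ n := by gcongr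
      _ = 1 := by rw [← mul_pow, ← mul_pow]; norm_num
  have a2 : 2 * ((m + (Λ * n + 1) : ℕ) : ℝ) + 1 ≤ (2 * Λ + 3) * (2 * m + 1) * (n + 1) := by
    push_cast
    have : (0 : ℝ) ≤ m := Nat.cast_nonneg _
    have : (0 : ℝ) ≤ n := Nat.cast_nonneg _
    have : (0 : ℝ) ≤ Λ := Nat.cast_nonneg _
    have : (0 : ℝ) ≤ m * n := by positivity
    have : (0 : ℝ) ≤ m * Λ := by positivity
    have : (0 : ℝ) ≤ m * Λ * n := by positivity
    nlinarith
  have a3 : q ^ (m + (Λ * n + 1)) ≤ (q ^ Λ) ^ n * q ^ m := by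
    rw [← pow_mul, ← pow_add]
    exact pow_le_pow_of_le_one h0 h1.le (by omega)
  calc (2 * ((m + (Λ * n + 1) : ℕ) : ℝ) + 1) * (2 ^ n * q ^ (m + (Λ * n + 1)))
      ≤ ((2 * Λ + 3) * (2 * m + 1) * (n + 1)) * (2 ^ n * ((q ^ Λ) ^ n * q ^ m)) := by gcongr
    _ = (2 * Λ + 3) * ((2 * m + 1) * q ^ m) * (2 ^ n * (q ^ Λ) ^ n * (n + 1)) := by ring
    _ ≤ _ := mul_le_of_le_one_right (by positivity) a1

end Crest.Agent.R153
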