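import Crest.Agent.R153.Moment
import Crest.Agent.R153.Sat
import Crest.Agent.R153.Energy

/-! # Row 153: the satisfiability threshold is the threshold of the ground state energy -/

set_option autoImplicit false
set_option linter.unusedVariables false
set_option linter.unusedSectionVars false

namespace Crest.Agent.R153

open Finset
open scoped BigOperators
open Crest.ProbabilityR.RandomSAT

open Filter

/-- `(M+1) ind (minE (en vC G) ≤ J) ≤ tau J 0 G` (`lt_tau_iff` at `t = M`), Markov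
`1 - minE/(J+1) ≤ ind (minE ≤ J)`, `gap_tau`, and
`tau 0 0 G ≤ m + (M+1) ind (Alive 0 (en vC (G.take m)))` (for `m ≤ M` use `EL_take`, for `m > M`
the left side is at most `M + 1 ≤ m`). -/
theorem key_ineq {k : ℕ} (hk : 3 ≤ k) (Λ : ℕ) :
    ∃ C : ℝ, 0 ≤ C ∧ ∀ n : ℕ, k ≤ n → ∀ M : ℕ, M ≤ Λ * n → ∀ J m : ℕ,
      ((M : ℝ) + 1) * (1 - eD k n M / (J + 1)) ≤
        m + (M + 1) * satProb k n m + J + C * √(n * J) := by
  obtain ⟨C, hC, h⟩ := gap_tau hk Λ
  refine ⟨C, hC, fun n hn M hM J m => ?_⟩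
  have := clause_nonempty hn
  have hJ : (0 : ℝ) < J + 1 := by positivity
  have h1 : ((M : ℝ) + 1) * (1 - eD k n M / (J + 1)) ≤
      EL M (fun G : List (Clause k n) => (tau vC J 0 G : ℝ)) := by
    have e : ((M : ℝ) + 1) * (1 - eD k n M / (J + 1)) = EL M (fun G : List (Clause k n) =>
        ((M : ℝ) + 1) * (1 - (minE (en vC G) : ℝ) * ((J : ℝ) + 1)⁻¹)) := by
      rw [EL_const_mul, EL_sub, EL_const, EL_mul_const, eD, div_eq_mul_inv]
    rw [e]
    refine EL_mono fun G hG => ?_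
    by_cases h2 : minE (en vC G) ≤ J
    · have h3 : M < tau vC J 0 G := by
        rw [lt_tau_iff, ← hG, List.take_length, zero_add]
        exact ⟨le_rfl, alive_iff_minE_le.2 h2⟩
      have h4 : (M : ℝ) + 1 ≤ tau vC J 0 G := by exact_mod_cast h3
      refine le_trans (mul_le_of_le_one_right (by positivity) ?_) h4
      exact sub_le_self _ (by positivity)
    · have h3 : (J : ℝ) + 1 ≤ minE (en vC G) := by exact_mod_cast not_le.1 h2
      refine le_trans (mul_nonpos_of_nonneg_of_nonpos (by positivity) ?_) (Nat.cast_nonneg _)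
      rw [sub_nonpos, ← div_eq_mul_inv, le_div_iff₀ hJ, one_mul]
      exact h3
  have h2 : EL M (fun G : List (Clause k n) => (tau vC 0 0 G : ℝ)) ≤
      m + (M + 1) * satProb k n m := by
    rw [EL_tau_eq hn]
    calc ∑ t ∈ range (M + 1), satProb k n t
        ≤ ∑ t ∈ range (M + 1), ((if t ∈ range m then 1 else 0) + satProb k n m) :=
          sum_le_sum fun t _ => by
            split_ifs with ht
            · exact (satProb_le_one _ _ _).trans (le_add_of_nonneg_right (satProb_nonneg _ _ _))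
            · rw [zero_add]
              exact satProb_anti hn (by simpa using ht)
      _ ≤ m + (M + 1) * satProb k n m := by
          rw [sum_add_distrib, sum_ite_mem, sum_const, sum_const, card_range, nsmul_eq_mul,
            nsmul_eq_mul, mul_one]
          push_cast
          gcongr
          exact (card_le_card inter_subset_right).trans (card_range m).le
  linarith [h n hn M hM J]

theorem thresh_en_le {k n : ℕ} (G : List (Clause k n)) (σ : Fin n → Bool) :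
    en vC G σ ≤ G.length := by
  induction G with
  | nil => simp
  | cons c G ih =>
    have : vC c σ ≤ 1 := by unfold vC; split_ifs <;> simp
    rw [en_cons, Pi.add_apply, List.length_cons]
    omega

/-- `minE ≤ M * ind (¬ Alive 0 ..)`. -/
theorem eD_le_unsat {k n : ℕ} (hn : k ≤ n) (M : ℕ) : eD k n M ≤ M * (1 - satProb k n M) := by
  have := clause_nonempty hn
  rw [satProb_eq, ← EL_const (C := Clause k n) M 1, ← EL_sub, ← EL_const_mul, eD]
  refine EL_mono fun G hG => ?_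
  by_cases h : Alive 0 (en vC G)
  · rw [ind_pos h, Nat.le_zero.1 (alive_iff_minE_le.1 h)]
    simp
  · rw [ind_neg h, sub_zero, mul_one, ← hG]
    exact_mod_cast (minE_le _ fun _ => true).trans (thresh_en_le G _)

/-- At density `0` the formula is empty and satisfiable. -/
theorem alpha_nonneg {α : ℝ} (hα : IsSharpThreshold (satProb 3) α) : 0 ≤ α := by
  by_contra h
  have h1 := (hα 0 le_rfl).2 (not_le.1 h)
  have h2 : ∀ n : ℕ, satProb 3 n ⌊(0 : ℝ) * n⌋₊ = 1 := fun n => by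
    rw [zero_mul, Nat.floor_zero, satProb_eq, EL_zero]
    exact ind_pos ⟨fun _ => true, by simp⟩
  simp only [h2] at h1
  exact one_ne_zero (tendsto_const_nhds_iff.1 h1)

/-- Below the threshold the energy is `o(n)`: `eR_mono`, `eR_le_eD`, `eD_le_unsat` at
`M = ⌊a n⌋₊`. -/
theorem energy_zero {α : ℝ} (hα : IsSharpThreshold (satProb 3) α) {a : ℝ} (ha0 : 0 ≤ a)
    (ha : a < α) {ε : ℝ} (hε : 0 < ε) :
    ∀ᶠ n : ℕ in atTop, ∀ M : ℕ, (M : ℝ) ≤ a * n → eR 3 n M ≤ ε * n := by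
  have h1 := ((hα a ha0).1 ha).eventually
    (lt_mem_nhds (show 1 - ε / (2 * (a + 1)) < 1 from sub_lt_self _ (by positivity)))
  filter_upwards [h1, eventually_ge_atTop 3,
    tendsto_natCast_atTop_atTop.eventually_ge_atTop (2 * a / ε)] with n h2 h3 h4 M hM
  have hn : (0 : ℝ) < n := by exact_mod_cast (by omega : 0 < n)
  have h5 : (⌊a * n⌋₊ : ℝ) ≤ a * n := Nat.floor_le (by positivity)
  have h6 := eR_mono (k := 3) (by omega : 0 < n) (Nat.le_floor hM)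
  have h7 := eR_le_eD h3 ⌊a * n⌋₊
  have h8 := eD_le_unsat h3 ⌊a * n⌋₊
  have h9 : (⌊a * n⌋₊ : ℝ) * (1 - satProb 3 n ⌊a * n⌋₊) ≤ (a + 1) * n * (ε / (2 * (a + 1))) :=
    mul_le_mul (by nlinarith) (by linarith) (sub_nonneg.2 (satProb_le_one _ _ _)) (by positivity)
  have h10 : (a + 1) * n * (ε / (2 * (a + 1))) = ε * n / 2 := by field_simp
  have h11 : (⌊a * n⌋₊ : ℝ) * (1 / n) ≤ a := by
    rwa [mul_one_div, div_le_iff₀ hn]
  rw [div_le_iff₀ hε] at h4
  linarith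

/-- Above the threshold the energy is linear. Take `α < a' < a`, `Λ = ⌈a⌉₊ + 1`,
`M₀ = ⌈a n⌉₊ ≤ M`, `m = ⌊a' n⌋₊`, `J = ⌊δ n⌋₊` in `key_ineq`, with `δ` so small that
`a' + δ + C √δ < a - η`; then `eD / (J+1) ≥ η' > 0` eventually; `eD_le_eR`, `eR_mono`. -/
theorem energy_pos {α : ℝ} (hα : IsSharpThreshold (satProb 3) α) {a : ℝ} (ha : α < a) :
    ∃ γ : ℝ, 0 < γ ∧ ∀ᶠ n : ℕ in atTop, ∀ M : ℕ, a * n ≤ M → γ * n ≤ eR 3 n M := by
  have hα0 := alpha_nonneg hα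
  have ha0 : 0 < a := hα0.trans_lt ha
  obtain ⟨C, hC, h⟩ := key_ineq le_rfl (⌈a⌉₊ + 1)
  obtain ⟨d, hd⟩ : ∃ d, d = (a - α) / 2 := ⟨_, rfl⟩
  have hd0 : 0 < d := by rw [hd]; linarith
  obtain ⟨s, hs0, hs1, hs2⟩ : ∃ s : ℝ, 0 < s ∧ s ≤ 1 ∧ s * (C + 1) ≤ d / 2 :=
    ⟨min 1 (d / 2 / (C + 1)), by positivity, min_le_left _ _,
      (le_div_iff₀ (by positivity)).1 (min_le_right _ _)⟩
  obtain ⟨η, hη0, hη⟩ : ∃ η : ℝ, 0 < η ∧ 4 * a * η = d := ⟨d / (4 * a), by positivity, by field_simp⟩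
  have h1 := ((hα (a - d) (by rw [hd]; linarith)).2 (by rw [hd]; linarith)).eventually
    (gt_mem_nhds hη0)
  refine ⟨η * s ^ 2, by positivity, ?_⟩
  filter_upwards [h1, eventually_ge_atTop 3] with n h2 h3 M hM
  have hn : (1 : ℝ) ≤ n := by exact_mod_cast (by omega : 1 ≤ n)
  have h4 : ⌈a * n⌉₊ ≤ (⌈a⌉₊ + 1) * n := by
    rw [Nat.ceil_le]
    push_cast
    nlinarith [Nat.le_ceil a]
  have h5 := h n h3 _ h4 ⌊s ^ 2 * n⌋₊ ⌊(a - d) * n⌋₊
  have h6 : (⌊s ^ 2 * n⌋₊ : ℝ) ≤ s ^ 2 * n := Nat.floor_le (by positivity)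
  have h7 : (⌊(a - d) * n⌋₊ : ℝ) ≤ (a - d) * n :=
    Nat.floor_le (mul_nonneg (by rw [hd]; linarith) (by positivity))
  have h8 : √((n : ℝ) * ⌊s ^ 2 * n⌋₊) ≤ s * n := by
    rw [Real.sqrt_le_left (by positivity)]
    nlinarith
  have h9 : s ^ 2 * n < ⌊s ^ 2 * n⌋₊ + 1 := Nat.lt_floor_add_one _
  have h10 : a * n ≤ ⌈a * n⌉₊ := Nat.le_ceil _
  have h11 : η ≤ eD 3 n ⌈a * n⌉₊ / (⌊s ^ 2 * n⌋₊ + 1) := by
    by_contra hc
    push Not at hc
    generalize eD 3 n ⌈a * n⌉₊ / (⌊s ^ 2 * n⌋₊ + 1) = x at h5 hc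
    generalize satProb 3 n ⌊(a - d) * n⌋₊ = p at h5 h2
    have h12 : 2 * η ≤ 1 := by nlinarith
    have h13 : a * n * (1 - 2 * η) < ((⌈a * n⌉₊ : ℝ) + 1) * (1 - x - p) :=
      calc a * n * (1 - 2 * η) ≤ ((⌈a * n⌉₊ : ℝ) + 1) * (1 - 2 * η) :=
            mul_le_mul_of_nonneg_right (by linarith) (by linarith)
        _ < _ := mul_lt_mul_of_pos_left (by linarith) (by positivity)
    have h14 : C * √((n : ℝ) * ⌊s ^ 2 * n⌋₊) ≤ C * (s * n) := mul_le_mul_of_nonneg_left h8 hC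
    have h15 : s ^ 2 * n ≤ s * n := mul_le_mul_of_nonneg_right (by nlinarith) (by positivity)
    have h16 : s * (C + 1) * n ≤ d / 2 * n := mul_le_mul_of_nonneg_right hs2 (by positivity)
    have h17 : a * n * (1 - 2 * η) = a * n - d / 2 * n := by rw [← hη]; ring
    nlinarith
  rw [le_div_iff₀ (by positivity)] at h11
  have h12 := eD_le_eR (by norm_num) h3 ⌈a * n⌉₊
  have h13 := eR_mono (k := 3) (by omega : 0 < n) (Nat.ceil_le.2 hM)
  have h14 : η * (s ^ 2 * n) ≤ η * (⌊s ^ 2 * n⌋₊ + 1) := mul_le_mul_of_nonneg_left h9.le hη0.le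
  linarith

/-- Soundness of the lower certificates. With `N = L n`, `M = L m`, `J = ⌊N / t^2⌋`:
`eD 3 N M ≤ eR 3 N M ≤ N / t^3` (`eR_block`), so `eD / (J+1) ≤ 1/t`. For `a' > α`, `key_ineq` with
`⌊a' N⌋₊` gives `(m/n)(1 - 1/t) ≤ a' + (Λ+1) p_N + 1/t^2 + C/t` with `p_N → 0` as `L → ∞`.
Take `C₀ ≥ Λ + 1 + C`. -/
theorem lower_sound {α : ℝ} (hα : IsSharpThreshold (satProb 3) α) (Λ : ℕ) :
    ∃ C₀ : ℕ, ∀ n m t : ℕ, 0 < n → 0 < t → m ≤ Λ * n → eR 3 n m + √m ≤ n / (t : ℝ) ^ 3 →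
      (m : ℝ) / n - C₀ / t ≤ α := by
  obtain ⟨C, hC, h⟩ := key_ineq le_rfl Λ
  refine ⟨Λ + 1 + ⌈C⌉₊, fun n m t hn ht hm he => ?_⟩
  refine le_of_forall_gt_imp_ge_of_dense fun a ha => le_of_forall_pos_le_add fun ε hε => ?_
  have ha0 : 0 ≤ a := (alpha_nonneg hα).trans ha.le
  have h1 : Tendsto (fun L : ℕ => L * n) atTop atTop := tendsto_id.atTop_mul_const' hn
  obtain ⟨L, h2, h3⟩ := ((h1.eventually (((hα a ha0).2 ha).eventually
    (gt_mem_nhds (show 0 < ε / (Λ + 1) by positivity)))).and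
      (h1.eventually (eventually_ge_atTop 3))).exists
  have hL : 0 < L := Nat.pos_of_mul_pos_right (by omega : 0 < L * n)
  have hn' : (0 : ℝ) < n := by exact_mod_cast hn
  have ht' : (1 : ℝ) ≤ t := by exact_mod_cast ht
  have hL' : (0 : ℝ) < L := by exact_mod_cast hL
  obtain ⟨u, hu⟩ : ∃ u : ℝ, u = (t : ℝ)⁻¹ := ⟨_, rfl⟩
  have hu0 : 0 < u := by rw [hu]; positivity
  have hu1 : u ≤ 1 := by rw [hu]; exact inv_le_one_of_one_le₀ ht'
  have hM : L * m ≤ Λ * (L * n) := by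
    rw [mul_left_comm]
    exact Nat.mul_le_mul_left _ hm
  have h4 := h (L * n) h3 (L * m) hM ⌊u ^ 2 * (L * n : ℕ)⌋₊ ⌊a * (L * n : ℕ)⌋₊
  have h5 : eD 3 (L * n) (L * m) ≤ u ^ 3 * (L * n : ℕ) := by
    refine (eD_le_eR (by norm_num) h3 _).trans ((eR_block (by norm_num) hn hL m).trans ?_)
    refine (mul_le_mul_of_nonneg_left he hL'.le).trans (le_of_eq ?_)
    rw [hu]
    push_cast
    field_simp
  obtain ⟨r, hr⟩ : ∃ r : ℝ, r = (m : ℝ) / n := ⟨_, rfl⟩
  have hr1 : ((L * m : ℕ) : ℝ) = r * (L * n : ℕ) := by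
    rw [hr]
    push_cast
    field_simp
  have hr2 : r ≤ Λ := by
    rw [hr, div_le_iff₀ hn']
    exact_mod_cast hm
  have hr0 : 0 ≤ r := by rw [hr]; positivity
  have hN : (1 : ℝ) ≤ (L * n : ℕ) := by exact_mod_cast (by omega : 1 ≤ L * n)
  rw [hr1] at h4
  generalize L * n = N at *
  have h6 : (⌊u ^ 2 * N⌋₊ : ℝ) ≤ u ^ 2 * N := Nat.floor_le (by positivity)
  have h7 : (⌊a * N⌋₊ : ℝ) ≤ a * N := Nat.floor_le (by positivity)
  have h8 : √((N : ℝ) * ⌊u ^ 2 * N⌋₊) ≤ u * N := by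
    rw [Real.sqrt_le_left (by positivity)]
    nlinarith
  have h9 : eD 3 N (L * m) / (⌊u ^ 2 * N⌋₊ + 1) ≤ u := by
    rw [div_le_iff₀ (by positivity)]
    have := mul_le_mul_of_nonneg_left (Nat.lt_floor_add_one (u ^ 2 * N)).le hu0.le
    nlinarith
  have h10 : r * N * (1 - u) ≤ (r * N + 1) * (1 - eD 3 N (L * m) / (⌊u ^ 2 * N⌋₊ + 1)) :=
    mul_le_mul (by linarith) (by linarith) (by linarith) (by positivity)
  have h11 : (r * N + 1) * satProb 3 N ⌊a * N⌋₊ ≤ (Λ + 1) * N * (ε / (Λ + 1)) :=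
    mul_le_mul (by nlinarith) h2.le (satProb_nonneg _ _ _) (by positivity)
  have h12 : ((Λ : ℝ) + 1) * N * (ε / (Λ + 1)) = ε * N := by field_simp
  have h13 : C * √((N : ℝ) * ⌊u ^ 2 * N⌋₊) ≤ ⌈C⌉₊ * (u * N) :=
    mul_le_mul (Nat.le_ceil C) h8 (Real.sqrt_nonneg _) (Nat.cast_nonneg _)
  have h14 : u ^ 2 * N ≤ u * N := mul_le_mul_of_nonneg_right (by nlinarith) (by positivity)
  have h15 : r * (u * N) ≤ Λ * (u * N) := mul_le_mul_of_nonneg_right hr2 (by positivity)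
  rw [← hr, div_eq_mul_inv, ← hu]
  push_cast
  refine le_of_mul_le_mul_right ?_ (zero_lt_one.trans_le hN)
  nlinarith

end Crest.Agent.R153
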