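import Crest.Agent.R153.Code
import Crest.Agent.R153.Thresh

/-! # Row 153: lower certificates -/

set_option autoImplicit false
set_option linter.unusedVariables false
set_option linter.unusedSectionVars false

namespace Crest.Agent.R153

open Finset
open scoped BigOperators

open Crest.Agent.Lib.Comp Crest.ProbabilityR.RandomSAT

theorem lowCode_litsQ : Primrec litsQ :=
  Primrec.list_flatMap Primrec.list_range (Primrec.list_map (Primrec.const bools)
    (Primrec.pair (Primrec.snd.comp Primrec.fst) Primrec.snd).to₂).to₂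

theorem lowCode_costQ : Primrec₂ costQ := by
  have h : PrimrecRel fun (ℓ : ℕ × Bool) (σ : List Bool) => σ.getD ℓ.1 false = ℓ.2 :=
    Primrec.eq.comp ((Primrec.list_getD false).comp Primrec.snd (Primrec.fst.comp Primrec.fst))
      (Primrec.snd.comp Primrec.fst)
  exact Primrec.ite (h.exists_mem_list.comp Primrec.snd Primrec.fst) (Primrec.const 0)
    (Primrec.const 1)

theorem lowCode_sum : Primrec (List.sum : List ℕ → ℕ) := by
  have h : Primrec₂ fun (_ : List ℕ) (p : ℕ × ℕ) => p.1 + p.2 :=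
    Primrec.nat_add.comp (Primrec.fst.comp Primrec.snd) (Primrec.snd.comp Primrec.snd)
  exact (Primrec.list_foldr Primrec.id (Primrec.const 0) h).of_eq fun l => rfl

theorem lowCode_minQ : Primrec₂ minQ := by
  have h1 : Primrec₂ fun (x : ℕ × List (List (ℕ × Bool))) (σ : List Bool) =>
      (x.2.map (costQ σ)).sum :=
    lowCode_sum.comp (Primrec.list_map (Primrec.snd.comp Primrec.fst)
      (lowCode_costQ.comp (Primrec.snd.comp Primrec.fst) Primrec.snd).to₂)
  have h2 : Primrec₂ fun (_ : ℕ × List (List (ℕ × Bool))) (p : ℕ × ℕ) => min p.1 p.2 :=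
    Primrec.nat_min.comp (Primrec.fst.comp Primrec.snd) (Primrec.snd.comp Primrec.snd)
  exact Primrec.list_foldr (Primrec.list_map (primrec_allL.comp (Primrec.const bools) Primrec.fst)
    h1) (Primrec.list_length.comp Primrec.snd) h2

/-- Compose `primrec_allL`, `Primrec.list_map`, `list_flatMap`, `list_foldr`, `list_getD`,
`PrimrecRel.exists_mem_list`, `rat_list_sum`, `rat_natCast`, `rat_div`, `rat_pow`. -/
theorem primrec_eRQ : Primrec₂ eRQ := by
  have h1 : Primrec₂ fun (x : ℕ × ℕ) (F : List (List (ℕ × Bool))) => (minQ x.1 F : ℚ) :=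
    rat_natCast.comp (lowCode_minQ.comp (Primrec.fst.comp Primrec.fst) Primrec.snd)
  exact rat_div.comp (rat_list_sum.comp (Primrec.list_map (primrec_allL.comp
      (primrec_allL.comp (lowCode_litsQ.comp Primrec.fst) (Primrec.const 3)) Primrec.snd) h1))
    (rat_pow.comp (rat_natCast.comp (Primrec.nat_mul.comp (Primrec.const 2) Primrec.fst))
      (Primrec.nat_mul.comp (Primrec.const 3) Primrec.snd))

theorem lowCode_enum (n : ℕ) : Enum (litsQ n) fun ℓ : Lit n => (ℓ.1.val, ℓ.2) := fun g => by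
  have h : ∀ l : List ℕ, ((l.flatMap fun x => bools.map fun b => (x, b)).map g).sum =
      (l.map fun x => ∑ b, g (x, b)).sum := fun l => by
    induction l with
    | nil => rfl
    | cons x l ih =>
      rw [List.flatMap_cons, List.map_append, List.sum_append, ih]
      simp [bools, add_comm]
  rw [litsQ, h, enum_range n, Fintype.sum_prod_type]

theorem lowCode_le_foldr (l : List ℕ) (a c : ℕ) :
    c ≤ l.foldr min a ↔ c ≤ a ∧ ∀ x ∈ l, c ≤ x := by
  induction l with
  | nil => simp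
  | cons x l ih => simp only [List.foldr_cons, le_min_iff, ih, List.forall_mem_cons]; tauto

theorem lowCode_cost {n : ℕ} (σ : Fin n → Bool) (c : Fin 3 → Lit n) :
    costQ (List.ofFn σ) (List.ofFn fun j => ((c j).1.val, (c j).2)) = vR c σ := by
  unfold costQ vR
  refine if_congr ?_ rfl rfl
  simp only [List.mem_ofFn]
  constructor
  · rintro ⟨_, ⟨j, rfl⟩, h⟩
    exact ⟨j, by simpa using h⟩
  · rintro ⟨j, h⟩
    exact ⟨_, ⟨j, rfl⟩, by simpa using h⟩

theorem lowCode_en_le {k n : ℕ} (G : List (Fin k → Lit n)) (σ : Fin n → Bool) :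
    en vR G σ ≤ G.length := by
  induction G with
  | nil => simp
  | cons c G ih =>
    have : vR c σ ≤ 1 := by unfold vR; split_ifs <;> simp
    rw [en_cons, Pi.add_apply, List.length_cons]
    omega

theorem lowCode_min {n : ℕ} (G : List (Fin 3 → Lit n)) :
    minQ n (G.map fun c => List.ofFn fun j => ((c j).1.val, (c j).2)) = minE (en vR G) := by
  have h : ∀ σ : Fin n → Bool, ((G.map fun c => List.ofFn fun j => ((c j).1.val, (c j).2)).map
      (costQ (List.ofFn σ))).sum = en vR G σ := fun σ => by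
    simp only [List.map_map, Function.comp_def, lowCode_cost, en]
  refine eq_of_forall_le_iff fun c => ?_
  rw [minQ, lowCode_le_foldr, List.forall_mem_map, List.length_map]
  constructor
  · rintro ⟨-, h1⟩
    obtain ⟨σ, hσ⟩ := exists_minE (en vR G)
    rw [← hσ, ← h]
    exact h1 _ (mem_allL.2 ⟨List.length_ofFn, fun x _ => by cases x <;> simp [bools]⟩)
  · intro h1
    refine ⟨h1.trans ((minE_le _ fun _ => true).trans (lowCode_en_le G _)), fun l hl => ?_⟩
    obtain rfl := (mem_allL.1 hl).1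
    have h2 := h l.get
    rw [List.ofFn_get l] at h2
    exact h1.trans ((minE_le _ l.get).trans h2.ge)

/-- `litsQ n` enumerates `Lit n` through `fun ℓ => (ℓ.1.val, ℓ.2)`; apply `Enum.allL` twice and
`EL_eq_expect_ofFn`. For the minimum: the lists `List.ofFn σ` are exactly the members of
`allL bools n` (`mem_allL`), `costQ (List.ofFn σ) (code c) = vR c σ`, every energy is at most
the number of clauses, so the `foldr min` equals `minE` (`minE_le`, `exists_minE`). -/
theorem eRQ_cast {n : ℕ} (hn : 0 < n) (m : ℕ) : (eRQ n m : ℝ) = eR 3 n m := by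
  have h := (((lowCode_enum n).allL 3).allL m) fun F => (minQ n F : ℝ)
  rw [eR, EL_eq_expect_ofFn, Fintype.expect_eq_sum_div_card, eRQ, Rat.cast_div, Rat.cast_list_sum,
    List.map_map]
  simp only [Function.comp_def, Rat.cast_natCast]
  rw [h]
  congr 1
  · refine sum_congr rfl fun F _ => ?_
    rw [← lowCode_min, List.map_ofFn]
    rfl
  · simp [← pow_mul, mul_comm]

theorem primrec_lowCheck (Λ C₀ : ℕ) :
    PrimrecPred fun x : ℚ × (ℕ × ℕ × ℕ × ℕ) => lowCheck Λ C₀ x.1 x.2 := by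
  have hn : Primrec fun x : ℚ × (ℕ × ℕ × ℕ × ℕ) => x.2.1 := Primrec.fst.comp Primrec.snd
  have h2 : Primrec fun x : ℚ × (ℕ × ℕ × ℕ × ℕ) => x.2.2 := Primrec.snd.comp Primrec.snd
  have hm : Primrec fun x : ℚ × (ℕ × ℕ × ℕ × ℕ) => x.2.2.1 := Primrec.fst.comp h2
  have ht : Primrec fun x : ℚ × (ℕ × ℕ × ℕ × ℕ) => x.2.2.2.1 :=
    Primrec.fst.comp (Primrec.snd.comp h2)
  have hu : Primrec fun x : ℚ × (ℕ × ℕ × ℕ × ℕ) => x.2.2.2.2 :=
    Primrec.snd.comp (Primrec.snd.comp h2)
  exact (Primrec.nat_lt.comp (Primrec.const 0) hn).and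
    ((Primrec.nat_lt.comp (Primrec.const 0) ht).and
    ((Primrec.nat_le.comp hm (Primrec.nat_mul.comp (Primrec.const Λ) hn)).and
    ((Primrec.nat_le.comp hm (nat_pow'.comp hu (Primrec.const 2))).and
    ((rat_le.comp (rat_add.comp (primrec_eRQ.comp hn hm) (rat_natCast.comp hu))
      (rat_div.comp (rat_natCast.comp hn)
        (rat_pow.comp (rat_natCast.comp ht) (Primrec.const 3)))).and
    (rat_le.comp Primrec.fst (rat_sub.comp (rat_div.comp (rat_natCast.comp hm)
      (rat_natCast.comp hn)) (rat_div.comp (Primrec.const (C₀ : ℚ)) (rat_natCast.comp ht))))))))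

/-- Take `Λ = ⌈α⌉₊` and `C₀` from `lower_sound`. Completeness: choose `t` with
`q + C₀ / t < α`. If `α = 0` take `n = 1`, `m = u = 0`. Otherwise pick
`max 0 (q + C₀ / t) < a < α`, `m = ⌊a n⌋₊`, `u = Nat.sqrt m + 1`, and `n` large
(`energy_zero` with `ε = 1 / (2 t^3)`, `u / n → 0`, `m / n → a`). -/
theorem low_cert {α : ℝ} (hα : IsSharpThreshold (satProb 3) α) :
    ∃ Λ C₀ : ℕ, (∀ (q : ℚ) w, lowCheck Λ C₀ q w → (q : ℝ) ≤ α) ∧
      ∀ q : ℚ, (q : ℝ) < α → ∃ w, lowCheck Λ C₀ q w := by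
  obtain ⟨C₀, hC⟩ := lower_sound hα ⌈α⌉₊
  have key : ∀ (q : ℚ) (n m t u : ℕ), lowCheck ⌈α⌉₊ C₀ q (n, m, t, u) ↔ 0 < n ∧ 0 < t ∧
      m ≤ ⌈α⌉₊ * n ∧ m ≤ u ^ 2 ∧ eR 3 n m + u ≤ n / (t : ℝ) ^ 3 ∧
      (q : ℝ) ≤ (m : ℝ) / n - C₀ / t := fun q n m t u => by
    refine and_congr_right fun hn => ?_
    rw [← eRQ_cast hn]
    refine and_congr_right fun _ => and_congr_right fun _ => and_congr_right fun _ =>
      and_congr ?_ ?_ <;> rw [← Rat.cast_le (K := ℝ)] <;> push_cast <;> rfl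
  refine ⟨⌈α⌉₊, C₀, fun q ⟨n, m, t, u⟩ h => ?_, fun q hq => ?_⟩
  · obtain ⟨hn, ht, h1, h2, h3, h4⟩ := (key q n m t u).1 h
    refine h4.trans (hC n m t hn ht h1 (le_trans ?_ h3))
    have : √(m : ℝ) ≤ u := by
      rw [Real.sqrt_le_left (Nat.cast_nonneg _)]
      exact_mod_cast h2
    linarith
  · obtain ⟨t, ht⟩ := exists_nat_gt (C₀ / (α - q))
    have ht0 : (0 : ℝ) < t := lt_of_le_of_lt (div_nonneg (Nat.cast_nonneg _) (by linarith)) ht
    have ht1 : (q : ℝ) + C₀ / t < α := by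
      rw [div_lt_iff₀ (by linarith)] at ht
      have : (C₀ : ℝ) / t < α - q := by rw [div_lt_iff₀ ht0]; linarith
      linarith
    have ht2 : 0 < t := by exact_mod_cast ht0
    rcases (alpha_nonneg hα).eq_or_lt with h0 | h0
    · refine ⟨(1, 0, t, 0), (key ..).2 ⟨one_pos, ht2, Nat.zero_le _, le_rfl, ?_, ?_⟩⟩
      · have := eR_le (k := 3) one_pos 0
        have h1 : (0 : ℝ) ≤ (1 : ℕ) / (t : ℝ) ^ 3 := by positivity
        push_cast at *
        linarith
      · push_cast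
        linarith
    obtain ⟨a, ha1, ha2⟩ := exists_between (max_lt h0 ht1)
    obtain ⟨ha0, ha3⟩ := max_lt_iff.1 ha1
    obtain ⟨ε, hε0, hε⟩ : ∃ ε : ℝ, 0 < ε ∧ 2 * ε = 1 / (t : ℝ) ^ 3 :=
      ⟨1 / (t : ℝ) ^ 3 / 2, by positivity, by ring⟩
    have hN := tendsto_natCast_atTop_atTop (R := ℝ)
    obtain ⟨n, h1, h2, h3, h4⟩ := ((energy_zero hα ha0.le ha2 hε0).and
      ((hN.eventually_ge_atTop (2 / ε)).and ((hN.eventually_ge_atTop (4 * a / ε ^ 2)).and
        (hN.eventually_ge_atTop (1 / (a - (q + C₀ / t))))))).exists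
    have hn : (0 : ℝ) < n := lt_of_lt_of_le (by positivity) h2
    have h5 : (⌊a * n⌋₊ : ℝ) ≤ a * n := Nat.floor_le (by positivity)
    refine ⟨(n, ⌊a * n⌋₊, t, Nat.sqrt ⌊a * n⌋₊ + 1), (key ..).2 ⟨by exact_mod_cast hn, ht2, ?_,
      (Nat.lt_succ_sqrt' _).le, ?_, ?_⟩⟩
    · have : (⌊a * n⌋₊ : ℝ) ≤ ⌈α⌉₊ * n :=
        h5.trans (mul_le_mul_of_nonneg_right (ha2.le.trans (Nat.le_ceil α)) hn.le)
      exact_mod_cast this
    · have h6 : ((Nat.sqrt ⌊a * n⌋₊ : ℕ) : ℝ) ^ 2 ≤ ⌊a * n⌋₊ := by exact_mod_cast Nat.sqrt_le' _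
      rw [div_le_iff₀ hε0] at h2
      rw [div_le_iff₀ (by positivity)] at h3
      have h7 : ((Nat.sqrt ⌊a * n⌋₊ : ℕ) : ℝ) ≤ ε * n / 2 :=
        (pow_le_pow_iff_left₀ (Nat.cast_nonneg _) (by positivity) two_ne_zero).1 (by nlinarith)
      have h8 : (n : ℝ) / (t : ℝ) ^ 3 = 2 * ε * n := by rw [hε]; ring
      have h9 := h1 _ h5
      push_cast
      linarith
    · rw [div_le_iff₀ (by linarith)] at h4
      rw [le_sub_iff_add_le, le_div_iff₀ hn]
      nlinarith [Nat.lt_floor_add_one (a * n)]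

end Crest.Agent.R153
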