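import Crest.Agent.R153.Tail

/-! # Row 153: second moment of the loss, variance of the death time, gaps between levels -/

set_option autoImplicit false
set_option linter.unusedVariables false
set_option linter.unusedSectionVars false

namespace Crest.Agent.R153

open Finset
open scoped BigOperators
open Crest.ProbabilityR.RandomSAT

theorem Moment_sq_sum (D N : ℕ) :
    ∑ s ∈ range N, (2 * (s : ℝ) + 1) * ind (s < D) = ((min D N : ℕ) : ℝ) ^ 2 := by
  induction N with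
  | zero => simp
  | succ N ih =>
    rw [sum_range_succ, ih]
    by_cases h : N < D
    · rw [ind_pos h, min_eq_right h.le, min_eq_right (Nat.succ_le_of_lt h)]; push_cast; ring
    · rw [ind_neg h, min_eq_left (by omega), min_eq_left (by omega)]; ring

theorem Moment_sum_le (M : ℕ) :
    ∑ s ∈ range M, (2 * ((s : ℝ) + 1) + 1) * ((s : ℝ) + 1)⁻¹ ^ 3 ≤ 6 - 6 / ((M : ℝ) + 1) := by
  induction M with
  | zero => simp
  | succ M ih =>
    rw [sum_range_succ]
    have : (2 * ((M : ℝ) + 1) + 1) * ((M : ℝ) + 1)⁻¹ ^ 3 ≤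
        6 / ((M : ℝ) + 1) - 6 / ((M : ℝ) + 1 + 1) := by
      have h0 : (0 : ℝ) ≤ M := Nat.cast_nonneg _
      rw [div_sub_div _ _ (by positivity) (by positivity), inv_pow, ← div_eq_mul_inv,
        div_le_div_iff₀ (by positivity) (by positivity)]
      nlinarith [mul_nonneg h0 h0, mul_nonneg h0 (mul_nonneg h0 h0)]
    push_cast
    linarith

theorem Moment_sum_lin (M : ℕ) :
    ∑ s ∈ range M, (2 * ((s : ℝ) + 1) + 1) = ((M : ℝ) + 1) ^ 2 - 1 := by
  induction M with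
  | zero => simp
  | succ M ih => rw [sum_range_succ, ih]; push_cast; ring

/-- Let `D = tau j 0 G - tau j (vC c) G` (in `ℕ`, `tau_mono`), `D ≤ M + 1`. With `ℓ = lit c 0`,
`vC c ≤ vL ℓ`, so `s < D → Loss j [ℓ] s G`. `D^2 = ∑ s < M+1, (2s+1) ind (s < D)`; for `s ≥ 1` use
`loss_tail` with `i = 6 k`, `x = s^(1/(2k))` (`Real.rpow_inv_natCast_pow`), so
`x⁻¹^(6k) = s⁻¹^3`; `∑ (2s+1)/s^3 ≤ 3 ∑ 1/s^2 ≤ 6` and `(M+1)^2 / n^2 ≤ (Λ+1)^2`. -/
theorem loss_sq {k : ℕ} (hk : 3 ≤ k) (Λ : ℕ) :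
    ∃ C : ℝ, 0 ≤ C ∧ ∀ n : ℕ, k ≤ n → ∀ M : ℕ, M ≤ Λ * n → ∀ (j : ℕ) (c : Clause k n),
      EL M (fun G : List (Clause k n) =>
        ((tau vC j 0 G : ℝ) - tau vC j (vC c) G) ^ 2) ≤ C := by
  obtain ⟨A, hA, h⟩ := loss_tail hk Λ (6 * k)
  refine ⟨1 + A ^ 2 * (6 + ((Λ : ℝ) + 1) ^ 2), by positivity, fun n hn M hM j c => ?_⟩
  have := clause_nonempty hn
  have hn0 : (1 : ℝ) ≤ n := by exact_mod_cast (by omega : 1 ≤ n)
  set ℓ : Lit n := lit c ⟨0, by omega⟩ with hℓ
  have hle : vC c ≤ en vL [ℓ] := fun σ => by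
    simp only [en_cons, en_nil, add_zero, vC, vL, hℓ, lit]
    split_ifs with h1 h2 h2
    · exact le_rfl
    · exact Nat.zero_le _
    · exact absurd ⟨_, h2⟩ h1
    · exact le_rfl
  have hsat : ∃ σ, en vL [ℓ] σ = 0 := ⟨fun _ => ℓ.2, by simp [vL]⟩
  have key : ∀ G : List (Clause k n), G.length = M →
      ((tau vC j 0 G : ℝ) - tau vC j (vC c) G) ^ 2 ≤
        1 + ∑ s ∈ range M, (2 * ((s : ℝ) + 1) + 1) * ind (Loss j [ℓ] (s + 1) G) := by
    intro G hG
    have h1 : tau vC j (vC c) G ≤ tau vC j 0 G := tau_mono vC zero_le le_rfl G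
    have h2 := tau_le vC j 0 G
    have h3 : tau vC j (en vL [ℓ]) G ≤ tau vC j (vC c) G := tau_mono vC hle le_rfl G
    have h4 := Moment_sq_sum (tau vC j 0 G - tau vC j (vC c) G) (M + 1)
    rw [min_eq_left (by omega), Nat.cast_sub h1, sum_range_succ'] at h4
    rw [← h4, add_comm]
    refine add_le_add ?_ (sum_le_sum fun s _ => ?_)
    · simpa using ind_le_one _
    · push_cast
      refine mul_le_mul_of_nonneg_left (ind_mono fun hs => ?_) (by positivity)
      unfold Loss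
      omega
  refine (EL_mono key).trans ?_
  rw [EL_add, EL_const, EL_sum]
  refine add_le_add le_rfl ?_
  calc ∑ s ∈ range M, EL M (fun G : List (Clause k n) =>
        (2 * ((s : ℝ) + 1) + 1) * ind (Loss j [ℓ] (s + 1) G))
      ≤ ∑ s ∈ range M, (2 * ((s : ℝ) + 1) + 1) * (A ^ 2 * (((s : ℝ) + 1)⁻¹ ^ 3 + (n : ℝ)⁻¹ ^ 2)) := by
        refine sum_le_sum fun s _ => ?_
        rw [EL_const_mul]
        refine mul_le_mul_of_nonneg_left ?_ (by positivity)
        have hx : (((s : ℝ) + 1) ^ (((2 * k : ℕ) : ℝ)⁻¹)) ^ (2 * k) = (s : ℝ) + 1 :=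
          Real.rpow_inv_natCast_pow (by positivity) (by omega)
        have := h n hn M hM j [ℓ] hsat (s + 1) (((s : ℝ) + 1) ^ (((2 * k : ℕ) : ℝ)⁻¹))
          (by positivity) (by rw [hx]; push_cast; exact le_rfl)
        rw [show 6 * k = 2 * k * 3 by ring, pow_mul, inv_pow _ (2 * k), hx] at this
        exact this
    _ = A ^ 2 * (∑ s ∈ range M, (2 * ((s : ℝ) + 1) + 1) * ((s : ℝ) + 1)⁻¹ ^ 3 +
          (∑ s ∈ range M, (2 * ((s : ℝ) + 1) + 1)) * (n : ℝ)⁻¹ ^ 2) := by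
        rw [sum_mul, ← sum_add_distrib, mul_sum]
        exact sum_congr rfl fun s _ => by ring
    _ ≤ A ^ 2 * (6 + ((Λ : ℝ) + 1) ^ 2) := by
        refine mul_le_mul_of_nonneg_left (add_le_add ?_ ?_) (by positivity)
        · have : (0 : ℝ) ≤ 6 / ((M : ℝ) + 1) := by positivity
          linarith [Moment_sum_le M]
        · rw [Moment_sum_lin, inv_pow, ← div_eq_mul_inv, div_le_iff₀ (by positivity), ← mul_pow]
          have h1 : (M : ℝ) ≤ Λ * n := by exact_mod_cast hM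
          have h2 : ((M : ℝ) + 1) ^ 2 ≤ (((Λ : ℝ) + 1) * n) ^ 2 := by
            gcongr; nlinarith
          linarith

/-- `efron_stein` with `g i = tau vC j 0`; for `i < M = m + 1` use `EL_insertIdx`,
`List.eraseIdx_insertIdx`, `tau_insertIdx_le`, `le_tau_insertIdx`: the square is at most
`1 + D^2`. -/
theorem var_tau {k : ℕ} (hk : 3 ≤ k) (Λ : ℕ) :
    ∃ C : ℝ, ∀ n : ℕ, k ≤ n → ∀ M : ℕ, M ≤ Λ * n → ∀ j : ℕ,
      EL M (fun G : List (Clause k n) => (tau vC j 0 G : ℝ) ^ 2) -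
        (EL M (fun G : List (Clause k n) => (tau vC j 0 G : ℝ))) ^ 2 ≤ C * n := by
  obtain ⟨C, hC, h⟩ := loss_sq hk Λ
  refine ⟨Λ * (1 + C), fun n hn M hM j => ?_⟩
  have := clause_nonempty hn
  refine (efron_stein M _ fun _ G => (tau vC j 0 G : ℝ)).trans ?_
  have h1 : (M : ℝ) ≤ Λ * n := by exact_mod_cast hM
  calc _ ≤ ∑ i ∈ range M, (1 + C) := by
        refine sum_le_sum fun i hi => ?_
        obtain ⟨m, rfl⟩ : ∃ m, M = m + 1 := ⟨M - 1, by have := mem_range.1 hi; omega⟩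
        have hi' : i ≤ m := Nat.lt_succ_iff.1 (mem_range.1 hi)
        rw [EL_insertIdx hi']
        refine expect_le univ_nonempty fun c _ => ?_
        refine (EL_mono (g := fun G => 1 + ((tau vC j 0 G : ℝ) - tau vC j (vC c) G) ^ 2)
          fun G hG => ?_).trans ?_
        · rw [List.eraseIdx_insertIdx_self]
          have a1 : (tau vC j 0 (G.insertIdx i c) : ℝ) ≤ tau vC j 0 G + 1 := by
            exact_mod_cast tau_insertIdx_le vC j 0 G (hG ▸ hi') c
          have a2 : (tau vC j (vC c) G : ℝ) ≤ tau vC j 0 (G.insertIdx i c) := by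
            have := le_tau_insertIdx vC j 0 G (hG ▸ hi') c
            rw [zero_add] at this
            exact_mod_cast this
          rcases le_total (tau vC j 0 (G.insertIdx i c) : ℝ) (tau vC j 0 G) with a3 | a3
          · nlinarith
          · nlinarith [sq_nonneg ((tau vC j 0 G : ℝ) - tau vC j (vC c) G)]
        · rw [EL_add, EL_const]
          linarith [h n hn m (by omega) j c]
    _ = M * (1 + C) := by rw [sum_const, card_range, nsmul_eq_mul]
    _ ≤ _ := by nlinarith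

/-- By `gap_sq_le`, `EL_insertIdx` and `loss_sq`: `(j+1) E g_j^2 ≤ C₁ M ≤ C₁ Λ n` for
`g_j = tau (j+1) - tau j - 1` (in `ℕ`); `sq_EL_le` gives `E g_j ≤ √(C₁ Λ n / (j+1))`; sum over
`j < J` using `∑ j < J, 1/√(j+1) ≤ 2 √J`. -/
theorem gap_tau {k : ℕ} (hk : 3 ≤ k) (Λ : ℕ) :
    ∃ C : ℝ, 0 ≤ C ∧ ∀ n : ℕ, k ≤ n → ∀ M : ℕ, M ≤ Λ * n → ∀ J : ℕ,
      EL M (fun G : List (Clause k n) => (tau vC J 0 G : ℝ)) ≤
        EL M (fun G : List (Clause k n) => (tau vC 0 0 G : ℝ)) + J + C * √(n * J) := by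
  obtain ⟨C, hC, h⟩ := loss_sq hk Λ
  refine ⟨2 * √(C * Λ), by positivity, fun n hn M hM J => ?_⟩
  have := clause_nonempty hn
  have h1 : (M : ℝ) ≤ Λ * n := by exact_mod_cast hM
  have hv : ∀ (c : Clause k n) σ, vC c σ ≤ 1 := fun c σ => by unfold vC; split_ifs <;> simp
  have hg : ∀ j : ℕ, ((j : ℝ) + 1) * EL M (fun G : List (Clause k n) =>
      ((tau vC (j + 1) 0 G - tau vC j 0 G - 1 : ℕ) : ℝ) ^ 2) ≤ C * Λ * n := fun j => by
    rw [← EL_const_mul]
    refine (EL_mono (g := fun G => ∑ i ∈ range M, ((tau vC j 0 (G.eraseIdx i) -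
      tau vC j (en vC (G[i]?).toList) (G.eraseIdx i) : ℕ) : ℝ) ^ 2) fun G hG => ?_).trans ?_
    · have := gap_sq_le vC hv j G
      rw [hG] at this
      exact_mod_cast this
    rw [EL_sum]
    calc _ ≤ ∑ i ∈ range M, C := by
          refine sum_le_sum fun i hi => ?_
          obtain ⟨m, rfl⟩ : ∃ m, M = m + 1 := ⟨M - 1, by have := mem_range.1 hi; omega⟩
          have hi' : i ≤ m := Nat.lt_succ_iff.1 (mem_range.1 hi)
          rw [EL_insertIdx hi']
          refine expect_le univ_nonempty fun c _ => ?_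
          refine le_trans (EL_mono fun G hG => le_of_eq ?_) (h n hn m (by omega) j c)
          rw [List.eraseIdx_insertIdx_self, List.getElem?_insertIdx_self, if_pos (hG ▸ hi'),
            Option.toList_some, en_cons, en_nil, add_zero,
            Nat.cast_sub (tau_mono vC zero_le le_rfl G)]
      _ = M * C := by simp
      _ ≤ _ := by nlinarith
  induction J with
  | zero => simp
  | succ J ih =>
    set e := EL M (fun G : List (Clause k n) =>
      ((tau vC (J + 1) 0 G - tau vC J 0 G - 1 : ℕ) : ℝ)) with he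
    have a1 : EL M (fun G : List (Clause k n) => (tau vC (J + 1) 0 G : ℝ)) ≤
        EL M (fun G : List (Clause k n) => (tau vC J 0 G : ℝ)) + 1 + e := by
      rw [he, ← EL_const (C := Clause k n) M 1, ← EL_add, ← EL_add]
      refine EL_mono fun G _ => ?_
      have : tau vC (J + 1) 0 G ≤ tau vC J 0 G + 1 + (tau vC (J + 1) 0 G - tau vC J 0 G - 1) := by
        omega
      exact_mod_cast this
    have a2 : ((J : ℝ) + 1) * e ^ 2 ≤ C * Λ * n :=
      (mul_le_mul_of_nonneg_left (sq_EL_le M _) (by positivity)).trans (hg J)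
    have e0 : 0 ≤ e := EL_nonneg fun _ _ => Nat.cast_nonneg _
    have a3 : √((J : ℝ) + 1) * e ≤ √(C * Λ) * √n := by
      rw [← Real.sqrt_mul (by positivity), ← Real.sqrt_sq e0, ← Real.sqrt_mul (by positivity)]
      exact Real.sqrt_le_sqrt a2
    have b1 : √((J : ℝ) + 1) ^ 2 = J + 1 := Real.sq_sqrt (by positivity)
    have b2 : √(J : ℝ) ^ 2 = J := Real.sq_sqrt (by positivity)
    have b3 : 1 ≤ 2 * (√((J : ℝ) + 1) - √J) * √((J : ℝ) + 1) := by
      nlinarith [sq_nonneg (√((J : ℝ) + 1) - √J)]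
    have b4 : 0 ≤ √((J : ℝ) + 1) - √J := sub_nonneg.2 (Real.sqrt_le_sqrt (by linarith))
    have a4 : e ≤ 2 * (√((J : ℝ) + 1) - √J) * (√(C * Λ) * √n) :=
      calc e = 1 * e := (one_mul e).symm
        _ ≤ 2 * (√((J : ℝ) + 1) - √J) * √((J : ℝ) + 1) * e := by gcongr
        _ = 2 * (√((J : ℝ) + 1) - √J) * (√((J : ℝ) + 1) * e) := by ring
        _ ≤ _ := by gcongr
    push_cast
    rw [Real.sqrt_mul (Nat.cast_nonneg n)] at ih ⊢
    nlinarith

end Crest.Agent.R153
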