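import Crest.Agent.R153.Trial
import Crest.Agent.R153.Thresh

/-! # Row 153: Poisson weights; the pressure versus the ground state energy -/

set_option autoImplicit false
set_option linter.unusedVariables false
set_option linter.unusedSectionVars false

namespace Crest.Agent.R153

open Finset
open scoped BigOperators

open Filter Topology
open Crest.ProbabilityR.RandomSAT
open Crest.ProbabilityR.Diluted (poissonWeight)

theorem pw_nonneg {lam : ℝ} (h : 0 ≤ lam) (d : ℕ) : 0 ≤ poissonWeight lam d := by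
  unfold poissonWeight
  positivity

/-- `Real.exp_eq_exp_ℝ`, `NormedSpace.expSeries_div_hasSum_exp`. -/
theorem pw_hasSum (lam : ℝ) : HasSum (poissonWeight lam) 1 := by
  have h := (NormedSpace.expSeries_div_hasSum_exp lam).mul_left (Real.exp (-lam))
  rw [← Real.exp_eq_exp_ℝ, ← Real.exp_add, neg_add_cancel, Real.exp_zero] at h
  refine h.congr_fun fun d => ?_
  rw [poissonWeight, mul_div_assoc]

theorem press_shift {lam S : ℝ} {f : ℕ → ℝ}
    (h : HasSum (fun d : ℕ => poissonWeight lam d * f (d + 1)) S) :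
    HasSum (fun d : ℕ => poissonWeight lam d * (d * f d)) (lam * S) := by
  rw [← hasSum_nat_add_iff' 1]
  simp only [range_one, sum_singleton, Nat.cast_zero, zero_mul, mul_zero, sub_zero]
  refine (h.mul_left lam).congr_fun fun d => ?_
  have h1 : ((d : ℝ) + 1) ≠ 0 := by positivity
  have h2 : (d.factorial : ℝ) ≠ 0 := by positivity
  simp only [poissonWeight, Nat.factorial_succ]
  push_cast
  field_simp
  ring

/-- `(d+1) * pw (d+1) = lam * pw d`, `hasSum_nat_add_iff'`. -/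
theorem pw_hasSum_mul (lam : ℝ) : HasSum (fun d : ℕ => poissonWeight lam d * d) lam := by
  simpa using press_shift (f := fun _ => 1) (lam := lam) (S := 1) (by simpa using pw_hasSum lam)

theorem pw_hasSum_sq (lam : ℝ) :
    HasSum (fun d : ℕ => poissonWeight lam d * ((d : ℝ) - lam) ^ 2) lam := by
  have h1 := press_shift (f := fun d => (d : ℝ)) (lam := lam) (S := lam + 1)
    (((pw_hasSum_mul lam).add (pw_hasSum lam)).congr_fun fun d => by push_cast; ring)
  have h2 := (h1.sub ((pw_hasSum_mul lam).mul_left (2 * lam))).add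
    ((pw_hasSum lam).mul_left (lam ^ 2))
  rw [show lam * (lam + 1) - 2 * lam * lam + lam ^ 2 * 1 = lam by ring] at h2
  exact h2.congr_fun fun d => by ring

/-- `(1-κ)^(minE) ≤ ∑ σ, (1-κ)^(E σ) ≤ 2^N (1-κ)^(minE)`. -/
theorem lz_bounds {κ : ℝ} (hκ0 : 0 ≤ κ) (hκ1 : κ < 1) {N : ℕ} (hN : 0 < N) (M : ℕ) :
    Real.log (1 - κ) * eR 3 N M ≤ lz κ N M ∧
      lz κ N M ≤ N * Real.log 2 + Real.log (1 - κ) * eR 3 N M := by
  have := energy_nonempty (k := 3) hN
  have hq : 0 < 1 - κ := by linarith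
  have hpos : ∀ E : (Fin N → Bool) → ℕ, (1 - κ) ^ minE E ≤ ∑ σ, (1 - κ) ^ E σ := by
    intro E
    obtain ⟨σ, hσ⟩ := exists_minE E
    rw [← hσ]
    exact single_le_sum (f := fun σ => (1 - κ) ^ E σ) (fun _ _ => by positivity) (mem_univ σ)
  rw [eR, ← EL_const_mul, ← EL_const (C := Fin 3 → Lit N) M (N * Real.log 2), ← EL_add]
  refine ⟨EL_mono fun G _ => ?_, EL_mono fun G _ => ?_⟩
  · rw [mul_comm, ← Real.log_pow]
    exact Real.log_le_log (by positivity) (hpos _)
  · rw [mul_comm (Real.log (1 - κ)), ← Real.log_pow, ← Real.log_pow,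
      ← Real.log_mul (by positivity) (by positivity)]
    refine Real.log_le_log (lt_of_lt_of_le (by positivity) (hpos _)) ?_
    refine (sum_le_card_nsmul _ _ _ fun σ _ =>
      pow_le_pow_of_le_one hq.le (by linarith) (minE_le _ σ)).trans (le_of_eq ?_)
    simp

theorem press_summable {lam κ : ℝ} (hl : 0 ≤ lam) (hκ0 : 0 ≤ κ) (hκ1 : κ < 1) {N : ℕ}
    (hN : 0 < N) : Summable fun M : ℕ => poissonWeight lam M * lz κ N M := by
  refine Summable.of_norm_bounded (((pw_hasSum lam).mul_right (N * Real.log 2)).add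
    ((pw_hasSum_mul lam).mul_right (-Real.log (1 - κ)))).summable fun M => ?_
  have h0 := pw_nonneg hl M
  rw [norm_mul, Real.norm_of_nonneg h0, mul_assoc, ← mul_add]
  refine mul_le_mul_of_nonneg_left ?_ h0
  obtain ⟨h1, h2⟩ := lz_bounds hκ0 hκ1 hN M
  have h3 : 0 ≤ -Real.log (1 - κ) := neg_nonneg.2 (Real.log_nonpos (by linarith) (by linarith))
  have h4 := mul_le_mul_of_nonneg_left (eR_le (k := 3) hN M) h3
  have h5 := mul_nonneg h3 (eR_nonneg 3 N M)
  have h6 : 0 ≤ (N : ℝ) * Real.log 2 := mul_nonneg (Nat.cast_nonneg _) (Real.log_nonneg one_le_two)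
  exact abs_le.2 ⟨by linarith, by linarith⟩

theorem press_quad (lam A B : ℝ) :
    HasSum (fun M : ℕ => poissonWeight lam M * (A + B * ((M : ℝ) - lam) ^ 2)) (A + B * lam) := by
  have h := ((pw_hasSum lam).mul_left A).add ((pw_hasSum_sq lam).mul_left B)
  rw [mul_one] at h
  exact h.congr_fun fun M => by ring

/-- Take `a < a' < α`. By `energy_zero` and `eR_le`, eventually for all `M`:
`eR 3 N M ≤ η N + a' / ((a'-a)^2 N) * (M - a N)^2` (for `M > a' N` one has
`M ≤ a'/(a'-a) * (M - a N) ≤ a' / ((a'-a)^2 N) * (M - a N)^2`); sum against the Poisson weights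
(summability from `|lz| ≤ N log 2 + β M`). -/
theorem press_ge {α : ℝ} (hα : IsSharpThreshold (satProb 3) α) {a κ : ℝ} (ha0 : 0 < a)
    (ha : a < α) (hκ0 : 0 ≤ κ) (hκ1 : κ < 1) {ε : ℝ} (hε : 0 < ε) :
    ∀ᶠ N : ℕ in atTop, -ε ≤ press a κ N := by
  obtain ⟨δ, hδ⟩ : ∃ δ, δ = (α - a) / 2 := ⟨_, rfl⟩
  have hδ0 : 0 < δ := by linarith
  obtain ⟨β, hβ⟩ : ∃ β, β = -Real.log (1 - κ) := ⟨_, rfl⟩
  have hβ0 : 0 ≤ β := by
    rw [hβ, neg_nonneg]
    exact Real.log_nonpos (by linarith) (by linarith)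
  filter_upwards [energy_zero hα (a := a + δ) (by linarith) (by linarith)
    (ε := ε / (2 * (β + 1))) (by positivity), eventually_gt_atTop 0,
    tendsto_natCast_atTop_atTop.eventually_ge_atTop (2 * (β * ((a + δ) / δ ^ 2) * a) / ε)]
    with N h1 hN h2
  have hN' : (0 : ℝ) < N := by exact_mod_cast hN
  have h3 : ∀ M : ℕ, eR 3 N M ≤
      ε / (2 * (β + 1)) * N + (a + δ) / δ ^ 2 / N * ((M : ℝ) - a * N) ^ 2 := by
    intro M
    rcases le_total (M : ℝ) ((a + δ) * N) with h | h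
    · exact (h1 M h).trans (le_add_of_nonneg_right (by positivity))
    · refine (eR_le hN M).trans (le_add_of_nonneg_of_le (by positivity) ?_)
      have e1 : δ * N ≤ M - a * N := by linarith
      have e2 : δ * M ≤ (a + δ) * (M - a * N) := by nlinarith [mul_le_mul_of_nonneg_left e1 ha0.le]
      have e3 := mul_le_mul e2 e1 (by positivity) (le_trans (by positivity) e2)
      rw [div_div, div_mul_eq_mul_div, le_div_iff₀ (by positivity)]
      nlinarith
  have h4 := hasSum_le (fun M => mul_le_mul_of_nonneg_left (c := lz κ N M) ?_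
    (pw_nonneg (by positivity) M))
    (press_quad (a * N) (-(β * (ε / (2 * (β + 1)) * N))) (-(β * ((a + δ) / δ ^ 2 / N))))
    (press_summable (by positivity) hκ0 hκ1 hN).hasSum
  · rw [press, one_div, ← div_eq_inv_mul, le_div_iff₀ hN']
    refine le_trans ?_ h4
    have e1 : β * (ε / (2 * (β + 1)) * N) ≤ ε / 2 * N := by
      rw [← mul_assoc]
      refine mul_le_mul_of_nonneg_right ?_ hN'.le
      rw [← mul_div_assoc, div_le_div_iff₀ (by positivity) (by positivity)]
      nlinarith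
    have e2 : β * ((a + δ) / δ ^ 2 / N) * (a * N) = β * ((a + δ) / δ ^ 2) * a := by field_simp
    rw [div_le_iff₀ hε] at h2
    rw [neg_mul (β * _), e2]
    linarith
  · have e1 := mul_le_mul_of_nonneg_left (h3 M) hβ0
    have e2 := (lz_bounds hκ0 hκ1 hN M).1
    rw [show Real.log (1 - κ) = -β by rw [hβ, neg_neg]] at e2
    linarith

/-- Take `α < a' < a` and `γ` from `energy_pos` at `a'`. Eventually for all `M`:
`eR 3 N M ≥ γ N (1 - (M - a N)^2 / ((a-a')^2 N^2))`, so the Poisson average of `eR` is at least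
`γ N / 2` eventually, and `press ≤ log 2 + log (1-κ) γ / 2`; choose `κ = 1 - 1/B`, `B` large. -/
theorem press_le {α : ℝ} (hα : IsSharpThreshold (satProb 3) α) {a : ℝ} (ha : α < a) (K : ℝ) :
    ∃ κ : ℚ, 0 ≤ κ ∧ κ < 1 ∧ ∀ᶠ N : ℕ in atTop, press a κ N ≤ -K := by
  have hα0 := alpha_nonneg hα
  have ha0 : 0 < a := hα0.trans_lt ha
  obtain ⟨δ, hδ⟩ : ∃ δ, δ = (a - α) / 2 := ⟨_, rfl⟩
  have hδ0 : 0 < δ := by linarith
  obtain ⟨γ, hγ, hev⟩ := energy_pos hα (a := a - δ) (by linarith)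
  obtain ⟨B, hB⟩ := exists_nat_ge (Real.exp (2 * (K + Real.log 2) / γ))
  have hB0 : 0 < B := by exact_mod_cast (Real.exp_pos _).trans_le hB
  have hB1 : (1 : ℝ) ≤ B := by exact_mod_cast hB0
  have hκ : ((1 - 1 / B : ℚ) : ℝ) = 1 - 1 / B := by push_cast; rfl
  have hκ0 : (0 : ℝ) ≤ 1 - 1 / B := sub_nonneg.2 ((div_le_one (by positivity)).2 hB1)
  have hκ1 : (1 - 1 / B : ℝ) < 1 := sub_lt_self _ (by positivity)
  refine ⟨1 - 1 / B, by exact_mod_cast hκ ▸ hκ0, by exact_mod_cast hκ ▸ hκ1, ?_⟩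
  rw [hκ]
  obtain ⟨β, hβ⟩ : ∃ β, β = Real.log B := ⟨_, rfl⟩
  have hβ0 : 0 ≤ β := hβ ▸ Real.log_nonneg hB1
  have hβ1 : 2 * (K + Real.log 2) ≤ β * γ := by
    rw [← div_le_iff₀ hγ, hβ, Real.le_log_iff_exp_le (by positivity)]
    exact hB
  filter_upwards [hev, eventually_gt_atTop 0,
    tendsto_natCast_atTop_atTop.eventually_ge_atTop (2 * (a / δ ^ 2))] with N h1 hN h2
  have hN' : (0 : ℝ) < N := by exact_mod_cast hN
  have h3 : ∀ M : ℕ, γ * N - γ / δ ^ 2 / N * ((M : ℝ) - a * N) ^ 2 ≤ eR 3 N M := by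
    intro M
    rcases le_total ((a - δ) * N) (M : ℝ) with h | h
    · exact (sub_le_self _ (by positivity)).trans (h1 M h)
    · refine le_trans (sub_nonpos.2 ?_) (eR_nonneg 3 N M)
      have e1 : (δ * N) ^ 2 ≤ (a * N - M) ^ 2 := pow_le_pow_left₀ (by positivity) (by linarith) 2
      rw [div_div, div_mul_eq_mul_div, le_div_iff₀ (by positivity)]
      nlinarith [mul_le_mul_of_nonneg_left e1 hγ.le]
  have h4 := hasSum_le (fun M => mul_le_mul_of_nonneg_left (b := lz (1 - 1 / B) N M) ?_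
    (pw_nonneg (by positivity) M)) (press_summable (by positivity) hκ0 hκ1 hN).hasSum
    (press_quad (a * N) (N * Real.log 2 - β * (γ * N)) (β * (γ / δ ^ 2 / N)))
  · rw [press, one_div (N : ℝ), ← div_eq_inv_mul, div_le_iff₀ hN']
    refine h4.trans ?_
    have e2 : β * (γ / δ ^ 2 / N) * (a * N) = β * γ * (a / δ ^ 2) := by field_simp
    have e3 := mul_le_mul_of_nonneg_left h2 (mul_nonneg hβ0 hγ.le)
    have e4 := mul_le_mul_of_nonneg_right hβ1 hN'.le
    rw [e2]
    linarith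
  · have e1 := mul_le_mul_of_nonneg_left (h3 M) hβ0
    have e2 := (lz_bounds hκ0 hκ1 hN M).2
    rw [sub_sub_cancel, one_div, Real.log_inv, ← hβ, ← one_div] at e2
    linarith

end Crest.Agent.R153
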