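import Crest.Agent.R153.Code

/-! # Row 153: rational approximations of powers, logarithms and Poisson weights -/

set_option autoImplicit false
set_option linter.unusedVariables false
set_option linter.unusedSectionVars false

namespace Crest.Agent.R153

open Finset
open scoped BigOperators

open Filter Topology
open Crest.Agent.Lib.Comp
open Crest.ProbabilityR.Diluted (poissonWeight)

/-- `Primrec.nat_findGreatest`, `rat_le`, `rat_pow`, `primrec_den`, `primrec_pn`. -/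
theorem primrec_rlo : Primrec fun x : ℕ × ℚ × ℚ => rlo x.1 x.2.1 x.2.2 := by
  have hS : Primrec fun y : (ℕ × ℚ × ℚ) × ℕ => (y.1.1 : ℚ) :=
    rat_natCast.comp (Primrec.fst.comp Primrec.fst)
  have hx : Primrec fun y : (ℕ × ℚ × ℚ) × ℕ => y.1.2.1 :=
    Primrec.fst.comp (Primrec.snd.comp Primrec.fst)
  have hθ : Primrec fun y : (ℕ × ℚ × ℚ) × ℕ => y.1.2.2 :=
    Primrec.snd.comp (Primrec.snd.comp Primrec.fst)
  have hp : PrimrecRel fun (x : ℕ × ℚ × ℚ) (u : ℕ) =>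
      ((u : ℚ) / x.1) ^ x.2.2.den ≤ x.2.1 ^ pn x.2.2 :=
    rat_le.comp (rat_pow.comp (rat_div.comp (rat_natCast.comp Primrec.snd) hS)
      (primrec_den.comp hθ)) (rat_pow.comp hx (primrec_pn.comp hθ))
  exact rat_div.comp (rat_natCast.comp (Primrec.nat_findGreatest Primrec.fst hp))
    (rat_natCast.comp Primrec.fst)

theorem primrec_rup : Primrec fun x : ℕ × ℚ × ℚ => rup x.1 x.2.1 x.2.2 := by
  exact rat_min.comp (Primrec.const 1) (rat_add.comp primrec_rlo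
    (rat_div.comp (Primrec.const 1) (rat_natCast.comp Primrec.fst)))

theorem primrec_nl : Primrec₂ nl := by
  have h : Primrec₂ fun (y : ℕ × ℚ) (i : ℕ) => (1 - y.2) ^ (i + 1) / ((i : ℚ) + 1) :=
    rat_div.comp (rat_pow.comp (rat_sub.comp (Primrec.const 1) (Primrec.snd.comp Primrec.fst))
      (Primrec.succ.comp Primrec.snd))
      (rat_add.comp (rat_natCast.comp Primrec.snd) (Primrec.const 1))
  exact rat_list_sum.comp (Primrec.list_map (Primrec.list_range.comp Primrec.fst) h)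

theorem primrec_nu : Primrec₂ nu := by
  exact rat_add.comp primrec_nl (rat_div.comp (rat_pow.comp
    (rat_sub.comp (Primrec.const 1) Primrec.snd) (Primrec.succ.comp Primrec.fst)) Primrec.snd)

theorem primrec_plo : Primrec fun x : ℚ × ℕ × ℕ => plo x.1 x.2.1 x.2.2 := by
  have h : Primrec₂ fun (y : ℚ × ℕ × ℕ) (i : ℕ) => y.1 / ((i : ℚ) + 1) :=
    rat_div.comp (Primrec.fst.comp Primrec.fst)
      (rat_add.comp (rat_natCast.comp Primrec.snd) (Primrec.const 1))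
  have hn : Primrec fun y : ℚ × ℕ × ℕ => y.2.1 := Primrec.fst.comp Primrec.snd
  exact rat_mul.comp (rat_pow.comp (rat_sub.comp (Primrec.const 1)
    (rat_div.comp Primrec.fst (rat_natCast.comp hn))) hn)
    (rat_list_prod.comp (Primrec.list_map
      (Primrec.list_range.comp (Primrec.snd.comp Primrec.snd)) h))

theorem root_pow_le_iff {x θ y : ℚ} (hx0 : 0 ≤ x) (hθ : 0 < θ) (hy : 0 ≤ y) :
    y ^ θ.den ≤ x ^ pn θ ↔ (y : ℝ) ≤ (x : ℝ) ^ (θ : ℝ) := by
  have hx0' : (0 : ℝ) ≤ x := by exact_mod_cast hx0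
  have hy' : (0 : ℝ) ≤ y := by exact_mod_cast hy
  have hnum : ((pn θ : ℕ) : ℝ) = (θ.num : ℝ) := by
    have h : ((pn θ : ℕ) : ℤ) = θ.num := Int.toNat_of_nonneg (Rat.num_nonneg.2 hθ.le)
    exact_mod_cast h
  have hden : (θ.den : ℝ) ≠ 0 := by exact_mod_cast θ.den_nz
  have hθe : (θ : ℝ) * (θ.den : ℕ) = (pn θ : ℕ) := by
    rw [hnum, Rat.cast_def]; field_simp
  have e : ((x : ℝ) ^ (θ : ℝ)) ^ θ.den = (x : ℝ) ^ pn θ := by
    rw [← Real.rpow_natCast, ← Real.rpow_mul hx0', hθe, Real.rpow_natCast]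
  rw [← pow_le_pow_iff_left₀ hy' (Real.rpow_nonneg hx0' _) θ.den_nz, e]
  exact_mod_cast Iff.rfl

/-- `θ = pn θ / θ.den`; for `y ≥ 0`, `y ^ θ.den ≤ x ^ pn θ ↔ y ≤ x ^ θ`; `Nat.findGreatest_spec`,
`Nat.findGreatest_is_greatest`, `Nat.findGreatest_le`; `x ^ θ ≤ 1`. -/
theorem rlo_spec {S : ℕ} (hS : 0 < S) {x θ : ℚ} (hx0 : 0 ≤ x) (hx1 : x ≤ 1) (hθ : 0 < θ) :
    0 ≤ rlo S x θ ∧ (rlo S x θ : ℝ) ≤ (x : ℝ) ^ (θ : ℝ) ∧
      (x : ℝ) ^ (θ : ℝ) ≤ rlo S x θ + 1 / S := by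
  have hx0' : (0 : ℝ) ≤ x := by exact_mod_cast hx0
  have hx1' : (x : ℝ) ≤ 1 := by exact_mod_cast hx1
  have hθ' : (0 : ℝ) ≤ θ := by exact_mod_cast hθ.le
  have hS' : (0 : ℝ) < S := by exact_mod_cast hS
  have hle1 : (x : ℝ) ^ (θ : ℝ) ≤ 1 := Real.rpow_le_one hx0' hx1' hθ'
  set P : ℕ → Prop := fun u => ((u : ℚ) / S) ^ θ.den ≤ x ^ pn θ with hP
  have hiff : ∀ u : ℕ, P u ↔ (u : ℝ) / S ≤ (x : ℝ) ^ (θ : ℝ) := fun u => by
    have h := root_pow_le_iff (y := (u : ℚ) / S) hx0 hθ (by positivity)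
    rw [hP]; dsimp only; rw [h]; push_cast; rfl
  have hP0 : P 0 := (hiff 0).2 (by simpa using Real.rpow_nonneg hx0' _)
  have hr : (rlo S x θ : ℝ) = (Nat.findGreatest P S : ℝ) / S := by
    simp [rlo, hP]
  refine ⟨by unfold rlo; positivity, ?_, ?_⟩
  · rw [hr]
    exact (hiff _).1 (Nat.findGreatest_spec (Nat.zero_le S) hP0)
  · rw [hr]
    rcases (Nat.findGreatest_le (P := P) S).lt_or_eq with h | h
    · have h2 := Nat.findGreatest_is_greatest (P := P) (Nat.lt_succ_self _) (Nat.succ_le_of_lt h)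
      rw [hiff] at h2
      push Not at h2
      rw [← add_div]
      push_cast at h2
      exact h2.le
    · rw [h, div_self hS'.ne']
      have : (0 : ℝ) ≤ 1 / S := by positivity
      linarith

theorem rup_spec {S : ℕ} (hS : 0 < S) {x θ : ℚ} (hx0 : 0 ≤ x) (hx1 : x ≤ 1) (hθ : 0 < θ) :
    rup S x θ ≤ 1 ∧ (x : ℝ) ^ (θ : ℝ) ≤ rup S x θ ∧
      (rup S x θ : ℝ) ≤ (x : ℝ) ^ (θ : ℝ) + 1 / S := by
  have hx0' : (0 : ℝ) ≤ x := by exact_mod_cast hx0
  have hx1' : (x : ℝ) ≤ 1 := by exact_mod_cast hx1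
  have hθ' : (0 : ℝ) ≤ θ := by exact_mod_cast hθ.le
  have hle1 : (x : ℝ) ^ (θ : ℝ) ≤ 1 := Real.rpow_le_one hx0' hx1' hθ'
  obtain ⟨-, h2, h3⟩ := rlo_spec hS hx0 hx1 hθ
  have e : (rup S x θ : ℝ) = min 1 ((rlo S x θ : ℝ) + 1 / S) := by
    simp [rup]
  refine ⟨min_le_left _ _, ?_, ?_⟩
  · rw [e]; exact le_min hle1 h3
  · rw [e]; exact (min_le_right _ _).trans (by linarith)

noncomputable def nlR (n : ℕ) (x : ℝ) : ℝ := ∑ i ∈ range n, (1 - x) ^ (i + 1) / (i + 1)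

noncomputable def nuR (n : ℕ) (x : ℝ) : ℝ := nlR n x + (1 - x) ^ (n + 1) / x

theorem nl_cast (n : ℕ) (x : ℚ) : (nl n x : ℝ) = nlR n x := by
  induction n with
  | zero => simp [nl, nlR]
  | succ n ih =>
    have e : nl (n + 1) x = nl n x + (1 - x) ^ (n + 1) / (n + 1) := by
      simp [nl, List.range_succ]
    rw [e, nlR, Finset.sum_range_succ, ← nlR, ← ih]
    push_cast; rfl

theorem nu_cast (n : ℕ) (x : ℚ) : (nu n x : ℝ) = nuR n x := by
  rw [nu, nuR, ← nl_cast]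
  push_cast; rfl

theorem root_hasSum {x : ℝ} (h0 : 0 < x) (h1 : x ≤ 1) :
    HasSum (fun n : ℕ => (1 - x) ^ (n + 1) / (n + 1)) (-Real.log x) := by
  have h := Real.hasSum_pow_div_log_of_abs_lt_one (x := 1 - x)
    (by rw [abs_of_nonneg (by linarith)]; linarith)
  rwa [sub_sub_cancel] at h

/-- `Real.hasSum_pow_div_log_of_abs_lt_one`, `sum_le_hasSum`. -/
theorem nlR_le (n : ℕ) {x : ℝ} (h0 : 0 < x) (h1 : x ≤ 1) : nlR n x ≤ -Real.log x := by
  have h2 : 0 ≤ 1 - x := by linarith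
  exact sum_le_hasSum (range n) (fun i _ => by positivity) (root_hasSum h0 h1)

/-- `Real.abs_log_sub_add_sum_range_le`. -/
theorem le_nuR (n : ℕ) {x : ℝ} (h0 : 0 < x) (h1 : x ≤ 1) : -Real.log x ≤ nuR n x := by
  have h2 : 0 ≤ 1 - x := by linarith
  have h := Real.abs_log_sub_add_sum_range_le (x := 1 - x)
    (by rw [abs_of_nonneg h2]; linarith) n
  rw [abs_of_nonneg h2, sub_sub_cancel] at h
  have h3 := (abs_le.1 h).1
  unfold nuR nlR
  linarith

theorem tendsto_nlR {x : ℝ} (h0 : 0 < x) (h1 : x ≤ 1) :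
    Tendsto (fun n => nlR n x) atTop (𝓝 (-Real.log x)) := by
  exact (root_hasSum h0 h1).tendsto_sum_nat

theorem tendsto_nuR {x : ℝ} (h0 : 0 < x) (h1 : x ≤ 1) :
    Tendsto (fun n => nuR n x) atTop (𝓝 (-Real.log x)) := by
  have h2 : Tendsto (fun n : ℕ => (1 - x) ^ (n + 1) / x) atTop (𝓝 0) := by
    have h3 : Tendsto (fun n : ℕ => (1 - x) ^ n) atTop (𝓝 0) :=
      tendsto_pow_atTop_nhds_zero_of_lt_one (by linarith) (by linarith)
    have h4 := (h3.comp (tendsto_add_atTop_nat 1)).div_const x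
    rw [zero_div] at h4
    exact h4
  have h := (tendsto_nlR h0 h1).add h2
  rw [add_zero] at h
  exact h

theorem continuous_nlR (n : ℕ) : Continuous (nlR n) := by
  unfold nlR
  fun_prop

theorem continuousAt_nuR (n : ℕ) {x : ℝ} (h0 : 0 < x) : ContinuousAt (nuR n) x := by
  unfold nuR
  refine (continuous_nlR n).continuousAt.add (ContinuousAt.div (by fun_prop) continuousAt_id h0.ne')

theorem root_prod_eq (lam : ℚ) (d : ℕ) :
    ((List.range d).map fun i : ℕ => lam / (i + 1)).prod = lam ^ d / (d.factorial : ℚ) := by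
  induction d with
  | zero => simp
  | succ d ih =>
    rw [List.range_succ, List.map_append, List.prod_append, ih, Nat.factorial_succ]
    have : (d.factorial : ℚ) ≠ 0 := by exact_mod_cast d.factorial_ne_zero
    have : ((d : ℚ) + 1) ≠ 0 := by positivity
    simp only [List.map_cons, List.map_nil, List.prod_cons, List.prod_nil, mul_one]
    push_cast
    field_simp
    ring

theorem root_plo_cast (lam : ℚ) (n d : ℕ) :
    (plo lam n d : ℝ) = (1 - (lam : ℝ) / n) ^ n * ((lam : ℝ) ^ d / (d.factorial : ℝ)) := by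
  rw [plo, root_prod_eq]
  push_cast; rfl

theorem plo_nonneg {lam : ℚ} {n : ℕ} (h0 : 0 ≤ lam) (h : lam ≤ n) (d : ℕ) : 0 ≤ plo lam n d := by
  rw [plo, root_prod_eq]
  have h1 : 0 ≤ 1 - lam / n := sub_nonneg.2 (div_le_one_of_le₀ h (by positivity))
  positivity

/-- `Real.one_sub_div_pow_le_exp_neg`; the list product is `lam ^ d / d!`. -/
theorem plo_le {lam : ℚ} {n : ℕ} (h0 : 0 ≤ lam) (h : lam ≤ n) (d : ℕ) :
    (plo lam n d : ℝ) ≤ poissonWeight lam d := by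
  have h0' : (0 : ℝ) ≤ lam := by exact_mod_cast h0
  have h' : (lam : ℝ) ≤ n := by exact_mod_cast h
  rw [root_plo_cast, poissonWeight, mul_div_assoc]
  exact mul_le_mul_of_nonneg_right (Real.one_sub_div_pow_le_exp_neg h') (by positivity)

/-- `Real.tendsto_one_add_div_pow_exp`. -/
theorem tendsto_plo (lam : ℚ) (d : ℕ) :
    Tendsto (fun n => (plo lam n d : ℝ)) atTop (𝓝 (poissonWeight lam d)) := by
  have h := (Real.tendsto_one_add_div_pow_exp (-(lam : ℝ))).mul_const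
    ((lam : ℝ) ^ d / (d.factorial : ℝ))
  rw [poissonWeight, mul_div_assoc]
  refine h.congr fun n => ?_
  rw [root_plo_cast, neg_div, ← sub_eq_add_neg]

end Crest.Agent.R153
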