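import Crest.Agent.R153.Basic

/-! # Row 153: Efron–Stein, splitting a random list, block filtering -/

set_option autoImplicit false
set_option linter.unusedVariables false
set_option linter.unusedSectionVars false

namespace Crest.Agent.R153

open Finset
open scoped BigOperators
open Crest.ProbabilityR.RandomSAT

variable {C : Type*} [Fintype C]

/-- Efron–Stein for `EL`. Induction on `m` generalizing `f g`:
`Var_{m+1} f = 𝔼_c Var_m (f (c :: ·)) + Var_c (EL m (f (c :: ·)))`, the first term is bounded by the
induction hypothesis with `g' i l := g (i+1) (c :: l)` (`List.eraseIdx_cons_succ`), the second by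
`𝔼_c (EL m (f (c :: ·)) - EL m (g 0))^2 ≤ 𝔼_c EL m ((f (c :: ·) - g 0)^2)` (`sq_EL_le`, `EL_sub`;
the variance is at most the mean square distance to any constant); `Finset.sum_range_succ'`. -/
theorem efron_stein [Nonempty C] (m : ℕ) (f : List C → ℝ) (g : ℕ → List C → ℝ) :
    EL m (fun l => f l ^ 2) - (EL m f) ^ 2 ≤
      ∑ i ∈ range m, EL m (fun l => (f l - g i (l.eraseIdx i)) ^ 2) := by
  induction m generalizing f g with
  | zero => simp
  | succ m ih =>
    rw [Finset.sum_range_succ']
    simp only [EL_succ, List.eraseIdx_cons_succ, List.eraseIdx_cons_zero]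
    rw [← expect_sum_comm, ← expect_add_distrib]
    have h1 : ∀ a : ℝ, 𝔼 c : C, (EL m (fun l => f (c :: l)) - a) ^ 2 =
        𝔼 c : C, EL m (fun l => f (c :: l)) ^ 2 - 2 * a * (𝔼 c : C, EL m (fun l => f (c :: l))) +
          a ^ 2 := fun a => by
      rw [mul_expect, ← expect_sub_distrib, ← Fintype.expect_const (ι := C) (a ^ 2),
        ← expect_add_distrib]
      exact expect_congr rfl fun c _ => by ring
    have h3 : ∀ c : C, (EL m (fun l => f (c :: l)) - EL m (g 0)) ^ 2 ≤
        EL m fun l => (f (c :: l) - g 0 l) ^ 2 := fun c => by
      rw [← EL_sub]; exact sq_EL_le m _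
    have h2 : 𝔼 c : C, ((EL m (fun l => f (c :: l) ^ 2) - EL m (fun l => f (c :: l)) ^ 2) +
        (EL m (fun l => f (c :: l)) - EL m (g 0)) ^ 2) ≤ _ :=
      expect_le_expect fun c _ => add_le_add
        (ih (fun l => f (c :: l)) fun i l => g (i + 1) (c :: l))
        (h3 c)
    refine le_trans ?_ h2
    rw [expect_add_distrib, expect_sub_distrib, h1]
    nlinarith [sq_nonneg (𝔼 c : C, EL m (fun l => f (c :: l)) - EL m (g 0))]

/-- Splitting a random list into the elements failing `p` and those satisfying `p`.
Induction on `M` generalizing `f`: for the head `c`,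
`f (filter ¬p (c :: l)) (filter p (c :: l)) ≤ ind (p c) * f G (c :: W) + f (c :: G) W`; apply the
induction hypothesis to both, move `𝔼 c` inside (`EL_expect`, `expect_sum_comm`,
`List.forall_mem_cons`, `ind_and`), and use `Finset.sum_choose_succ_mul` (Pascal). -/
theorem EL_split (p : C → Prop) [DecidablePred p] (M : ℕ) (f : List C → List C → ℝ)
    (hf : ∀ G W, 0 ≤ f G W) :
    EL M (fun l => f (l.filter fun c => ¬ p c) (l.filter fun c => p c)) ≤
      ∑ d ∈ range (M + 1), (M.choose d : ℝ) *
        EL d (fun W => ind (∀ c ∈ W, p c) * EL (M - d) (fun G => f G W)) := by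
  induction M generalizing f with
  | zero => simp [ind]
  | succ M ih =>
    rw [EL_succ, Finset.sum_choose_succ_mul
      (fun d e => EL d fun W => ind (∀ c ∈ W, p c) * EL e fun G => f G W) M]
    have h1 : ∀ c : C, EL M (fun l => f ((c :: l).filter fun c => ¬ p c)
        ((c :: l).filter fun c => p c)) ≤
        ∑ d ∈ range (M + 1), (M.choose d : ℝ) *
          EL d (fun W => ind (∀ c ∈ W, p c) * EL (M - d) (fun G => f (c :: G) W)) +
        ind (p c) * ∑ d ∈ range (M + 1), (M.choose d : ℝ) *
          EL d (fun W => ind (∀ c ∈ W, p c) * EL (M - d) (fun G => f G (c :: W))) := by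
      intro c
      have a1 := ih (fun G W => f (c :: G) W) fun _ _ => hf _ _
      have a2 := ih (fun G W => f G (c :: W)) fun _ _ => hf _ _
      by_cases hc : p c
      · simp only [List.filter_cons, hc, not_true, decide_false, decide_true, if_true,
          Bool.false_eq_true, if_false, ind_pos, one_mul]
        exact a2.trans (le_add_of_nonneg_left ((EL_nonneg fun _ _ => hf _ _).trans a1))
      · simp only [List.filter_cons, hc, not_false_eq_true, decide_false, decide_true, if_true,
          Bool.false_eq_true, if_false, ind_neg, zero_mul, add_zero]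
        exact a1
    refine (expect_le_expect fun c _ => h1 c).trans (le_of_eq ?_)
    rw [expect_add_distrib]
    congr 1
    · rw [expect_sum_comm]
      refine Finset.sum_congr rfl fun d hd => ?_
      rw [← mul_expect, ← EL_expect,
        show M + 1 - d = M - d + 1 by have := Finset.mem_range.1 hd; omega]
      simp only [EL_succ, mul_expect]
    · simp only [mul_sum]
      rw [expect_sum_comm]
      refine Finset.sum_congr rfl fun d hd => ?_
      rw [EL_succ, mul_expect]
      refine expect_congr rfl fun c _ => ?_
      simp only [List.forall_mem_cons, ind_and, mul_assoc, EL_const_mul]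
      ring

/-- The second components of the elements in block `w`. -/
def blockOf {B : Type*} [DecidableEq B] (w : B) (G : List (B × C)) : List C :=
  (G.filter fun p => p.1 = w).map Prod.snd

theorem Split_blockOf_cons {B : Type*} [DecidableEq B] (w w' : B) (c : C) (G : List (B × C)) :
    blockOf w ((w', c) :: G) = if w' = w then c :: blockOf w G else blockOf w G := by
  by_cases h : w' = w <;> simp [blockOf, h]

/-- Given their number, the elements of block `w` are independent and uniform.
Induction on `M` generalizing `f`; split `𝔼` over the product (`Finset.expect_product'`),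
for the head `(w', c)` distinguish `w' = w` (then use `EL_expect` and `EL_succ`). -/
theorem EL_blockOf [Nonempty C] {B : Type*} [Fintype B] [DecidableEq B] (w : B) (M : ℕ)
    (f : List C → ℝ) :
    EL M (fun G : List (B × C) => f (blockOf w G)) =
      EL M (fun G : List (B × C) => EL (blockOf w G).length f) := by
  induction M generalizing f with
  | zero => rfl
  | succ M ih =>
    rw [EL_succ, EL_succ, ← univ_product_univ, expect_product, expect_product]
    refine expect_congr rfl fun w' _ => ?_
    simp only [Split_blockOf_cons]
    by_cases h : w' = w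
    · simp only [h, if_true, List.length_cons, EL_succ, EL_expect, Fintype.expect_const]
      exact expect_congr rfl fun c _ => ih fun l => f (c :: l)
    · simp only [h, if_false, ih]

/-- The size of a block is binomial: mean square distance to the mean at most the mean.
Prove by induction on `M`, for every real `x`, with `q = 1 / card B`:
`EL M ((len - x)^2) = (M q - x)^2 + M q (1 - q)`. -/
theorem EL_blockOf_sq [Nonempty C] {B : Type*} [Fintype B] [DecidableEq B] (w : B) (M : ℕ) :
    EL M (fun G : List (B × C) =>
      (((blockOf w G).length : ℝ) - M / Fintype.card B) ^ 2) ≤ M / Fintype.card B := by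
  rcases isEmpty_or_nonempty B with hB | hB
  · cases M with
    | zero => simp [blockOf]
    | succ M => simp [EL_succ]
  have key : ∀ x : ℝ, EL M (fun G : List (B × C) => (((blockOf w G).length : ℝ) - x) ^ 2) =
      (M * (Fintype.card B : ℝ)⁻¹ - x) ^ 2 +
        M * (Fintype.card B : ℝ)⁻¹ * (1 - (Fintype.card B : ℝ)⁻¹) := by
    induction M with
    | zero => simp [blockOf]
    | succ M ih =>
      intro x
      rw [EL_succ, ← univ_product_univ, expect_product]
      have h1 : ∀ (w' : B) (c : C), EL M (fun G : List (B × C) =>
          (((blockOf w ((w', c) :: G)).length : ℝ) - x) ^ 2) =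
          (M * (Fintype.card B : ℝ)⁻¹ - x) ^ 2 +
            M * (Fintype.card B : ℝ)⁻¹ * (1 - (Fintype.card B : ℝ)⁻¹) +
            if w' = w then 2 * (M * (Fintype.card B : ℝ)⁻¹ - x) + 1 else 0 := by
        intro w' c
        simp only [Split_blockOf_cons]
        by_cases h : w' = w
        · simp only [h, if_true, List.length_cons, Nat.cast_succ, add_sub_right_comm _ (1 : ℝ),
            sub_add, ih]
          ring
        · simp only [h, if_false, ih, add_zero]
      simp only [h1, Fintype.expect_const, expect_add_distrib, Fintype.expect_ite_eq',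
        ← NNRat.cast_smul_eq_nnqsmul ℝ, smul_eq_mul]
      push_cast
      ring
  rw [key, ← div_eq_mul_inv, sub_self]
  have h1 : (0 : ℝ) ≤ M / Fintype.card B := by positivity
  have h2 : (0 : ℝ) ≤ (Fintype.card B : ℝ)⁻¹ := by positivity
  nlinarith [mul_nonneg h1 h2]

end Crest.Agent.R153
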