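import Crest.Agent.R153.Split
import Crest.Agent.R153.Hazard
import Crest.Agent.R153.Dom

/-! # Row 153: the cavity step (removing the clauses that touch the variables of `U`) -/

set_option autoImplicit false
set_option linter.unusedVariables false
set_option linter.unusedSectionVars false

namespace Crest.Agent.R153

open Finset
open scoped BigOperators
open Crest.ProbabilityR.RandomSAT

variable {k n : ℕ}

/-- The event inherited by a family `V` of `d` unit clauses. -/
def Ev (j : ℕ) (X : Finset (Fin n)) (s d : ℕ) (V : List (Lit n)) (G : List (Clause k n)) : Prop :=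
  ¬ Good X V ∨ tau vC j (en vL V) G + s < tau vC j 0 G + d

/-- Deterministic removal step. Let `φ σ x = if x ∈ X then σ₀ x else σ x`. If `Good X V` then
`en vL U (φ σ) = 0`, `en vC W (φ σ) ≤ en vL V σ` (a true literal of `V` avoids `X`, `Good.avoid`),
and clauses not touching `X` have the same cost at `φ σ` and `σ`; apply `tau_filter_le` and
`tau_le_filter`. -/
theorem removal {j s : ℕ} {U : List (Lit n)} {σ₀ : Fin n → Bool} (hU : en vL U σ₀ = 0)
    (X : Finset (Fin n)) (hX : ∀ ℓ ∈ U, ℓ.1 ∈ X) (p : Clause k n → Fin k)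
    {G : List (Clause k n)} (hL : Loss j U s G) :
    Ev j X s (G.filter fun c => ∃ i, c.1.1 i ∈ X).length
      ((G.filter fun c => ∃ i, c.1.1 i ∈ X).map fun c => lit c (p c))
      (G.filter fun c => ¬ ∃ i, c.1.1 i ∈ X) := by
  by_cases hV : Good X ((G.filter fun c => ∃ i, c.1.1 i ∈ X).map fun c => lit c (p c))
  swap
  · exact Or.inl hV
  right
  have h1 := tau_le_filter vC (fun c : Clause k n => ∃ i, c.1.1 i ∈ X) j 0 G
  have h2 := tau_filter_le vC (fun c : Clause k n => ∃ i, c.1.1 i ∈ X)
    (fun σ x => if x ∈ X then σ₀ x else σ x) (fun c hc σ => ?_) j (en vL U)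
    (en vL ((G.filter fun c => ∃ i, c.1.1 i ∈ X).map fun c => lit c (p c))) G (fun σ => ?_)
  · unfold Loss at hL
    omega
  · push Not at hc
    simp only [vC, hc, if_false, le_refl]
  · have e1 : en vL U (fun x => if x ∈ X then σ₀ x else σ x) = 0 := by
      rw [← hU]
      unfold en
      congr 1
      refine List.map_congr_left fun ℓ hℓ => ?_
      simp only [vL, hX ℓ hℓ, if_true]
    rw [e1, zero_add]
    unfold en
    rw [List.map_map]
    refine List.sum_le_sum fun c hc => ?_
    have hav : c.1.1 (p c) ∉ X := hV.avoid _ (List.mem_map_of_mem hc)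
    simp only [Function.comp, vL, vC, lit]
    by_cases h : σ (c.1.1 (p c)) = c.2 (p c)
    · rw [if_pos h, if_pos ⟨p c, by rw [if_neg hav, h]⟩]
    · rw [if_neg h]
      split_ifs <;> omega

/-- Probability that two independent families both inherit the event. -/
noncomputable def Qd (k : ℕ) (j : ℕ) (X : Finset (Fin n)) (s M d : ℕ) : ℝ :=
  EL d fun U : List (Lit n) => EL d fun V : List (Lit n) => EL M fun G : List (Clause k n) =>
    ind (Ev j X s d U G) * ind (Ev j X s d V G)

theorem Qd_le_one (hk : 0 < k) (hn : k ≤ n) (j : ℕ) (X : Finset (Fin n)) (s M d : ℕ) :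
    Qd k j X s M d ≤ 1 := by
  have := clause_nonempty hn
  have : Nonempty (Lit n) := ⟨(⟨0, by omega⟩, true)⟩
  exact EL_le_const fun _ _ => EL_le_const fun _ _ => EL_le_const fun _ _ =>
    mul_le_one₀ (ind_le_one _) (ind_nonneg _) (ind_le_one _)

theorem step_Qd_nonneg (j : ℕ) (X : Finset (Fin n)) (s M d : ℕ) : 0 ≤ Qd k j X s M d :=
  EL_nonneg fun _ _ => EL_nonneg fun _ _ => EL_nonneg fun _ _ =>
    mul_nonneg (ind_nonneg _) (ind_nonneg _)

theorem Qd_zero (j : ℕ) (X : Finset (Fin n)) (s M : ℕ) : Qd k j X s M 0 = 0 := by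
  have : ∀ G : List (Clause k n), ind (Ev j X s 0 [] G) = 0 := fun G =>
    ind_neg (by simp [Ev, Good])
  simp [Qd, this]

/-- Take `X = (U.map Prod.fst).toFinset` (`card ≤ U.length`), `p q` from `exists_pick`. By
`removal` (for `p` and `q`) the indicator of `Loss` is at most `f G' W` with
`f G W = ind (Ev .. W.length (W.map ..p) G) * ind (Ev .. W.length (W.map ..q) G)`; apply
`EL_split`, replace `W.length` by `d` (`EL_congr`) and apply `exists_pick` with
`Φ U V = EL (M - d) ..`. -/
theorem loss_rec (hk : 3 ≤ k) (hn : k ≤ n) (j s M : ℕ) {U : List (Lit n)}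
    (hU : ∃ σ, en vL U σ = 0) :
    ∃ X : Finset (Fin n), X.card ≤ U.length ∧
      EL M (fun G : List (Clause k n) => ind (Loss j U s G)) ≤
        ∑ d ∈ range (M + 1),
          (M.choose d : ℝ) * (5 * k * U.length / n) ^ d * Qd k j X s (M - d) d := by
  obtain ⟨σ₀, hU⟩ := hU
  set X := (U.map Prod.fst).toFinset with hXdef
  have hcard : X.card ≤ U.length := (List.toFinset_card_le _).trans (by simp)
  have hX : ∀ ℓ ∈ U, ℓ.1 ∈ X := fun ℓ hℓ => List.mem_toFinset.2 (List.mem_map_of_mem hℓ)
  refine ⟨X, hcard, ?_⟩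
  obtain ⟨p, q, hpq⟩ := exists_pick hk hn X
  refine le_trans (EL_mono fun G _ => ?_) ((EL_split (fun c : Clause k n => ∃ i, c.1.1 i ∈ X) M
    (fun G W => ind (Ev j X s W.length (W.map fun c => lit c (p c)) G) *
      ind (Ev j X s W.length (W.map fun c => lit c (q c)) G))
    fun _ _ => mul_nonneg (ind_nonneg _) (ind_nonneg _)).trans (sum_le_sum fun d _ => ?_))
  · rw [← ind_and]
    exact ind_mono fun hL => ⟨removal hU X hX p hL, removal hU X hX q hL⟩
  · rw [mul_assoc]
    refine mul_le_mul_of_nonneg_left ?_ (Nat.cast_nonneg _)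
    refine le_trans (EL_congr fun W hW => by rw [hW]).le ((hpq d
      (fun U V => EL (M - d) fun G : List (Clause k n) =>
        ind (Ev j X s d U G) * ind (Ev j X s d V G))
      fun _ _ => EL_nonneg fun _ _ => mul_nonneg (ind_nonneg _) (ind_nonneg _)).trans ?_)
    refine mul_le_mul_of_nonneg_right ?_ (step_Qd_nonneg j X s (M - d) d)
    have : (X.card : ℝ) ≤ U.length := by exact_mod_cast hcard
    gcongr

/-- With `a U = ind (¬ Good X U)`, `b U G = ind (Good X U ∧ Loss j U (s - d) G)` one has
`ind (Ev ..) ≤ a + b`. The terms `a a`, `a b`, `b a` are bounded by `not_good_le`, `hu` and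
`Good.consistent`; for `b b` use `units_le` (base `E = 0`, `ψ G = EL d (b · G)`,
`d * ((s - d) / d) ≤ s - d`, `EL_comm`). -/
theorem Qd_le (hk : 0 < k) (hn : k ≤ n) {θ : ℝ} (hθ : 0 ≤ θ) (hθ' : θ ≤ 2 * n) (j : ℕ)
    (X : Finset (Fin n)) {s d : ℕ} (hd : d ≤ s) (M : ℕ) {u : ℝ} (hu0 : 0 ≤ u)
    (hu : ∀ V : List (Lit n), V.length = d → (∃ σ, en vL V σ = 0) →
      EL M (fun G : List (Clause k n) => ind (Loss j V (s - d) G)) ≤ u) :
    Qd k j X s M d ≤ (d * (X.card + d) / n) ^ 2 + 2 * (d * (X.card + d) / n) * u +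
      d * ((θ + k) / (2 * n) * u + (1 - (θ / (2 * n)) ^ k) ^ ((s - d) / d)) := by
  have := clause_nonempty hn
  have : Nonempty (Lit n) := ⟨(⟨0, by omega⟩, true)⟩
  set a : List (Lit n) → ℝ := fun U => ind (¬ Good X U) with ha
  set b : List (Lit n) → List (Clause k n) → ℝ :=
    fun U G => ind (Good X U ∧ Loss j U (s - d) G) with hb
  have hab : ∀ U G, ind (Ev j X s d U G) ≤ a U + b U G := by
    intro U G
    refine le_trans (ind_mono fun h => ?_) (ind_or_le _ _)
    by_cases hG : Good X U
    · refine Or.inr ⟨hG, ?_⟩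
      have := h.resolve_left (not_not.2 hG)
      unfold Loss
      omega
    · exact Or.inl hG
  have ha0 : ∀ U, 0 ≤ a U := fun U => ind_nonneg _
  have hb0 : ∀ U G, 0 ≤ b U G := fun U G => ind_nonneg _
  have hα : EL d a ≤ d * (X.card + d) / n := not_good_le (by omega) d X
  have hα0 : 0 ≤ EL d a := EL_nonneg fun U _ => ha0 U
  have hβ : EL d (fun U => EL M (b U)) ≤ u := by
    refine EL_le_const fun U hU => ?_
    by_cases hG : Good X U
    · exact (EL_mono fun G _ => ind_mono fun h => h.2).trans (hu U hU hG.consistent)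
    · exact (EL_le_const fun G _ => (ind_neg fun h => hG h.1).le).trans hu0
  have hβ0 : 0 ≤ EL d (fun U => EL M (b U)) := EL_nonneg fun U _ => EL_nonneg fun G _ => hb0 U G
  have h4 : EL d (fun U => EL d fun V => EL M fun G => b U G * b V G) ≤
      d * ((θ + k) / (2 * n) * u + (1 - (θ / (2 * n)) ^ k) ^ ((s - d) / d)) := by
    have e : EL d (fun U => EL d fun V => EL M fun G => b U G * b V G) =
        EL M (fun G => EL d (fun U => b U G) * EL d (fun V => b V G)) := by
      simp only [EL_comm d M, EL_const_mul, EL_mul_const]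
    have h5 := units_le hk hn hθ hθ' j ((s - d) / d) M d 0 (fun G => EL d fun U => b U G)
      (fun G => EL_nonneg fun U _ => hb0 U G) (fun G => EL_le_const fun U _ => ind_le_one _)
    rw [← EL_comm d M] at h5
    rw [e]
    refine (EL_mono fun G _ => mul_le_mul_of_nonneg_left (EL_mono fun V _ => ind_mono fun h => ?_)
      (EL_nonneg fun U _ => hb0 U G)).trans (h5.trans ?_)
    · have h6 := h.2
      have h7 := Nat.mul_div_le (s - d) d
      unfold Loss at h6
      rw [zero_add]
      omega
    · gcongr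
  have h5 : Qd k j X s M d ≤ EL d (fun U => EL d fun V => EL M fun G =>
      a U * a V + a U * b V G + b U G * a V + b U G * b V G) := by
    refine EL_mono fun U _ => EL_mono fun V _ => EL_mono fun G _ => ?_
    refine (mul_le_mul (hab U G) (hab V G) (ind_nonneg _)
      (add_nonneg (ha0 U) (hb0 U G))).trans (le_of_eq ?_)
    ring
  simp only [EL_add, EL_const] at h5
  have e2 : EL d (fun U => EL d fun V => EL M fun G => a U * b V G) =
      EL d a * EL d (fun U => EL M (b U)) := by
    simp only [EL_const_mul, EL_mul_const]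
  have e3 : EL d (fun U => EL d fun V => EL M fun G => b U G * a V) =
      EL d (fun U => EL M (b U)) * EL d a := by
    simp only [EL_const_mul, EL_mul_const]
  have e1 : EL d (fun U => EL d fun V => a U * a V) = EL d a * EL d a := by
    simp only [EL_const_mul, EL_mul_const]
  rw [e1, e2, e3] at h5
  have h6 := mul_le_mul hα hα hα0 (hα0.trans hα)
  have h7 := mul_le_mul hα hβ hβ0 (hα0.trans hα)
  nlinarith

end Crest.Agent.R153
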