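import Crest.Agent.R153.Step

/-! # Row 153: the tail bound for the loss caused by consistent unit clauses -/

set_option autoImplicit false
set_option linter.unusedVariables false
set_option linter.unusedSectionVars false

namespace Crest.Agent.R153

open Finset
open scoped BigOperators
open Crest.ProbabilityR.RandomSAT

theorem Tail_exp_term (k i s d : ℕ) (x : ℝ) (hk : 1 ≤ k) (hx : 2 ≤ x) (hs : x ^ (2 * k) ≤ s)
    (hd : 1 ≤ d) (h2 : 2 * d ≤ s) :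
    (1 - x⁻¹ ^ k) ^ ((s - d) / d) ≤ 3 * (i + 1).factorial * (2 * d : ℝ) ^ (i + 1) * x⁻¹ ^ (i + 1) := by
  have hx0 : 0 < x := by linarith
  have hx1 : 1 ≤ x := by linarith
  have hd0 : (0 : ℝ) < d := by exact_mod_cast hd
  have hy1 : x⁻¹ ^ k ≤ 1 := pow_le_one₀ (by positivity) (inv_le_one_of_one_le₀ hx1)
  have hy0 : 0 < x⁻¹ ^ k := by positivity
  set r := (s - d) / d with hr
  have hr1 : s ≤ 2 * d * (r + 1) := by
    have h1 : s - d < d * (r + 1) := Nat.lt_mul_div_succ _ hd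
    have h3 : 2 * d * (r + 1) = 2 * (d * (r + 1)) := by ring
    omega
  have hr2 : (s : ℝ) ≤ 2 * d * (r + 1) := by exact_mod_cast hr1
  have hxk : x ≤ x ^ k := le_self_pow₀ hx1 (by omega)
  have hyx : x⁻¹ ^ k * x ^ (2 * k) = x ^ k := by
    rw [two_mul, pow_add, ← mul_assoc, ← mul_pow, inv_mul_cancel₀ hx0.ne', one_pow, one_mul]
  have h4 : x / (2 * d) ≤ x⁻¹ ^ k * r + 1 := by
    rw [div_le_iff₀ (by positivity)]
    calc x ≤ x⁻¹ ^ k * x ^ (2 * k) := hxk.trans hyx.ge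
      _ ≤ x⁻¹ ^ k * (2 * d * (r + 1)) := mul_le_mul_of_nonneg_left (hs.trans hr2) hy0.le
      _ = x⁻¹ ^ k * r * (2 * d) + x⁻¹ ^ k * (2 * d) := by ring
      _ ≤ x⁻¹ ^ k * r * (2 * d) + 1 * (2 * d) := by gcongr
      _ = _ := by ring
  have h5 : (1 - x⁻¹ ^ k) ^ r ≤ Real.exp (-(x⁻¹ ^ k * r)) := by
    rw [← neg_mul, mul_comm, Real.exp_nat_mul]
    exact pow_le_pow_left₀ (by linarith) (by linarith [Real.add_one_le_exp (-x⁻¹ ^ k)]) _
  have h6 : Real.exp (-(x⁻¹ ^ k * r)) ≤ Real.exp 1 * (Real.exp (x / (2 * d)))⁻¹ := by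
    rw [← Real.exp_neg, ← Real.exp_add]
    exact Real.exp_le_exp.2 (by linarith)
  have h7 : (Real.exp (x / (2 * d)))⁻¹ ≤ ((x / (2 * d)) ^ (i + 1) / (i + 1).factorial)⁻¹ :=
    inv_anti₀ (by positivity) (Real.pow_div_factorial_le_exp _ (by positivity) _)
  have h8 : Real.exp 1 ≤ 3 := Real.exp_one_lt_three.le
  refine h5.trans (h6.trans ((mul_le_mul h8 h7 (by positivity) (by norm_num)).trans (le_of_eq ?_)))
  rw [inv_div, div_pow, inv_pow]
  field_simp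

/-- Arithmetic of one step (no probability). Here `e = U.length`, `y = x⁻¹`. Facts:
`1 / n ≤ Λ / s ≤ Λ * y`; `u = A^(d+1) * ((2y)^i + n⁻¹^2)`; `θ = 2 n y` so `θ / (2n) = y`;
`(1 - y^k)^r ≤ exp (-(y^k r))` and `r = (s-d)/d ≥ s/(2d) - 1 ≥ x^(2k)/(2d) - 1`, hence
`≤ e * exp (-x^k/(2d)) ≤ e * (i+1)! * (2d)^(i+1) * y^(i+1)` (`Real.pow_div_factorial_le_exp`);
polynomials in `d, e` are at most `B^(d+e+1)` (e.g. `t^q ≤ q! * exp t`, `t ≤ 2^t`). -/
theorem step_arith (k Λ i : ℕ) (hk : 1 ≤ k) (A : ℝ) (hA : 1 ≤ A) :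
    ∃ B : ℝ, 1 ≤ B ∧ ∀ (n s d e : ℕ) (x : ℝ), 0 < n → 2 ≤ x → x ^ (2 * k) ≤ s → s ≤ Λ * n →
      1 ≤ d → 2 * d ≤ s →
      ((d : ℝ) * (e + d) / n) ^ 2 +
        2 * ((d : ℝ) * (e + d) / n) * (A ^ (d + 1) * ((x / 2)⁻¹ ^ i + (n : ℝ)⁻¹ ^ 2)) +
        d * ((2 * n * x⁻¹ + k) / (2 * n) * (A ^ (d + 1) * ((x / 2)⁻¹ ^ i + (n : ℝ)⁻¹ ^ 2)) +
          (1 - (2 * n * x⁻¹ / (2 * n)) ^ k) ^ ((s - d) / d)) ≤
      B ^ (d + e + 1) * (x⁻¹ ^ (i + 1) + (n : ℝ)⁻¹ ^ 2) := by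
  set c₁ : ℝ := Λ * 2 ^ i + 1 with hc₁
  set c₂ : ℝ := (1 + k * Λ) * 2 ^ i + 1 + k with hc₂
  set c₃ : ℝ := 3 * (i + 1).factorial with hc₃
  have p₁ : 0 ≤ c₁ := by positivity
  have p₂ : 0 ≤ c₂ := by positivity
  have p₃ : 0 ≤ c₃ := by positivity
  have hC : 1 ≤ 1 + 2 * c₁ + c₂ + c₃ := by linarith
  have h2i : (1 : ℝ) ≤ 2 ^ (i + 4) := one_le_pow₀ (by norm_num)
  refine ⟨(1 + 2 * c₁ + c₂ + c₃) * 2 ^ (i + 4) * A,
    one_le_mul_of_one_le_of_one_le (one_le_mul_of_one_le_of_one_le hC h2i) hA, ?_⟩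
  intro n s d e x hn hx hs hsn hd h2
  have hE := Tail_exp_term k i s d x hk hx hs hd h2
  have hn0 : (0 : ℝ) < n := by exact_mod_cast hn
  have hx0 : 0 < x := by linarith
  have e1 : 2 * n * x⁻¹ / (2 * n) = x⁻¹ := by field_simp
  have e2 : (2 * n * x⁻¹ + k) / (2 * n) = x⁻¹ + k / 2 * (n : ℝ)⁻¹ := by field_simp
  have e3 : (x / 2)⁻¹ ^ i = 2 ^ i * x⁻¹ ^ i := by rw [inv_div, div_eq_mul_inv, mul_pow]
  have hνy : (n : ℝ)⁻¹ ≤ Λ * x⁻¹ := by
    have h1 : x ≤ x ^ (2 * k) := le_self_pow₀ (by linarith) (by omega)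
    have h3 : (s : ℝ) ≤ Λ * n := by exact_mod_cast hsn
    rw [← div_eq_mul_inv, le_div_iff₀ hx0, inv_mul_le_iff₀ hn0]
    linarith
  have hν1 : (n : ℝ)⁻¹ ≤ 1 := inv_le_one_of_one_le₀ (by exact_mod_cast hn)
  have hy1 : x⁻¹ ≤ 1 := inv_le_one_of_one_le₀ (by linarith)
  have hν0 : 0 < (n : ℝ)⁻¹ := by positivity
  have hy0 : 0 < x⁻¹ := by positivity
  rw [e1, e2, e3, div_eq_mul_inv, mul_pow _ A, mul_pow _ (2 ^ (i + 4) : ℝ), ← pow_mul,
    mul_comm (i + 4), pow_mul]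
  have hw1 : (1 : ℝ) ≤ 2 ^ (d + e + 1) := one_le_pow₀ (by norm_num)
  have hw2 : (2 * d : ℝ) ≤ 2 ^ (d + e + 1) := by
    have h1 : d ≤ 2 ^ (d + e) :=
      Nat.lt_two_pow_self.le.trans (Nat.pow_le_pow_right (by norm_num) (by omega))
    have h3 : 2 * d ≤ 2 ^ (d + e + 1) := by rw [pow_succ]; omega
    exact_mod_cast h3
  have hw3 : (e + d : ℝ) ≤ 2 ^ (d + e + 1) := by
    have h1 : e + d ≤ 2 ^ (d + e + 1) :=
      Nat.lt_two_pow_self.le.trans (Nat.pow_le_pow_right (by norm_num) (by omega))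
    exact_mod_cast h1
  have hd0 : (0 : ℝ) ≤ d := Nat.cast_nonneg d
  have hw4 : (d : ℝ) ≤ 2 ^ (d + e + 1) := by linarith
  have ha1 : A ^ (d + 1) ≤ A ^ (d + e + 1) := pow_le_pow_right₀ hA (by omega)
  have ha2 : 1 ≤ A ^ (d + e + 1) := one_le_pow₀ hA
  have ha0 : 0 ≤ A ^ (d + 1) := by positivity
  have hC2 : 1 + 2 * c₁ + c₂ + c₃ ≤ (1 + 2 * c₁ + c₂ + c₃) ^ (d + e + 1) :=
    le_self_pow₀ hC (by omega)
  have hed : (0 : ℝ) ≤ e + d := by positivity
  generalize (1 - x⁻¹ ^ k) ^ ((s - d) / d) = E at *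
  generalize (2 : ℝ) ^ (d + e + 1) = w at *
  generalize A ^ (d + e + 1) = a at *
  generalize A ^ (d + 1) = a' at *
  generalize (1 + 2 * c₁ + c₂ + c₃) ^ (d + e + 1) = C at *
  generalize (n : ℝ)⁻¹ = ν at *
  generalize x⁻¹ = y at *
  generalize (e + d : ℝ) = f at *
  set T := y ^ (i + 1) + ν ^ 2 with hT
  have hT1 : y ^ (i + 1) ≤ T := le_add_of_nonneg_right (by positivity)
  have hT2 : ν ^ 2 ≤ T := le_add_of_nonneg_left (by positivity)
  have hT0 : 0 ≤ T := by positivity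
  have hw0 : 0 ≤ w := by linarith
  have hW (q : ℕ) (hq : q ≤ i + 4) : w ^ q ≤ w ^ (i + 4) := pow_le_pow_right₀ hw1 hq
  have hp : d * f ≤ w ^ 2 := by rw [sq]; gcongr
  have q₁ : ν * (2 ^ i * y ^ i + ν ^ 2) ≤ c₁ * T := by
    calc ν * (2 ^ i * y ^ i + ν ^ 2) = ν * (2 ^ i * y ^ i) + ν * ν ^ 2 := by ring
      _ ≤ Λ * y * (2 ^ i * y ^ i) + 1 * T := by gcongr
      _ = Λ * 2 ^ i * y ^ (i + 1) + T := by ring
      _ ≤ Λ * 2 ^ i * T + T := by gcongr
      _ = c₁ * T := by rw [hc₁]; ring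
  have q₂ : (y + k / 2 * ν) * (2 ^ i * y ^ i + ν ^ 2) ≤ c₂ * T := by
    have hk2 : (k : ℝ) / 2 ≤ k := by linarith [Nat.cast_nonneg (α := ℝ) k]
    calc (y + k / 2 * ν) * (2 ^ i * y ^ i + ν ^ 2)
        = (y + k / 2 * ν) * (2 ^ i * y ^ i) + (y + k / 2 * ν) * ν ^ 2 := by ring
      _ ≤ (y + k * (Λ * y)) * (2 ^ i * y ^ i) + (1 + k * 1) * T := by gcongr
      _ = (1 + k * Λ) * 2 ^ i * y ^ (i + 1) + (1 + k) * T := by ring
      _ ≤ (1 + k * Λ) * 2 ^ i * T + (1 + k) * T := by gcongr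
      _ = c₂ * T := by rw [hc₂]; ring
  have t₁ : (d * f * ν) ^ 2 ≤ 1 * (w ^ (i + 4) * a * T) := by
    calc (d * f * ν) ^ 2 = (d * f) ^ 2 * 1 * ν ^ 2 := by ring
      _ ≤ (w ^ 2) ^ 2 * a * T := by gcongr
      _ = w ^ 4 * a * T := by ring
      _ ≤ w ^ (i + 4) * a * T := by gcongr; omega
      _ = _ := by ring
  have t₂ : 2 * (d * f * ν) * (a' * (2 ^ i * y ^ i + ν ^ 2)) ≤ 2 * c₁ * (w ^ (i + 4) * a * T) := by
    calc 2 * (d * f * ν) * (a' * (2 ^ i * y ^ i + ν ^ 2))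
        = 2 * (d * f) * a' * (ν * (2 ^ i * y ^ i + ν ^ 2)) := by ring
      _ ≤ 2 * w ^ (i + 4) * a * (c₁ * T) := by
        have := hp.trans (hW 2 (by omega))
        gcongr
      _ = _ := by ring
  have t₃ : d * ((y + k / 2 * ν) * (a' * (2 ^ i * y ^ i + ν ^ 2))) ≤ c₂ * (w ^ (i + 4) * a * T) := by
    calc d * ((y + k / 2 * ν) * (a' * (2 ^ i * y ^ i + ν ^ 2)))
        = d * a' * ((y + k / 2 * ν) * (2 ^ i * y ^ i + ν ^ 2)) := by ring
      _ ≤ w ^ (i + 4) * a * (c₂ * T) := by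
        have := hw4.trans ((pow_one w).ge.trans (hW 1 (by omega)))
        gcongr
      _ = _ := by ring
  have t₄ : d * E ≤ c₃ * (w ^ (i + 4) * a * T) := by
    calc d * E ≤ w * (c₃ * w ^ (i + 1) * T) := by
          refine (mul_le_mul_of_nonneg_left hE hd0).trans ?_
          gcongr
      _ = c₃ * (w ^ (i + 2) * 1 * T) := by ring
      _ ≤ _ := by
        have := hW (i + 2) (by omega)
        gcongr
  have hZ : 0 ≤ w ^ (i + 4) * a * T := by positivity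
  calc _ ≤ (1 + 2 * c₁ + c₂ + c₃) * (w ^ (i + 4) * a * T) := by
        rw [mul_add (d : ℝ)]; linarith
    _ ≤ C * (w ^ (i + 4) * a * T) := mul_le_mul_of_nonneg_right hC2 hZ
    _ = _ := by ring

/-- The case of many touching clauses: `1 ≤ (2d / x)^(i+1)`. -/
theorem big_arith (k i : ℕ) (hk : 1 ≤ k) :
    ∃ B : ℝ, 1 ≤ B ∧ ∀ (s d : ℕ) (x : ℝ), 1 ≤ x → x ^ (2 * k) ≤ s → s < 2 * d →
      1 ≤ B ^ (d + 1) * x⁻¹ ^ (i + 1) := by
  refine ⟨2 ^ (i + 1), one_le_pow₀ (by norm_num), fun s d x hx hs hd => ?_⟩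
  rw [← pow_mul, mul_comm (i + 1), pow_mul, ← mul_pow]
  refine one_le_pow₀ ?_
  have h1 : x ≤ x ^ (2 * k) := le_self_pow₀ hx (by omega)
  have h2 : s ≤ 2 ^ (d + 1) := by
    have := Nat.lt_two_pow_self (n := d)
    rw [pow_succ]; omega
  have h3 : (s : ℝ) ≤ 2 ^ (d + 1) := by exact_mod_cast h2
  rw [← div_eq_mul_inv, le_div_iff₀ (by linarith)]
  linarith

/-- `Nat.choose_le_pow_div`, `Real.sum_le_exp_of_nonneg`. -/
theorem sum_choose_le_exp (M : ℕ) {z : ℝ} (hz : 0 ≤ z) :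
    ∑ d ∈ range (M + 1), (M.choose d : ℝ) * z ^ d ≤ Real.exp (M * z) := by
  rw [Real.exp_nat_mul]
  refine le_trans (le_of_eq ?_) (pow_le_pow_left₀ (by linarith) (Real.add_one_le_exp z) M)
  rw [add_pow]
  exact sum_congr rfl fun d _ => by rw [one_pow, mul_one, mul_comm]

/-- Induction on `i`. For `i = 0` take `A = 1`. Step: if `x < 2` the bound is trivial once
`A ≥ 2^(i+1)`; if `s > M` the event is impossible (`tau_le`); otherwise `s ≤ M ≤ Λ n`, use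
`loss_rec` and bound `Qd .. (M - d) d ≤ B^(d + e + 1) * (x⁻¹^(i+1) + n⁻¹^2)` by `Qd_zero`,
`Qd_le_one` with `big_arith`, or `Qd_le` (with `θ = 2 n / x` and the induction hypothesis at
`x / 2`, `(x/2)^(2k) ≤ s / 2 ≤ s - d`) with `step_arith`; sum with `sum_choose_le_exp`:
the new constant is `max (2^(i+1)) (B * exp (5 k Λ B))`. -/
theorem loss_tail {k : ℕ} (hk : 3 ≤ k) (Λ i : ℕ) :
    ∃ A : ℝ, 1 ≤ A ∧ ∀ n : ℕ, k ≤ n → ∀ M : ℕ, M ≤ Λ * n → ∀ (j : ℕ) (U : List (Lit n)),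
      (∃ σ, en vL U σ = 0) → ∀ (s : ℕ) (x : ℝ), 0 < x → x ^ (2 * k) ≤ s →
      EL M (fun G : List (Clause k n) => ind (Loss j U s G)) ≤
        A ^ (U.length + 1) * (x⁻¹ ^ i + (n : ℝ)⁻¹ ^ 2) := by
  induction i with
  | zero =>
    refine ⟨1, le_rfl, fun n hn M _ j U _ s x _ _ => ?_⟩
    have := clause_nonempty hn
    refine (EL_le_const fun _ _ => ind_le_one _).trans ?_
    rw [one_pow, one_mul, pow_zero]
    exact le_add_of_nonneg_right (by positivity)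
  | succ i ih =>
    obtain ⟨A, hA, ih⟩ := ih
    obtain ⟨B₁, hB₁, h₁⟩ := step_arith k Λ i (by omega) A hA
    obtain ⟨B₂, hB₂, h₂⟩ := big_arith k i (by omega)
    set B := max B₁ B₂ with hB
    have hB1 : 1 ≤ B := hB₁.trans (le_max_left _ _)
    have hB0 : 0 ≤ B := by linarith
    have h2i : (1 : ℝ) ≤ 2 ^ (i + 1) := one_le_pow₀ (by norm_num)
    have hA' : (1 : ℝ) ≤ max (2 ^ (i + 1)) (B * Real.exp (5 * k * Λ * B)) := h2i.trans (le_max_left _ _)
    refine ⟨_, hA', fun n hn M hM j U hU s x hx hs => ?_⟩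
    have := clause_nonempty hn
    have hn0 : 0 < n := by omega
    have hn0' : (0 : ℝ) < n := by exact_mod_cast hn0
    have hT1 : x⁻¹ ^ (i + 1) ≤ x⁻¹ ^ (i + 1) + (n : ℝ)⁻¹ ^ 2 := le_add_of_nonneg_right (by positivity)
    have hT0 : 0 ≤ x⁻¹ ^ (i + 1) + (n : ℝ)⁻¹ ^ 2 := by positivity
    rcases lt_or_ge x 2 with hx2 | hx2
    · refine (EL_le_const fun _ _ => ind_le_one _).trans ?_
      have h3 : (1 : ℝ) ≤ 2 ^ (i + 1) * x⁻¹ ^ (i + 1) := by
        rw [← mul_pow]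
        refine one_le_pow₀ ?_
        rw [← div_eq_mul_inv, le_div_iff₀ hx]
        linarith
      exact h3.trans (mul_le_mul ((le_max_left _ _).trans (le_self_pow₀ hA' (by omega))) hT1
        (by positivity) (by positivity))
    rcases lt_or_ge M s with hMs | hMs
    · refine (EL_le_const (a := 0) fun G hG => (ind_neg fun h => ?_).le).trans (by positivity)
      have h1 := tau_le (vC (k := k) (n := n)) j 0 G
      unfold Loss at h
      omega
    obtain ⟨X, hX, hrec⟩ := loss_rec hk hn j s M hU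
    have hQ (d : ℕ) : Qd k j X s (M - d) d ≤
        B ^ (d + U.length + 1) * (x⁻¹ ^ (i + 1) + (n : ℝ)⁻¹ ^ 2) := by
      rcases Nat.eq_zero_or_pos d with rfl | hd
      · rw [Qd_zero]; positivity
      rcases lt_or_ge s (2 * d) with hsd | hsd
      · refine (Qd_le_one (by omega) hn j X s _ d).trans ((h₂ s d x (by linarith) hs hsd).trans ?_)
        refine mul_le_mul ?_ hT1 (by positivity) (by positivity)
        exact (pow_le_pow_left₀ (by linarith) (le_max_right _ _) _).trans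
          (pow_le_pow_right₀ hB1 (by omega))
      have hθ : 2 * n * x⁻¹ ≤ 2 * (n : ℝ) :=
        mul_le_of_le_one_right (by positivity) (inv_le_one_of_one_le₀ (by linarith))
      have hx' : (x / 2) ^ (2 * k) ≤ ((s - d : ℕ) : ℝ) := by
        have h3 : (2 : ℝ) ≤ 2 ^ (2 * k) := le_self_pow₀ (by norm_num) (by omega)
        have h4 : s ≤ (s - d) * 2 := by omega
        have h5 : (s : ℝ) ≤ ((s - d : ℕ) : ℝ) * 2 := by exact_mod_cast h4
        rw [div_pow, div_le_iff₀ (by positivity)]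
        exact hs.trans (h5.trans (mul_le_mul_of_nonneg_left h3 (Nat.cast_nonneg _)))
      refine (Qd_le (by omega) hn (θ := 2 * n * x⁻¹) (by positivity) hθ j X (by omega) (M - d)
        (u := A ^ (d + 1) * ((x / 2)⁻¹ ^ i + (n : ℝ)⁻¹ ^ 2)) (by positivity) fun V hV hV' => ?_).trans ?_
      · have := ih n hn (M - d) (by omega) j V hV' (s - d) (x / 2) (by positivity) hx'
        rwa [hV] at this
      refine (h₁ n s d X.card x hn0 hx2 hs (by omega) hd hsd).trans ?_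
      refine mul_le_mul_of_nonneg_right ?_ hT0
      exact (pow_le_pow_left₀ (by linarith) (le_max_left _ _) _).trans
        (pow_le_pow_right₀ hB1 (by omega))
    refine hrec.trans ?_
    have hz : (0 : ℝ) ≤ 5 * k * U.length / n * B := by positivity
    calc ∑ d ∈ range (M + 1), (M.choose d : ℝ) * (5 * k * U.length / n) ^ d * Qd k j X s (M - d) d
        ≤ ∑ d ∈ range (M + 1), (M.choose d : ℝ) * (5 * k * U.length / n * B) ^ d *
            (B ^ (U.length + 1) * (x⁻¹ ^ (i + 1) + (n : ℝ)⁻¹ ^ 2)) := by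
          refine sum_le_sum fun d _ => ?_
          refine (mul_le_mul_of_nonneg_left (hQ d) (by positivity)).trans (le_of_eq ?_)
          rw [mul_pow]; ring
      _ ≤ Real.exp (M * (5 * k * U.length / n * B)) *
            (B ^ (U.length + 1) * (x⁻¹ ^ (i + 1) + (n : ℝ)⁻¹ ^ 2)) := by
          rw [← sum_mul]
          exact mul_le_mul_of_nonneg_right (sum_choose_le_exp M hz) (by positivity)
      _ ≤ Real.exp (5 * k * Λ * B) ^ (U.length + 1) *
            (B ^ (U.length + 1) * (x⁻¹ ^ (i + 1) + (n : ℝ)⁻¹ ^ 2)) := by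
          refine mul_le_mul_of_nonneg_right ?_ (by positivity)
          rw [← Real.exp_nat_mul]
          refine Real.exp_le_exp.2 ?_
          have h3 : (M : ℝ) ≤ Λ * n := by exact_mod_cast hM
          refine (mul_le_mul_of_nonneg_right h3 hz).trans ?_
          have h4 : (Λ : ℝ) * n * (5 * k * U.length / n * B) = U.length * (5 * k * Λ * B) := by
            field_simp
          rw [h4]
          push_cast
          exact mul_le_mul_of_nonneg_right (by linarith) (by positivity)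
      _ = (B * Real.exp (5 * k * Λ * B)) ^ (U.length + 1) * (x⁻¹ ^ (i + 1) + (n : ℝ)⁻¹ ^ 2) := by
          rw [mul_pow]; ring
      _ ≤ _ := mul_le_mul_of_nonneg_right
          (pow_le_pow_left₀ (by positivity) (le_max_right _ _) _) hT0

end Crest.Agent.R153
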