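import Crest.Agent.R153.Basic

/-! # Row 153: deterministic properties of the death time `tau` -/

set_option autoImplicit false
set_option linter.unusedVariables false
set_option linter.unusedSectionVars false

namespace Crest.Agent.R153

open Finset
open scoped BigOperators
open Crest.ProbabilityR.RandomSAT

variable {Ω C : Type*} (v : C → Ω → ℕ)

open Classical in
theorem Tau_nil (j : ℕ) (E : Ω → ℕ) : tau v j E [] = if Alive j E then 1 else 0 := by
  rw [tau]

open Classical in
theorem Tau_cons (j : ℕ) (E : Ω → ℕ) (c : C) (G : List C) :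
    tau v j E (c :: G) = (if Alive j E then 1 else 0) + tau v j (E + v c) G := by
  rw [tau]

theorem Tau_dead {j : ℕ} {E : Ω → ℕ} (h : ¬ Alive j E) (G : List C) : tau v j E G = 0 := by
  induction G generalizing E with
  | nil => rw [Tau_nil, if_neg h]
  | cons c G ih =>
    rw [Tau_cons, if_neg h, ih fun h' => h (h'.mono le_self_add le_rfl)]

open Classical in
theorem Tau_ite_mono {j j' : ℕ} {E E' : Ω → ℕ} (h : Alive j E → Alive j' E') :
    (if Alive j E then 1 else 0) ≤ (if Alive j' E' then 1 else 0) := by
  by_cases h1 : Alive j E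
  · rw [if_pos h1, if_pos (h h1)]
  · rw [if_neg h1]
    exact Nat.zero_le _

open Classical in
theorem Tau_ite_le (j : ℕ) (E : Ω → ℕ) : (if Alive j E then 1 else 0) ≤ 1 := by
  split_ifs <;> omega

/-- Induction on `G` generalizing `E t`; a dead energy stays dead (`Alive.mono`). -/
theorem lt_tau_iff (j : ℕ) (E : Ω → ℕ) (G : List C) (t : ℕ) :
    t < tau v j E G ↔ t ≤ G.length ∧ Alive j (E + en v (G.take t)) := by
  by_cases h : Alive j E
  · induction G generalizing E t with
    | nil => simp [Tau_nil, h]
    | cons c G ih =>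
      rw [Tau_cons, if_pos h]
      cases t with
      | zero => simp [h]
      | succ t =>
        rw [List.take_succ_cons, en_cons, ← add_assoc, List.length_cons, Nat.succ_le_succ_iff]
        by_cases h' : Alive j (E + v c)
        · rw [← ih _ t h']
          omega
        · rw [Tau_dead v h']
          exact ⟨fun h1 => by omega, fun h1 => absurd (h1.2.mono le_self_add le_rfl) h'⟩
  · rw [Tau_dead v h]
    exact ⟨fun h1 => by omega, fun h1 => absurd (h1.2.mono le_self_add le_rfl) h⟩

theorem tau_le (j : ℕ) (E : Ω → ℕ) (G : List C) : tau v j E G ≤ G.length + 1 := by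
  by_contra h
  have := ((lt_tau_iff v j E G (G.length + 1)).1 (not_le.1 h)).1
  omega

theorem tau_mono {j j' : ℕ} {E E' : Ω → ℕ} (hE : E' ≤ E) (hj : j ≤ j') (G : List C) :
    tau v j E G ≤ tau v j' E' G := by
  induction G generalizing E E' with
  | nil =>
    rw [Tau_nil, Tau_nil]
    exact Tau_ite_mono fun h => h.mono hE hj
  | cons c G ih =>
    rw [Tau_cons, Tau_cons]
    exact add_le_add (Tau_ite_mono fun h => h.mono hE hj) (ih (add_le_add_left hE _))

/-- Deleting constraints: induction on `G` generalizing `E`. -/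
theorem tau_le_filter (p : C → Prop) [DecidablePred p] (j : ℕ) (E : Ω → ℕ) (G : List C) :
    tau v j E G ≤
      tau v j E (G.filter fun c => ¬ p c) + (G.filter fun c => p c).length := by
  induction G generalizing E with
  | nil => simp
  | cons c G ih =>
    have h1 := ih (E + v c)
    by_cases hc : p c
    · rw [List.filter_cons_of_neg (by simpa using hc), List.filter_cons_of_pos (by simpa using hc),
        Tau_cons, List.length_cons]
      have h2 := tau_mono v (E := E + v c) (E' := E) le_self_add (le_refl j)
        (G.filter fun c => ¬ p c)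
      have h3 := Tau_ite_le j E
      omega
    · rw [List.filter_cons_of_pos (by simpa using hc), List.filter_cons_of_neg (by simpa using hc),
        Tau_cons, Tau_cons]
      omega

/-- Moving the constraints satisfying `p` to time `0` and repairing configurations by `φ`:
induction on `G` generalizing `E E'`. -/
theorem tau_filter_le (p : C → Prop) [DecidablePred p] (φ : Ω → Ω)
    (hφ : ∀ c, ¬ p c → ∀ σ, v c (φ σ) ≤ v c σ) (j : ℕ) (E E' : Ω → ℕ) (G : List C)
    (h : ∀ σ, E (φ σ) + en v (G.filter fun c => p c) (φ σ) ≤ E' σ) :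
    tau v j E' (G.filter fun c => ¬ p c) ≤ tau v j E G := by
  induction G generalizing E E' with
  | nil =>
    rw [List.filter_nil, Tau_nil, Tau_nil]
    exact Tau_ite_mono fun ⟨σ, hσ⟩ => ⟨φ σ, (le_self_add.trans (h σ)).trans hσ⟩
  | cons c G ih =>
    by_cases hc : p c
    · rw [List.filter_cons_of_pos (by simpa using hc)] at h
      rw [List.filter_cons_of_neg (by simpa using hc), Tau_cons]
      refine (ih (E + v c) E' fun σ => ?_).trans le_add_self
      have := h σ
      simp only [en_cons, Pi.add_apply] at this ⊢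
      omega
    · rw [List.filter_cons_of_neg (by simpa using hc)] at h
      rw [List.filter_cons_of_pos (by simpa using hc), Tau_cons, Tau_cons]
      refine add_le_add (Tau_ite_mono fun ⟨σ, hσ⟩ => ⟨φ σ, (le_self_add.trans (h σ)).trans hσ⟩)
        (ih (E + v c) (E' + v c) fun σ => ?_)
      have h1 := h σ
      have h2 := hφ c hc σ
      simp only [Pi.add_apply]
      omega

theorem tau_insertIdx_le (j : ℕ) (E : Ω → ℕ) (G : List C) {i : ℕ} (hi : i ≤ G.length) (c : C) :
    tau v j E (G.insertIdx i c) ≤ tau v j E G + 1 := by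
  induction G generalizing E i with
  | nil =>
    obtain rfl : i = 0 := by simpa using hi
    rw [List.insertIdx_zero, Tau_cons, Tau_nil, Tau_nil]
    exact add_le_add le_rfl (Tau_ite_le j _)
  | cons a G ih =>
    cases i with
    | zero =>
      rw [List.insertIdx_zero, Tau_cons, add_comm]
      exact add_le_add (tau_mono v le_self_add le_rfl _) (Tau_ite_le j _)
    | succ i =>
      rw [List.insertIdx_succ_cons, Tau_cons, Tau_cons, add_assoc]
      exact add_le_add le_rfl (ih _ (by simpa using hi))

theorem le_tau_insertIdx (j : ℕ) (E : Ω → ℕ) (G : List C) {i : ℕ} (hi : i ≤ G.length) (c : C) :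
    tau v j (E + v c) G ≤ tau v j E (G.insertIdx i c) := by
  induction G generalizing E i with
  | nil =>
    obtain rfl : i = 0 := by simpa using hi
    rw [List.insertIdx_zero, Tau_cons]
    exact le_add_self
  | cons a G ih =>
    cases i with
    | zero =>
      rw [List.insertIdx_zero, Tau_cons v j E]
      exact le_add_self
    | succ i =>
      rw [List.insertIdx_succ_cons, Tau_cons, Tau_cons, add_right_comm]
      exact add_le_add (Tau_ite_mono fun h => h.mono le_self_add le_rfl)
        (ih _ (by simpa using hi))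

theorem Tau_sum (j : ℕ) (E : Ω → ℕ) (G : List C) (f : ℕ → ℝ) :
    ∑ t ∈ range (G.length + 1), f t * ind (Alive j (E + en v (G.take t))) =
      ∑ t ∈ range (tau v j E G), f t := by
  symm
  refine (sum_congr rfl fun t ht => ?_).trans (sum_subset (range_subset_range.2 (tau_le v j E G))
    fun t ht ht' => ?_)
  · rw [ind_pos ((lt_tau_iff v j E G t).1 (mem_range.1 ht)).2, mul_one]
  · rw [ind_neg, mul_zero]
    exact fun h => ht' (mem_range.2 ((lt_tau_iff v j E G t).2
      ⟨Nat.lt_succ_iff.1 (mem_range.1 ht), h⟩))

/-- From `lt_tau_iff` and `tau_le`: the indicator is `ind (t < tau)`. -/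
theorem tau_eq_sum (j : ℕ) (E : Ω → ℕ) (G : List C) :
    (tau v j E G : ℝ) = ∑ t ∈ range (G.length + 1), ind (Alive j (E + en v (G.take t))) := by
  have := Tau_sum v j E G fun _ => 1
  simp only [one_mul, sum_const, card_range, nsmul_eq_mul, mul_one] at this
  exact this.symm

theorem tau_sq_eq_sum (j : ℕ) (E : Ω → ℕ) (G : List C) :
    (tau v j E G : ℝ) ^ 2 =
      ∑ t ∈ range (G.length + 1), (2 * (t : ℝ) + 1) * ind (Alive j (E + en v (G.take t))) := by
  rw [Tau_sum]
  induction tau v j E G with
  | zero => simp
  | succ n ih =>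
    rw [sum_range_succ, ← ih]
    push_cast
    ring

theorem Tau_en_take (G : List C) (t : ℕ) (σ : Ω) :
    en v (G.take t) σ = ∑ i ∈ range t, en v (G[i]?).toList σ := by
  induction t with
  | zero => simp
  | succ t ih => rw [List.take_add_one, en_append, Pi.add_apply, ih, sum_range_succ]

theorem Tau_en_erase (G : List C) {i t : ℕ} (h : i ≤ t) :
    en v ((G.eraseIdx i).take t) + en v (G[i]?).toList = en v (G.take (t + 1)) := by
  induction G generalizing i t with
  | nil => simp
  | cons c G ih =>
    cases i with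
    | zero => simp [add_comm]
    | succ i =>
      obtain ⟨t, rfl⟩ : ∃ t', t = t' + 1 := ⟨t - 1, by omega⟩
      rw [List.eraseIdx_cons_succ, List.take_succ_cons, List.take_succ_cons, en_cons, en_cons,
        List.getElem?_cons_succ, add_assoc, ih (by omega)]

theorem Tau_erase_le (j : ℕ) (E : Ω → ℕ) (G : List C) (i : ℕ) :
    tau v j (E + en v (G[i]?).toList) (G.eraseIdx i) ≤ tau v j E G := by
  induction G generalizing E i with
  | nil => simp
  | cons c G ih =>
    cases i with
    | zero =>
      rw [Tau_cons]
      simp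
    | succ i =>
      rw [List.eraseIdx_cons_succ, List.getElem?_cons_succ, Tau_cons, Tau_cons, add_right_comm]
      exact add_le_add (Tau_ite_mono fun h => h.mono le_self_add le_rfl) (ih _ _)

/-- The gap between consecutive energy levels is controlled by the single deletions.
Let `g = tau (j+1) - tau j - 1 > 0` and `t = tau (j+1) - 1`. At time `t` level `j+1` is alive and
level `j` is dead, so some `σ` has energy exactly `j+1` on `G.take t`; as costs are `≤ 1` exactly
`j+1` indices `i < t` have `v G[i] σ = 1`. For each of them `σ` has energy `j` on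
`(G.eraseIdx i).take (t-1)`, so `t - 1 < tau j 0 (G.eraseIdx i)`, while
`tau j (v G[i]) (G.eraseIdx i) ≤ tau j 0 G` (`le_tau_insertIdx`, `List.insertIdx_eraseIdx` type
lemmas). So the `i`-th term is at least `g^2`. (Subtractions are in `ℕ`.) -/
theorem gap_sq_le (hv : ∀ c σ, v c σ ≤ 1) (j : ℕ) (G : List C) :
    (j + 1) * (tau v (j + 1) 0 G - tau v j 0 G - 1) ^ 2 ≤
      ∑ i ∈ range G.length,
        (tau v j 0 (G.eraseIdx i) - tau v j (en v (G[i]?).toList) (G.eraseIdx i)) ^ 2 := by
  set g := tau v (j + 1) 0 G - tau v j 0 G - 1 with hg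
  rcases Nat.eq_zero_or_pos g with h0 | h0
  · simp [h0]
  obtain ⟨t, ht⟩ : ∃ t, tau v (j + 1) 0 G = t + 2 := ⟨tau v (j + 1) 0 G - 2, by omega⟩
  obtain ⟨h1, σ, hσ⟩ := (lt_tau_iff v (j + 1) 0 G (t + 1)).1 (by omega)
  have h2 : ¬ Alive j (0 + en v (G.take (t + 1))) := fun h =>
    absurd ((lt_tau_iff v j 0 G (t + 1)).2 ⟨h1, h⟩) (by omega)
  rw [zero_add] at hσ h2
  have h3 : j + 1 ≤ en v (G.take (t + 1)) σ := not_le.1 fun h => h2 ⟨σ, h⟩
  have hw : ∀ i : ℕ, en v (G[i]?).toList σ ≤ 1 := fun i => by
    cases G[i]? with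
    | none => simp
    | some c => simpa using hv c σ
  set S := (range (t + 1)).filter fun i => en v (G[i]?).toList σ = 1 with hS
  have h4 : j + 1 ≤ S.card := by
    rw [Tau_en_take] at h3
    rw [hS, card_filter]
    refine h3.trans (sum_le_sum fun i _ => ?_)
    have := hw i
    split_ifs <;> omega
  have h5 : ∀ i ∈ S, g ^ 2 ≤
      (tau v j 0 (G.eraseIdx i) - tau v j (en v (G[i]?).toList) (G.eraseIdx i)) ^ 2 := by
    intro i hi
    obtain ⟨hi1, hi2⟩ := mem_filter.1 hi
    rw [mem_range] at hi1
    have a1 := Tau_erase_le v j 0 G i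
    rw [zero_add] at a1
    have a2 := congrFun (Tau_en_erase v G (i := i) (t := t) (by omega)) σ
    rw [Pi.add_apply] at a2
    have a3 : t < tau v j 0 (G.eraseIdx i) := (lt_tau_iff v j 0 _ t).2
      ⟨by rw [List.length_eraseIdx_of_lt (by omega)]; omega, σ, by rw [zero_add]; omega⟩
    exact Nat.pow_le_pow_left (by omega) 2
  calc (j + 1) * g ^ 2 ≤ S.card * g ^ 2 := Nat.mul_le_mul_right _ h4
    _ = ∑ _i ∈ S, g ^ 2 := by rw [sum_const, smul_eq_mul]
    _ ≤ _ := (sum_le_sum h5).trans (sum_le_sum_of_subset fun i hi => by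
        have := mem_range.1 (mem_filter.1 hi).1
        exact mem_range.2 (by omega))

end Crest.Agent.R153
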