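import Crest.Agent.R153.Basic
import Crest.Prelude.Def_DilutedSpinGlass

/-!
# Row 153: finite chain trials and the cavity functional of random 3-SAT

Levels are indexed from the bottom: `A 0`, `m 0` belong to the deepest level, so the exponents
decrease with the index.
-/

set_option autoImplicit false
set_option linter.unusedVariables false
set_option linter.unusedSectionVars false

namespace Crest.Agent.R153

open Finset
open scoped BigOperators

open Filter Topology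
open Crest.ProbabilityR.Diluted (poissonWeight)

/-- Nested power means along a chain with kernels `w k` and exponents `m k`. -/
noncomputable def pm {S : Type*} [Fintype S] (w : ℕ → S → S → ℝ) (m : ℕ → ℝ) (W : S → ℝ) :
    ℕ → S → ℝ
  | 0, s => W s
  | k + 1, s => (∑ s', w k s s' * pm w m W k s' ^ m k) ^ (m k)⁻¹

/-- A finite chain trial: `b` states, `r` levels, initial law `π`, kernels `A k`, probability
`p s` of the spin `true`, exponents `m k`. -/
structure Tr where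
  b : ℕ
  r : ℕ
  π : ℕ → ℝ
  A : ℕ → ℕ → ℕ → ℝ
  p : ℕ → ℝ
  m : ℕ → ℝ

structure Tr.Valid (T : Tr) : Prop where
  π0 : ∀ s < T.b, 0 ≤ T.π s
  π1 : ∑ s ∈ range T.b, T.π s = 1
  A0 : ∀ k < T.r, ∀ s < T.b, ∀ s' < T.b, 0 ≤ T.A k s s'
  A1 : ∀ k < T.r, ∀ s < T.b, ∑ s' ∈ range T.b, T.A k s s' = 1
  p0 : ∀ s < T.b, 0 ≤ T.p s
  p1 : ∀ s < T.b, T.p s ≤ 1
  m0 : ∀ k < T.r, 0 < T.m k
  m1 : ∀ k < T.r, T.m k < 1
  manti : ∀ k, k + 1 < T.r → T.m (k + 1) < T.m k

/-- The law of the spin in state `s`. -/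
def Tr.q (T : Tr) (s : ℕ) (σ : Bool) : ℝ := if σ then T.p s else 1 - T.p s

/-- The product kernel on `L` independent labels. -/
noncomputable def Tr.w (T : Tr) (L : ℕ) (k : ℕ) (s s' : Fin L → Fin T.b) : ℝ :=
  ∏ i, T.A k (s i) (s' i)

/-- Minus the expected logarithm of the nested power mean of `W`. -/
noncomputable def Tr.nval (T : Tr) (L : ℕ) (W : (Fin L → Fin T.b) → ℝ) : ℝ :=
  ∑ s : Fin L → Fin T.b, (∏ i, T.π (s i)) * -Real.log (pm (T.w L) T.m W T.r s)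

/-- The edge term; `J ℓ` is the value of spin `ℓ` that violates the clause. -/
noncomputable def Tr.edgeW (T : Tr) (κ : ℝ) (J : Fin 3 → Bool) (s : Fin 3 → Fin T.b) : ℝ :=
  1 - κ * ∏ ℓ, T.q (s ℓ) (J ℓ)

/-- The site term with `d` clauses; `J (j, ℓ)` is the violating value of spin `ℓ` in clause `j`,
the spin `ℓ = 2` is the site. -/
noncomputable def Tr.siteW (T : Tr) (κ : ℝ) (d : ℕ) (J : Fin (d * 3) → Bool)
    (s : Fin (d * 2) → Fin T.b) : ℝ :=
  (1 / 2) * ∑ ε : Bool, ∏ j : Fin d,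
    (1 - κ * (if ε = J (finProdFinEquiv (j, 2)) then 1 else 0) *
      (T.q (s (finProdFinEquiv (j, 0))) (J (finProdFinEquiv (j, 0))) *
        T.q (s (finProdFinEquiv (j, 1))) (J (finProdFinEquiv (j, 1)))))

noncomputable def Tr.edge (T : Tr) (κ : ℝ) : ℝ :=
  𝔼 J : Fin 3 → Bool, T.nval 3 (T.edgeW κ J)

noncomputable def Tr.site (T : Tr) (κ : ℝ) (d : ℕ) : ℝ :=
  𝔼 J : Fin (d * 3) → Bool, T.nval (d * 2) (T.siteW κ d J)

/-- The cavity functional of random 3-SAT at density `a`, a violated clause having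
weight `1 - κ`. -/
noncomputable def Tr.P (T : Tr) (a κ : ℝ) : ℝ :=
  Real.log 2 - ∑' d : ℕ, poissonWeight (a * 3) d * T.site κ d + a * 2 * T.edge κ

/-- Expected logarithm of the partition function with `M` clauses (literals with replacement). -/
noncomputable def lz (κ : ℝ) (N M : ℕ) : ℝ :=
  EL M fun G : List (Fin 3 → Lit N) => Real.log (∑ σ : Fin N → Bool, (1 - κ) ^ en vR G σ)

/-- The pressure with a Poisson number of clauses. -/
noncomputable def press (a κ : ℝ) (N : ℕ) : ℝ :=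
  (1 / (N : ℝ)) * ∑' M : ℕ, poissonWeight (a * N) M * lz κ N M

section pm

variable {S : Type*} [Fintype S]

theorem pm_mem {w : ℕ → S → S → ℝ} {m : ℕ → ℝ} {W : S → ℝ} {c : ℝ} (hc : 0 ≤ c) {k : ℕ}
    (hw0 : ∀ j < k, ∀ s s', 0 ≤ w j s s') (hw1 : ∀ j < k, ∀ s, ∑ s', w j s s' = 1)
    (hm : ∀ j < k, 0 < m j) (hW : ∀ s, c ≤ W s ∧ W s ≤ 1) (s : S) :
    c ≤ pm w m W k s ∧ pm w m W k s ≤ 1 := by
  induction k generalizing s with
  | zero => exact hW s
  | succ k ih =>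
    have ih' := ih (fun j hj => hw0 j (by omega)) (fun j hj => hw1 j (by omega))
      (fun j hj => hm j (by omega))
    have hmk := hm k (by omega)
    have h1 : c ^ m k ≤ ∑ s', w k s s' * pm w m W k s' ^ m k := by
      calc c ^ m k = ∑ s', w k s s' * c ^ m k := by
            rw [← Finset.sum_mul, hw1 k (by omega), one_mul]
        _ ≤ _ := Finset.sum_le_sum fun s' _ => mul_le_mul_of_nonneg_left
            (Real.rpow_le_rpow hc (ih' s').1 hmk.le) (hw0 k (by omega) s s')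
    have h2 : ∑ s', w k s s' * pm w m W k s' ^ m k ≤ 1 := by
      calc _ ≤ ∑ s', w k s s' * 1 := Finset.sum_le_sum fun s' _ => mul_le_mul_of_nonneg_left
            (Real.rpow_le_one (hc.trans (ih' s').1) (ih' s').2 hmk.le) (hw0 k (by omega) s s')
        _ = 1 := by rw [← Finset.sum_mul, hw1 k (by omega), one_mul]
    have h0 : 0 ≤ c ^ m k := Real.rpow_nonneg hc _
    constructor
    · calc c = (c ^ m k) ^ (m k)⁻¹ := (Real.rpow_rpow_inv hc hmk.ne').symm
        _ ≤ _ := Real.rpow_le_rpow h0 h1 (inv_nonneg.2 hmk.le)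
    · exact Real.rpow_le_one (h0.trans h1) h2 (inv_nonneg.2 hmk.le)

theorem pm_tendsto {ι : Type*} {l : Filter ι} {w : ι → ℕ → S → S → ℝ} {m : ι → ℕ → ℝ}
    {W : ι → S → ℝ} {w' : ℕ → S → S → ℝ} {m' : ℕ → ℝ} {W' : S → ℝ} {k : ℕ}
    (hw : ∀ j < k, ∀ s s', Tendsto (fun i => w i j s s') l (𝓝 (w' j s s')))
    (hm : ∀ j < k, Tendsto (fun i => m i j) l (𝓝 (m' j))) (hm' : ∀ j < k, 0 < m' j)
    (hW : ∀ s, Tendsto (fun i => W i s) l (𝓝 (W' s))) (s : S) :
    Tendsto (fun i => pm (w i) (m i) (W i) k s) l (𝓝 (pm w' m' W' k s)) := by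
  induction k generalizing s with
  | zero => exact hW s
  | succ k ih =>
    have ih' := ih (fun j hj => hw j (by omega)) (fun j hj => hm j (by omega))
      (fun j hj => hm' j (by omega))
    have hmk := hm' k (by omega)
    refine Tendsto.rpow (tendsto_finsetSum _ fun s' _ => (hw k (by omega) s s').mul
      ((ih' s').rpow (hm k (by omega)) (Or.inr hmk))) ((hm k (by omega)).inv₀ hmk.ne')
      (Or.inr (inv_pos.2 hmk))

end pm

namespace Tr

variable {T : Tr}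

theorem Valid.sum_fin (f : ℕ → ℝ) : ∑ s : Fin T.b, f s = ∑ s ∈ range T.b, f s :=
  Fin.sum_univ_eq_sum_range f T.b

theorem Valid.w_nonneg (h : T.Valid) (L : ℕ) : ∀ k < T.r, ∀ s s', 0 ≤ T.w L k s s' :=
  fun k hk s s' => Finset.prod_nonneg fun i _ => h.A0 k hk _ (s i).2 _ (s' i).2

theorem Valid.w_sum (h : T.Valid) (L : ℕ) : ∀ k < T.r, ∀ s, ∑ s', T.w L k s s' = 1 := by
  intro k hk s
  unfold Tr.w
  rw [← Fintype.piFinset_univ, ← Finset.prod_univ_sum
    (f := fun (i : Fin L) (x : Fin T.b) => T.A k (s i) x)]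
  refine Finset.prod_eq_one fun i _ => ?_
  rw [Valid.sum_fin (T.A k (s i))]
  exact h.A1 k hk _ (s i).2

theorem Valid.π_sum (h : T.Valid) (L : ℕ) : ∑ s : Fin L → Fin T.b, ∏ i, T.π (s i) = 1 := by
  rw [← Fintype.piFinset_univ, ← Finset.prod_univ_sum
    (f := fun (i : Fin L) (x : Fin T.b) => T.π x)]
  refine Finset.prod_eq_one fun i _ => ?_
  rw [Valid.sum_fin T.π]
  exact h.π1

theorem Valid.q_mem (h : T.Valid) (s : Fin T.b) (σ : Bool) : 0 ≤ T.q s σ ∧ T.q s σ ≤ 1 := by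
  have := h.p0 s s.2
  have := h.p1 s s.2
  unfold Tr.q; split_ifs <;> constructor <;> linarith

theorem Valid.edgeW_mem (h : T.Valid) {κ : ℝ} (hκ0 : 0 ≤ κ) (J : Fin 3 → Bool)
    (s : Fin 3 → Fin T.b) : 1 - κ ≤ T.edgeW κ J s ∧ T.edgeW κ J s ≤ 1 := by
  have h0 : 0 ≤ ∏ ℓ, T.q (s ℓ) (J ℓ) := Finset.prod_nonneg fun ℓ _ => (h.q_mem _ _).1
  have h1 : ∏ ℓ, T.q (s ℓ) (J ℓ) ≤ 1 :=
    Finset.prod_le_one (fun ℓ _ => (h.q_mem _ _).1) fun ℓ _ => (h.q_mem _ _).2
  unfold Tr.edgeW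
  constructor <;> nlinarith

theorem Valid.siteW_mem (h : T.Valid) {κ : ℝ} (hκ0 : 0 ≤ κ) (hκ1 : κ ≤ 1) (d : ℕ)
    (J : Fin (d * 3) → Bool) (s : Fin (d * 2) → Fin T.b) :
    (1 - κ) ^ d ≤ T.siteW κ d J s ∧ T.siteW κ d J s ≤ 1 := by
  have key : ∀ (ε : Bool) (j : Fin d), 1 - κ ≤
      (1 - κ * (if ε = J (finProdFinEquiv (j, 2)) then 1 else 0) *
      (T.q (s (finProdFinEquiv (j, 0))) (J (finProdFinEquiv (j, 0))) *
        T.q (s (finProdFinEquiv (j, 1))) (J (finProdFinEquiv (j, 1))))) ∧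
      (1 - κ * (if ε = J (finProdFinEquiv (j, 2)) then 1 else 0) *
      (T.q (s (finProdFinEquiv (j, 0))) (J (finProdFinEquiv (j, 0))) *
        T.q (s (finProdFinEquiv (j, 1))) (J (finProdFinEquiv (j, 1))))) ≤ 1 := by
    intro ε j
    have a := h.q_mem (s (finProdFinEquiv (j, 0))) (J (finProdFinEquiv (j, 0)))
    have b := h.q_mem (s (finProdFinEquiv (j, 1))) (J (finProdFinEquiv (j, 1)))
    have c0 := mul_nonneg a.1 b.1
    have c1 := mul_le_one₀ a.2 b.1 b.2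
    split_ifs <;> constructor <;> nlinarith
  have hp : ∀ ε : Bool, (1 - κ) ^ d ≤ ∏ j : Fin d,
      (1 - κ * (if ε = J (finProdFinEquiv (j, 2)) then 1 else 0) *
      (T.q (s (finProdFinEquiv (j, 0))) (J (finProdFinEquiv (j, 0))) *
        T.q (s (finProdFinEquiv (j, 1))) (J (finProdFinEquiv (j, 1))))) := by
    intro ε
    calc (1 - κ) ^ d = ∏ _j : Fin d, (1 - κ) := by simp
      _ ≤ _ := Finset.prod_le_prod (fun _ _ => by linarith) fun j _ => (key ε j).1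
  have hq : ∀ ε : Bool, ∏ j : Fin d,
      (1 - κ * (if ε = J (finProdFinEquiv (j, 2)) then 1 else 0) *
      (T.q (s (finProdFinEquiv (j, 0))) (J (finProdFinEquiv (j, 0))) *
        T.q (s (finProdFinEquiv (j, 1))) (J (finProdFinEquiv (j, 1))))) ≤ 1 := fun ε =>
    Finset.prod_le_one (fun j _ => by linarith [(key ε j).1]) fun j _ => (key ε j).2
  unfold Tr.siteW
  rw [Fintype.sum_bool]
  constructor <;> linarith [hp true, hp false, hq true, hq false]

theorem Valid.pm_mem (h : T.Valid) (L : ℕ) {W : (Fin L → Fin T.b) → ℝ} {c : ℝ} (hc : 0 ≤ c)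
    (hW : ∀ s, c ≤ W s ∧ W s ≤ 1) {k : ℕ} (hk : k ≤ T.r) (s : Fin L → Fin T.b) :
    c ≤ pm (T.w L) T.m W k s ∧ pm (T.w L) T.m W k s ≤ 1 :=
  R153.pm_mem hc (fun j hj => h.w_nonneg L j (by omega)) (fun j hj => h.w_sum L j (by omega))
    (fun j hj => h.m0 j (by omega)) hW s

theorem Valid.nval_mem (h : T.Valid) (L : ℕ) {W : (Fin L → Fin T.b) → ℝ} {c : ℝ} (hc : 0 < c)
    (hW : ∀ s, c ≤ W s ∧ W s ≤ 1) : 0 ≤ T.nval L W ∧ T.nval L W ≤ -Real.log c := by
  have hπ : ∀ s : Fin L → Fin T.b, 0 ≤ ∏ i, T.π (s i) := fun s =>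
    Finset.prod_nonneg fun i _ => h.π0 _ (s i).2
  have hp := h.pm_mem L hc.le hW le_rfl
  constructor
  · exact Finset.sum_nonneg fun s _ => mul_nonneg (hπ s)
      (neg_nonneg.2 (Real.log_nonpos (hc.le.trans (hp s).1) (hp s).2))
  · calc T.nval L W ≤ ∑ s : Fin L → Fin T.b, (∏ i, T.π (s i)) * -Real.log c :=
          Finset.sum_le_sum fun s _ => mul_le_mul_of_nonneg_left
            (neg_le_neg (Real.log_le_log hc (hp s).1)) (hπ s)
      _ = _ := by rw [← Finset.sum_mul, h.π_sum, one_mul]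

theorem Valid.edge_mem (h : T.Valid) {κ : ℝ} (hκ0 : 0 ≤ κ) (hκ1 : κ < 1) :
    0 ≤ T.edge κ ∧ T.edge κ ≤ -Real.log (1 - κ) :=
  ⟨expect_nonneg fun J _ => (h.nval_mem 3 (by linarith) (h.edgeW_mem hκ0 J)).1,
    expect_le univ_nonempty fun J _ => (h.nval_mem 3 (by linarith) (h.edgeW_mem hκ0 J)).2⟩

theorem Valid.site_mem (h : T.Valid) {κ : ℝ} (hκ0 : 0 ≤ κ) (hκ1 : κ < 1) (d : ℕ) :
    0 ≤ T.site κ d ∧ T.site κ d ≤ d * -Real.log (1 - κ) := by
  have hc : 0 < (1 - κ) ^ d := pow_pos (by linarith) d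
  refine ⟨expect_nonneg fun J _ => (h.nval_mem _ hc (h.siteW_mem hκ0 hκ1.le d J)).1,
    expect_le univ_nonempty fun J _ => ?_⟩
  have := (h.nval_mem _ hc (h.siteW_mem hκ0 hκ1.le d J)).2
  rw [Real.log_pow] at this
  linarith

end Tr

end Crest.Agent.R153
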