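import Crest.Agent.R153.Root
import Crest.Agent.R153.Press

/-! # Row 153: soundness and completeness of the rational evaluation of a coded trial -/

set_option autoImplicit false
set_option linter.unusedVariables false
set_option linter.unusedSectionVars false

namespace Crest.Agent.R153

open Finset
open scoped BigOperators

open Filter Topology
open Crest.Agent.Lib.Comp
open Crest.ProbabilityR.Diluted (poissonWeight)

/-- The list coding of a state vector. -/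
def stc {L b : ℕ} (s : Fin L → Fin b) : List ℕ := List.ofFn fun i => (s i : ℕ)

theorem UpApprox_getD_ofFn {α : Type*} {L : ℕ} (f : Fin L → α) (d : α) (i : ℕ) (hi : i < L) :
    (List.ofFn f).getD i d = f ⟨i, hi⟩ := by
  rw [List.getD_eq_getElem _ _ (by simpa using hi), List.getElem_ofFn]

theorem stc_getD {L b : ℕ} (s : Fin L → Fin b) (i : ℕ) (hi : i < L) :
    (stc s).getD i 0 = (s ⟨i, hi⟩ : ℕ) := UpApprox_getD_ofFn _ _ _ hi

theorem UpApprox_cast_sum_range (n : ℕ) (f : ℕ → ℚ) :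
    ((((List.range n).map f).sum : ℚ) : ℝ) = ∑ i ∈ range n, (f i : ℝ) := by
  induction n with
  | zero => simp
  | succ n ih => rw [List.range_succ, List.map_append, List.sum_append, Rat.cast_add, ih,
      Finset.sum_range_succ]; simp

theorem UpApprox_cast_prod_range (n : ℕ) (f : ℕ → ℚ) :
    ((((List.range n).map f).prod : ℚ) : ℝ) = ∏ i : Fin n, (f i : ℝ) := by
  rw [Fin.prod_univ_eq_prod_range (fun i => (f i : ℝ)) n]
  induction n with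
  | zero => simp
  | succ n ih => rw [List.range_succ, List.map_append, List.prod_append, Rat.cast_mul, ih,
      Finset.prod_range_succ]; simp

theorem UpApprox_cast_sum {α C : Type*} [Fintype C] {xs : List α} {e : C → α} (h : Enum xs e)
    (f : α → ℚ) : (((xs.map f).sum : ℚ) : ℝ) = ∑ c, (f (e c) : ℝ) := by
  rw [Rat.cast_list_sum, List.map_map]
  exact h fun x => (f x : ℝ)

theorem UpApprox_cast_sum_states (b L : ℕ) (f : List ℕ → ℚ) :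
    ((((allL (List.range b) L).map f).sum : ℚ) : ℝ) = ∑ s : Fin L → Fin b, (f (stc s) : ℝ) :=
  UpApprox_cast_sum ((enum_range b).allL L) f

theorem UpApprox_cast_sum_bools (L : ℕ) (f : List Bool → ℚ) :
    ((((allL bools L).map f).sum : ℚ) : ℝ) / 2 ^ L =
      𝔼 J : Fin L → Bool, (f (List.ofFn J) : ℝ) := by
  rw [UpApprox_cast_sum (enum_bools.allL L) f, Fintype.expect_eq_sum_div_card]
  simp

namespace TC

variable {T : TC}

theorem valid_iff : T.Valid ↔ T.toTr.Valid := by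
  have e1 : ∀ f : ℕ → ℚ, ((List.range T.b).map f).sum = 1 ↔ ∑ s ∈ range T.b, (f s : ℝ) = 1 := by
    intro f
    rw [← UpApprox_cast_sum_range]
    exact ⟨fun h => by rw [h]; simp, fun h => by exact_mod_cast h⟩
  constructor
  · rintro ⟨h1, h2, h3, h4⟩
    refine ⟨fun s hs => ?_, (e1 _).1 h2, fun k hk s hs s' hs' => ?_,
      fun k hk s hs => (e1 _).1 (h3 k hk s hs).2, fun s hs => ?_, fun s hs => ?_,
      fun k hk => ?_, fun k hk => ?_, fun k hk => ?_⟩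
    · show (0 : ℝ) ≤ (T.π s : ℝ); exact_mod_cast (h1 s hs).1
    · show (0 : ℝ) ≤ (T.A k s s' : ℝ); exact_mod_cast (h3 k hk s hs).1 s' hs'
    · show (0 : ℝ) ≤ (T.p s : ℝ); exact_mod_cast (h1 s hs).2.1
    · show (T.p s : ℝ) ≤ 1; exact_mod_cast (h1 s hs).2.2
    · show (0 : ℝ) < (T.m k : ℝ); exact_mod_cast (h4 k hk).1
    · show (T.m k : ℝ) < 1; exact_mod_cast (h4 k hk).2.1
    · show (T.m (k + 1) : ℝ) < (T.m k : ℝ)
      exact_mod_cast (h4 k (Nat.lt_of_succ_lt hk)).2.2 hk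
  · intro h
    refine ⟨fun s hs => ⟨?_, ?_, ?_⟩, (e1 _).2 h.π1, fun k hk s hs => ⟨fun s' hs' => ?_,
      (e1 _).2 (h.A1 k hk s hs)⟩, fun k hk => ⟨?_, ?_, fun hk' => ?_⟩⟩
    · have : (0 : ℝ) ≤ (T.π s : ℝ) := h.π0 s hs
      exact_mod_cast this
    · have : (0 : ℝ) ≤ (T.p s : ℝ) := h.p0 s hs
      exact_mod_cast this
    · have : (T.p s : ℝ) ≤ 1 := h.p1 s hs
      exact_mod_cast this
    · have : (0 : ℝ) ≤ (T.A k s s' : ℝ) := h.A0 k hk s hs s' hs'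
      exact_mod_cast this
    · have : (0 : ℝ) < (T.m k : ℝ) := h.m0 k hk
      exact_mod_cast this
    · have : (T.m k : ℝ) < 1 := h.m1 k hk
      exact_mod_cast this
    · have : (T.m (k + 1) : ℝ) < (T.m k : ℝ) := h.manti k hk'
      exact_mod_cast this

theorem w_cast (L k : ℕ) (s s' : Fin L → Fin T.toTr.b) :
    (T.w L k (stc s) (stc s') : ℝ) = T.toTr.w L k s s' := by
  unfold TC.w Tr.w
  rw [UpApprox_cast_prod_range]
  refine Finset.prod_congr rfl fun i _ => ?_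
  rw [stc_getD _ _ i.2, stc_getD _ _ i.2]
  rfl

theorem q_cast (s : ℕ) (σ : Bool) : (T.q s σ : ℝ) = T.toTr.q s σ := by
  unfold TC.q Tr.q
  split_ifs
  · rfl
  · push_cast; rfl

theorem edgeWQ_cast (κ : ℚ) (J : Fin 3 → Bool) (s : Fin 3 → Fin T.toTr.b) :
    (T.edgeWQ κ (List.ofFn J) (stc s) : ℝ) = T.toTr.edgeW κ J s := by
  unfold TC.edgeWQ Tr.edgeW
  rw [Rat.cast_sub, Rat.cast_mul, UpApprox_cast_prod_range, Rat.cast_one]
  congr 2
  refine Finset.prod_congr rfl fun i _ => ?_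
  rw [stc_getD _ _ i.2, UpApprox_getD_ofFn _ _ _ i.2, q_cast]

/-- `finProdFinEquiv_apply_val`, `List.getD_eq_getElem`, `List.getElem_ofFn`. -/
theorem siteWQ_cast (κ : ℚ) (d : ℕ) (J : Fin (d * 3) → Bool) (s : Fin (d * 2) → Fin T.toTr.b) :
    (T.siteWQ κ d (List.ofFn J) (stc s) : ℝ) = T.toTr.siteW κ d J s := by
  unfold TC.siteWQ Tr.siteW
  rw [Rat.cast_mul, UpApprox_cast_sum enum_bools]
  congr 1
  · norm_num
  refine Finset.sum_congr rfl fun ε _ => ?_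
  rw [UpApprox_cast_prod_range]
  refine Finset.prod_congr rfl fun j _ => ?_
  have hj := j.2
  have a0 : (List.ofFn J).getD (3 * j) false = J (finProdFinEquiv (j, 0)) := by
    rw [UpApprox_getD_ofFn _ _ _ (by omega)]; congr 1; ext; simp [finProdFinEquiv_apply_val]
  have a1 : (List.ofFn J).getD (1 + 3 * j) false = J (finProdFinEquiv (j, 1)) := by
    rw [UpApprox_getD_ofFn _ _ _ (by omega)]; congr 1
  have a2 : (List.ofFn J).getD (2 + 3 * j) false = J (finProdFinEquiv (j, 2)) := by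
    rw [UpApprox_getD_ofFn _ _ _ (by omega)]; congr 1
  have b0 : (stc s).getD (2 * j) 0 = s (finProdFinEquiv (j, 0)) := by
    rw [stc_getD _ _ (by omega)]; congr 2; ext; simp [finProdFinEquiv_apply_val]
  have b1 : (stc s).getD (1 + 2 * j) 0 = s (finProdFinEquiv (j, 1)) := by
    rw [stc_getD _ _ (by omega)]; congr 2
  rw [a0, a1, a2, b0, b1]
  push_cast [q_cast]
  split_ifs <;> simp

theorem pmQ_succ_cast (ρ : ℚ → ℚ → ℚ) (L : ℕ) (W : List ℕ → ℚ) (k : ℕ)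
    (s : Fin L → Fin T.toTr.b) :
    ((((allL (List.range T.b) L).map fun s' =>
      T.w L k (stc s) s' * ρ (T.pmQ ρ L W k s') (T.m k)).sum : ℚ) : ℝ) =
      ∑ s' : Fin L → Fin T.toTr.b,
        T.toTr.w L k s s' * (ρ (T.pmQ ρ L W k (stc s')) (T.m k) : ℝ) := by
  rw [UpApprox_cast_sum_states]
  refine Finset.sum_congr rfl fun s' _ => ?_
  rw [Rat.cast_mul]
  exact congrArg (· * _) (w_cast L k s s')

theorem m_pos (h : T.toTr.Valid) {k : ℕ} (hk : k < T.r) : 0 < T.m k := by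
  have : (0 : ℝ) < (T.m k : ℝ) := h.m0 k hk
  exact_mod_cast this

/-- The inner sum stays in `[0,1]`. -/
theorem inner_mem (h : T.toTr.Valid) (ρ : ℚ → ℚ → ℚ) (L : ℕ) (W : List ℕ → ℚ) {k : ℕ}
    (hk : k < T.r) (hρ : ∀ s' : Fin L → Fin T.toTr.b, 0 ≤ ρ (T.pmQ ρ L W k (stc s')) (T.m k) ∧
      ρ (T.pmQ ρ L W k (stc s')) (T.m k) ≤ 1) (s : Fin L → Fin T.toTr.b) :
    0 ≤ ((allL (List.range T.b) L).map fun s' =>
      T.w L k (stc s) s' * ρ (T.pmQ ρ L W k s') (T.m k)).sum ∧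
    ((allL (List.range T.b) L).map fun s' =>
      T.w L k (stc s) s' * ρ (T.pmQ ρ L W k s') (T.m k)).sum ≤ 1 := by
  have e := pmQ_succ_cast (T := T) ρ L W k s
  constructor
  · rw [← Rat.cast_nonneg (K := ℝ), e]
    exact Finset.sum_nonneg fun s' _ => mul_nonneg (h.w_nonneg L k hk s s')
      (by exact_mod_cast (hρ s').1)
  · rw [← Rat.cast_le (K := ℝ), e, Rat.cast_one, ← h.w_sum L k hk s]
    exact Finset.sum_le_sum fun s' _ => mul_le_of_le_one_right (h.w_nonneg L k hk s s')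
      (by exact_mod_cast (hρ s').2)

theorem pmQ_mem (h : T.toTr.Valid) (ρ : ℚ → ℚ → ℚ)
    (hρ : ∀ x θ : ℚ, 0 ≤ x → x ≤ 1 → 0 < θ → 0 ≤ ρ x θ ∧ ρ x θ ≤ 1) (L : ℕ) (W : List ℕ → ℚ)
    (hW : ∀ s : Fin L → Fin T.toTr.b, 0 ≤ W (stc s) ∧ W (stc s) ≤ 1) {k : ℕ} (hk : k ≤ T.r)
    (s : Fin L → Fin T.toTr.b) :
    0 ≤ T.pmQ ρ L W k (stc s) ∧ T.pmQ ρ L W k (stc s) ≤ 1 := by
  induction k generalizing s with
  | zero => exact hW s
  | succ k ih =>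
    have hm := m_pos h (show k < T.r by omega)
    have hi := inner_mem h ρ L W (show k < T.r by omega)
      (fun s' => hρ _ _ (ih (by omega) s').1 (ih (by omega) s').2 hm) s
    exact hρ _ _ hi.1 hi.2 (inv_pos.2 hm)

theorem rlo_mem {S : ℕ} (hS : 0 < S) (x θ : ℚ) (h0 : 0 ≤ x) (h1 : x ≤ 1) (hθ : 0 < θ) :
    0 ≤ rlo S x θ ∧ rlo S x θ ≤ 1 ∧ |(rlo S x θ : ℝ) - (x : ℝ) ^ (θ : ℝ)| ≤ 1 / S := by
  obtain ⟨a, b, c⟩ := rlo_spec hS h0 h1 hθ
  have d : (x : ℝ) ^ (θ : ℝ) ≤ 1 :=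
    Real.rpow_le_one (by exact_mod_cast h0) (by exact_mod_cast h1) (by exact_mod_cast hθ.le)
  have e : (0 : ℝ) ≤ 1 / S := by positivity
  refine ⟨a, by exact_mod_cast b.trans d, abs_le.2 ⟨by linarith, by linarith⟩⟩

theorem rup_mem {S : ℕ} (hS : 0 < S) (x θ : ℚ) (h0 : 0 ≤ x) (h1 : x ≤ 1) (hθ : 0 < θ) :
    0 ≤ rup S x θ ∧ rup S x θ ≤ 1 ∧ |(rup S x θ : ℝ) - (x : ℝ) ^ (θ : ℝ)| ≤ 1 / S := by
  obtain ⟨a, b, c⟩ := rup_spec hS h0 h1 hθ
  have d : (0 : ℝ) ≤ (x : ℝ) ^ (θ : ℝ) := Real.rpow_nonneg (by exact_mod_cast h0) _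
  have e : (0 : ℝ) ≤ 1 / S := by positivity
  refine ⟨by exact_mod_cast d.trans b, a, abs_le.2 ⟨by linarith, by linarith⟩⟩

theorem pm_mem' (h : T.toTr.Valid) (L : ℕ) (W : List ℕ → ℚ)
    (hW : ∀ s : Fin L → Fin T.toTr.b, 0 ≤ W (stc s) ∧ W (stc s) ≤ 1) {k : ℕ} (hk : k ≤ T.r)
    (s : Fin L → Fin T.toTr.b) :
    0 ≤ pm (T.toTr.w L) T.toTr.m (fun s => (W (stc s) : ℝ)) k s ∧
      pm (T.toTr.w L) T.toTr.m (fun s => (W (stc s) : ℝ)) k s ≤ 1 :=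
  h.pm_mem L le_rfl (fun s => ⟨by exact_mod_cast (hW s).1, by exact_mod_cast (hW s).2⟩) hk s

/-- Induction on `k`; sums over `allL (range b) L` become sums over state vectors by
`(enum_range b).allL L` after `Rat.cast_list_sum`. -/
theorem pm_le_pmQ_rup (h : T.toTr.Valid) {S : ℕ} (hS : 0 < S) (L : ℕ) (W : List ℕ → ℚ)
    (hW : ∀ s : Fin L → Fin T.toTr.b, 0 ≤ W (stc s) ∧ W (stc s) ≤ 1) {k : ℕ} (hk : k ≤ T.r)
    (s : Fin L → Fin T.toTr.b) :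
    pm (T.toTr.w L) T.toTr.m (fun s => (W (stc s) : ℝ)) k s ≤ T.pmQ (rup S) L W k (stc s) ∧
      T.pmQ (rup S) L W k (stc s) ≤ 1 := by
  have hρ : ∀ x θ : ℚ, 0 ≤ x → x ≤ 1 → 0 < θ → 0 ≤ rup S x θ ∧ rup S x θ ≤ 1 :=
    fun x θ a b c => ⟨(rup_mem hS x θ a b c).1, (rup_mem hS x θ a b c).2.1⟩
  refine ⟨?_, (pmQ_mem h _ hρ L W hW hk s).2⟩
  induction k generalizing s with
  | zero => exact le_rfl
  | succ k ih =>
    have hk' : k < T.r := by omega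
    have hm := m_pos h hk'
    have hm' : (0 : ℝ) < T.toTr.m k := h.m0 k hk'
    have hq := fun s' => pmQ_mem h _ hρ L W hW hk'.le s'
    have hi := inner_mem h (rup S) L W hk' (fun s' => hρ _ _ (hq s').1 (hq s').2 hm) s
    refine le_trans ?_ (rup_spec hS hi.1 hi.2 (inv_pos.2 hm)).2.1
    rw [pmQ_succ_cast, Rat.cast_inv]
    have hp := fun s' => pm_mem' h L W hW hk'.le s'
    refine Real.rpow_le_rpow (Finset.sum_nonneg fun s' _ => mul_nonneg (h.w_nonneg L k hk' s s')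
      (Real.rpow_nonneg (hp s').1 _)) (Finset.sum_le_sum fun s' _ => mul_le_mul_of_nonneg_left ?_
      (h.w_nonneg L k hk' s s')) (inv_nonneg.2 hm'.le)
    exact (Real.rpow_le_rpow (hp s').1 (ih hk'.le s') hm'.le).trans
      (rup_spec hS (hq s').1 (hq s').2 hm).2.1

theorem pmQ_rlo_le_pm (h : T.toTr.Valid) {S : ℕ} (hS : 0 < S) (L : ℕ) (W : List ℕ → ℚ)
    (hW : ∀ s : Fin L → Fin T.toTr.b, 0 ≤ W (stc s) ∧ W (stc s) ≤ 1) {k : ℕ} (hk : k ≤ T.r)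
    (s : Fin L → Fin T.toTr.b) :
    0 ≤ T.pmQ (rlo S) L W k (stc s) ∧
      (T.pmQ (rlo S) L W k (stc s) : ℝ) ≤ pm (T.toTr.w L) T.toTr.m (fun s => (W (stc s) : ℝ)) k s := by
  have hρ : ∀ x θ : ℚ, 0 ≤ x → x ≤ 1 → 0 < θ → 0 ≤ rlo S x θ ∧ rlo S x θ ≤ 1 :=
    fun x θ a b c => ⟨(rlo_mem hS x θ a b c).1, (rlo_mem hS x θ a b c).2.1⟩
  refine ⟨(pmQ_mem h _ hρ L W hW hk s).1, ?_⟩
  induction k generalizing s with
  | zero => exact le_rfl
  | succ k ih =>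
    have hk' : k < T.r := by omega
    have hm := m_pos h hk'
    have hm' : (0 : ℝ) < T.toTr.m k := h.m0 k hk'
    have hq := fun s' => pmQ_mem h _ hρ L W hW hk'.le s'
    have hi := inner_mem h (rlo S) L W hk' (fun s' => hρ _ _ (hq s').1 (hq s').2 hm) s
    refine le_trans (rlo_spec hS hi.1 hi.2 (inv_pos.2 hm)).2.1 ?_
    have hi0 : (0 : ℝ) ≤ _ := Rat.cast_nonneg.2 hi.1
    rw [pmQ_succ_cast] at hi0
    rw [pmQ_succ_cast, Rat.cast_inv]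
    refine Real.rpow_le_rpow hi0 (Finset.sum_le_sum fun s' _ => mul_le_mul_of_nonneg_left ?_
      (h.w_nonneg L k hk' s s')) (inv_nonneg.2 hm'.le)
    exact (rlo_spec hS (hq s').1 (hq s').2 hm).2.1.trans
      (Real.rpow_le_rpow (by exact_mod_cast (hq s').1) (ih hk'.le s') hm'.le)

theorem root_tendsto (ρ : ℕ → ℚ → ℚ → ℚ)
    (hρ : ∀ S, 0 < S → ∀ x θ : ℚ, 0 ≤ x → x ≤ 1 → 0 < θ → 0 ≤ ρ S x θ ∧ ρ S x θ ≤ 1 ∧
      |(ρ S x θ : ℝ) - (x : ℝ) ^ (θ : ℝ)| ≤ 1 / S) {x : ℕ → ℚ} {y : ℝ} {θ : ℚ} (hθ : 0 < θ)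
    (hx : ∀ S, 0 < S → 0 ≤ x S ∧ x S ≤ 1) (hy : Tendsto (fun S => (x S : ℝ)) atTop (𝓝 y)) :
    Tendsto (fun S => (ρ S (x S) θ : ℝ)) atTop (𝓝 (y ^ (θ : ℝ))) := by
  have h1 : Tendsto (fun S => (x S : ℝ) ^ (θ : ℝ)) atTop (𝓝 (y ^ (θ : ℝ))) :=
    hy.rpow_const (Or.inr (by exact_mod_cast hθ.le))
  have h2 : Tendsto (fun S => (ρ S (x S) θ : ℝ) - (x S : ℝ) ^ (θ : ℝ)) atTop (𝓝 0) := by
    refine squeeze_zero_norm' ?_ tendsto_one_div_atTop_nhds_zero_nat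
    filter_upwards [eventually_gt_atTop 0] with S hS
    exact (hρ S hS _ _ (hx S hS).1 (hx S hS).2 hθ).2.2
  simpa using h2.add h1

/-- For `ρ = rlo` or `rup`: first `pmQ ∈ [0,1]` for `S > 0`, then induction on `k` with
`x_S → x ⇒ ρ S x_S θ → x ^ θ` (`Tendsto.rpow_const` and a squeeze). -/
theorem pmQ_tendsto (h : T.toTr.Valid) (ρ : ℕ → ℚ → ℚ → ℚ)
    (hρ : ∀ S, 0 < S → ∀ x θ : ℚ, 0 ≤ x → x ≤ 1 → 0 < θ → 0 ≤ ρ S x θ ∧ ρ S x θ ≤ 1 ∧
      |(ρ S x θ : ℝ) - (x : ℝ) ^ (θ : ℝ)| ≤ 1 / S)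
    (L : ℕ) (W : List ℕ → ℚ)
    (hW : ∀ s : Fin L → Fin T.toTr.b, 0 ≤ W (stc s) ∧ W (stc s) ≤ 1) {k : ℕ} (hk : k ≤ T.r)
    (s : Fin L → Fin T.toTr.b) :
    Tendsto (fun S => (T.pmQ (ρ S) L W k (stc s) : ℝ)) atTop
      (𝓝 (pm (T.toTr.w L) T.toTr.m (fun s => (W (stc s) : ℝ)) k s)) := by
  have hρ' : ∀ S, 0 < S → ∀ x θ : ℚ, 0 ≤ x → x ≤ 1 → 0 < θ → 0 ≤ ρ S x θ ∧ ρ S x θ ≤ 1 :=
    fun S hS x θ a b c => ⟨(hρ S hS x θ a b c).1, (hρ S hS x θ a b c).2.1⟩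
  induction k generalizing s with
  | zero => exact tendsto_const_nhds
  | succ k ih =>
    have hk' : k < T.r := by omega
    have hm := m_pos h hk'
    have hq := fun S (hS : 0 < S) s' => pmQ_mem h _ (hρ' S hS) L W hW hk'.le s'
    have hi := fun S (hS : 0 < S) => inner_mem h (ρ S) L W hk'
      (fun s' => hρ' S hS _ _ (hq S hS s').1 (hq S hS s').2 hm) s
    have := root_tendsto ρ hρ (inv_pos.2 hm) hi (y := ∑ s', T.toTr.w L k s s' *
      pm (T.toTr.w L) T.toTr.m (fun s => (W (stc s) : ℝ)) k s' ^ T.toTr.m k) (by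
        simp only [pmQ_succ_cast]
        exact tendsto_finsetSum _ fun s' _ => tendsto_const_nhds.mul
          (root_tendsto ρ hρ hm (fun S hS => hq S hS s') (ih hk'.le s')))
    rw [Rat.cast_inv] at this
    exact this

theorem nvalQ_cast (ρ : ℚ → ℚ → ℚ) (g : ℚ → ℚ) (L : ℕ) (W : List ℕ → ℚ) :
    (T.nvalQ ρ g L W : ℝ) = ∑ s : Fin L → Fin T.toTr.b,
      (∏ i, T.toTr.π (s i)) * (g (T.pmQ ρ L W T.r (stc s)) : ℝ) := by
  unfold TC.nvalQ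
  rw [UpApprox_cast_sum_states]
  refine Finset.sum_congr rfl fun s _ => ?_
  rw [Rat.cast_mul, UpApprox_cast_prod_range]
  congr 1
  refine Finset.prod_congr rfl fun i _ => ?_
  rw [stc_getD _ _ i.2]
  rfl

theorem edgeUp_cast (κ : ℚ) (n S : ℕ) :
    (T.edgeUp κ n S : ℝ) = 𝔼 J : Fin 3 → Bool, ∑ s : Fin 3 → Fin T.toTr.b,
      (∏ i, T.toTr.π (s i)) *
        nuR n (max (T.pmQ (rlo S) 3 (T.edgeWQ κ (List.ofFn J)) T.r (stc s) : ℝ) (1 - κ)) := by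
  unfold TC.edgeUp
  rw [Rat.cast_div, show ((8 : ℚ) : ℝ) = 2 ^ 3 by norm_num, UpApprox_cast_sum_bools]
  refine expect_congr rfl fun J _ => ?_
  rw [nvalQ_cast]
  refine Finset.sum_congr rfl fun s _ => ?_
  rw [nu_cast]
  push_cast
  rfl

theorem siteLo_cast (κ : ℚ) (d n S : ℕ) :
    (T.siteLo κ d n S : ℝ) = 𝔼 J : Fin (d * 3) → Bool, ∑ s : Fin (d * 2) → Fin T.toTr.b,
      (∏ i, T.toTr.π (s i)) *
        nlR n (T.pmQ (rup S) (d * 2) (T.siteWQ κ d (List.ofFn J)) T.r (stc s) : ℝ) := by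
  unfold TC.siteLo
  rw [Rat.cast_div, show ((2 ^ (d * 3) : ℚ) : ℝ) = 2 ^ (d * 3) by push_cast; rfl,
    UpApprox_cast_sum_bools]
  refine expect_congr rfl fun J _ => ?_
  rw [nvalQ_cast]
  refine Finset.sum_congr rfl fun s _ => ?_
  rw [nl_cast]

theorem edgeWQ_fun (κ : ℚ) (J : Fin 3 → Bool) :
    (fun s : Fin 3 → Fin T.toTr.b => (T.edgeWQ κ (List.ofFn J) (stc s) : ℝ)) =
      T.toTr.edgeW κ J := funext fun s => edgeWQ_cast κ J s

theorem siteWQ_fun (κ : ℚ) (d : ℕ) (J : Fin (d * 3) → Bool) :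
    (fun s : Fin (d * 2) → Fin T.toTr.b => (T.siteWQ κ d (List.ofFn J) (stc s) : ℝ)) =
      T.toTr.siteW κ d J := funext fun s => siteWQ_cast κ d J s

theorem edgeWQ_mem (h : T.toTr.Valid) {κ : ℚ} (hκ0 : 0 ≤ κ) (hκ1 : κ < 1) (J : Fin 3 → Bool)
    (s : Fin 3 → Fin T.toTr.b) :
    0 ≤ T.edgeWQ κ (List.ofFn J) (stc s) ∧ T.edgeWQ κ (List.ofFn J) (stc s) ≤ 1 := by
  have := h.edgeW_mem (κ := κ) (by exact_mod_cast hκ0) J s
  rw [← edgeWQ_cast] at this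
  have h1 : 1 - κ ≤ T.edgeWQ κ (List.ofFn J) (stc s) := by exact_mod_cast this.1
  exact ⟨by linarith, by exact_mod_cast this.2⟩

theorem siteWQ_mem (h : T.toTr.Valid) {κ : ℚ} (hκ0 : 0 ≤ κ) (hκ1 : κ < 1) (d : ℕ)
    (J : Fin (d * 3) → Bool) (s : Fin (d * 2) → Fin T.toTr.b) :
    0 ≤ T.siteWQ κ d (List.ofFn J) (stc s) ∧ T.siteWQ κ d (List.ofFn J) (stc s) ≤ 1 := by
  have := h.siteW_mem (κ := κ) (by exact_mod_cast hκ0) (by exact_mod_cast hκ1.le) d J s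
  rw [← siteWQ_cast] at this
  have h1 : (1 - κ) ^ d ≤ T.siteWQ κ d (List.ofFn J) (stc s) := by exact_mod_cast this.1
  exact ⟨(pow_nonneg (by linarith) d).trans h1, by exact_mod_cast this.2⟩

theorem π_nonneg (h : T.toTr.Valid) {L : ℕ} (s : Fin L → Fin T.toTr.b) :
    0 ≤ ∏ i, T.toTr.π (s i) := Finset.prod_nonneg fun i _ => h.π0 _ (s i).2

theorem pm_edge_mem (h : T.toTr.Valid) {κ : ℚ} (hκ0 : 0 ≤ κ) (hκ1 : κ < 1) (J : Fin 3 → Bool)
    (s : Fin 3 → Fin T.toTr.b) :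
    1 - (κ : ℝ) ≤ pm (T.toTr.w 3) T.toTr.m (T.toTr.edgeW κ J) T.toTr.r s ∧
      pm (T.toTr.w 3) T.toTr.m (T.toTr.edgeW κ J) T.toTr.r s ≤ 1 := by
  have h1 : (κ : ℝ) < 1 := by exact_mod_cast hκ1
  exact h.pm_mem 3 (by linarith) (h.edgeW_mem (by exact_mod_cast hκ0) J) le_rfl s

theorem pm_site_mem (h : T.toTr.Valid) {κ : ℚ} (hκ0 : 0 ≤ κ) (hκ1 : κ < 1) (d : ℕ)
    (J : Fin (d * 3) → Bool) (s : Fin (d * 2) → Fin T.toTr.b) :
    0 < pm (T.toTr.w (d * 2)) T.toTr.m (T.toTr.siteW κ d J) T.toTr.r s ∧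
      pm (T.toTr.w (d * 2)) T.toTr.m (T.toTr.siteW κ d J) T.toTr.r s ≤ 1 := by
  have h1 : (κ : ℝ) < 1 := by exact_mod_cast hκ1
  have hc : (0 : ℝ) < (1 - κ) ^ d := pow_pos (by linarith) d
  have := h.pm_mem (d * 2) hc.le (h.siteW_mem (by exact_mod_cast hκ0) h1.le d J) le_rfl s
  exact ⟨hc.trans_le this.1, this.2⟩

theorem expect_tendsto {ι C : Type*} [Fintype C] {l : Filter ι} {f : ι → C → ℝ} {g : C → ℝ}
    (h : ∀ c, Tendsto (fun i => f i c) l (𝓝 (g c))) :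
    Tendsto (fun i => 𝔼 c : C, f i c) l (𝓝 (𝔼 c : C, g c)) := by
  simp only [Fintype.expect_eq_sum_div_card]
  exact (tendsto_finsetSum _ fun c _ => h c).div_const _

theorem edge_le_edgeUp (h : T.toTr.Valid) {κ : ℚ} (hκ0 : 0 ≤ κ) (hκ1 : κ < 1) (n : ℕ) {S : ℕ}
    (hS : 0 < S) : T.toTr.edge κ ≤ T.edgeUp κ n S := by
  rw [edgeUp_cast]
  refine expect_le_expect fun J _ => Finset.sum_le_sum fun s _ =>
    mul_le_mul_of_nonneg_left ?_ (π_nonneg h s)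
  have h1 : (κ : ℝ) < 1 := by exact_mod_cast hκ1
  have hp := pm_edge_mem h hκ0 hκ1 J s
  have hq := (pmQ_rlo_le_pm h hS 3 _ (edgeWQ_mem h hκ0 hκ1 J) le_rfl s).2
  rw [edgeWQ_fun] at hq
  have hy0 : (0 : ℝ) < max (T.pmQ (rlo S) 3 (T.edgeWQ κ (List.ofFn J)) T.r (stc s) : ℝ) (1 - κ) :=
    lt_max_of_lt_right (by linarith)
  have hy1 := max_le hq hp.1
  exact (neg_le_neg (Real.log_le_log hy0 hy1)).trans (le_nuR n hy0 (hy1.trans hp.2))

theorem siteLo_le_site (h : T.toTr.Valid) {κ : ℚ} (hκ0 : 0 ≤ κ) (hκ1 : κ < 1) (d n : ℕ) {S : ℕ}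
    (hS : 0 < S) : (T.siteLo κ d n S : ℝ) ≤ T.toTr.site κ d := by
  rw [siteLo_cast]
  refine expect_le_expect fun J _ => Finset.sum_le_sum fun s _ =>
    mul_le_mul_of_nonneg_left ?_ (π_nonneg h s)
  have hp := pm_site_mem h hκ0 hκ1 d J s
  have hq := pm_le_pmQ_rup h hS (d * 2) _ (siteWQ_mem h hκ0 hκ1 d J) le_rfl s
  rw [siteWQ_fun] at hq
  exact (nlR_le n (hp.1.trans_le hq.1) (by exact_mod_cast hq.2)).trans
    (neg_le_neg (Real.log_le_log hp.1 hq.1))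

/-- `e n` is the edge value with `-log` replaced by `nuR n`. -/
theorem edgeUp_tendsto (h : T.toTr.Valid) {κ : ℚ} (hκ0 : 0 ≤ κ) (hκ1 : κ < 1) :
    ∃ e : ℕ → ℝ, Tendsto e atTop (𝓝 (T.toTr.edge κ)) ∧
      ∀ n, Tendsto (fun S => (T.edgeUp κ n S : ℝ)) atTop (𝓝 (e n)) := by
  have h1 : (κ : ℝ) < 1 := by exact_mod_cast hκ1
  refine ⟨fun n => 𝔼 J : Fin 3 → Bool, ∑ s : Fin 3 → Fin T.toTr.b, (∏ i, T.toTr.π (s i)) *
    nuR n (pm (T.toTr.w 3) T.toTr.m (T.toTr.edgeW κ J) T.toTr.r s), ?_, fun n => ?_⟩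
  · refine expect_tendsto fun J => tendsto_finsetSum _ fun s _ => tendsto_const_nhds.mul ?_
    have hp := pm_edge_mem h hκ0 hκ1 J s
    exact tendsto_nuR (by linarith [hp.1]) hp.2
  · simp only [edgeUp_cast]
    refine expect_tendsto fun J => tendsto_finsetSum _ fun s _ => tendsto_const_nhds.mul ?_
    have hp := pm_edge_mem h hκ0 hκ1 J s
    have ht := pmQ_tendsto h rlo (fun S hS => rlo_mem hS) 3 _ (edgeWQ_mem h hκ0 hκ1 J) le_rfl s
    rw [edgeWQ_fun] at ht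
    have ht' := ht.max (tendsto_const_nhds (x := 1 - (κ : ℝ)))
    have e : max (pm (T.toTr.w 3) T.toTr.m (T.toTr.edgeW κ J) T.r s) (1 - (κ : ℝ)) =
      pm (T.toTr.w 3) T.toTr.m (T.toTr.edgeW κ J) T.toTr.r s := max_eq_left hp.1
    rw [e] at ht'
    exact (continuousAt_nuR n (by linarith [hp.1])).tendsto.comp ht'

theorem siteLo_tendsto (h : T.toTr.Valid) {κ : ℚ} (hκ0 : 0 ≤ κ) (hκ1 : κ < 1) (d : ℕ) :
    ∃ e : ℕ → ℝ, Tendsto e atTop (𝓝 (T.toTr.site κ d)) ∧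
      ∀ n, Tendsto (fun S => (T.siteLo κ d n S : ℝ)) atTop (𝓝 (e n)) := by
  refine ⟨fun n => 𝔼 J : Fin (d * 3) → Bool, ∑ s : Fin (d * 2) → Fin T.toTr.b,
    (∏ i, T.toTr.π (s i)) *
      nlR n (pm (T.toTr.w (d * 2)) T.toTr.m (T.toTr.siteW κ d J) T.toTr.r s), ?_, fun n => ?_⟩
  · refine expect_tendsto fun J => tendsto_finsetSum _ fun s _ => tendsto_const_nhds.mul ?_
    have hp := pm_site_mem h hκ0 hκ1 d J s
    exact tendsto_nlR hp.1 hp.2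
  · simp only [siteLo_cast]
    refine expect_tendsto fun J => tendsto_finsetSum _ fun s _ => tendsto_const_nhds.mul ?_
    have ht := pmQ_tendsto h rup (fun S hS => rup_mem hS) (d * 2) _
      (siteWQ_mem h hκ0 hκ1 d J) le_rfl s
    rw [siteWQ_fun] at ht
    exact ((continuous_nlR n).tendsto _).comp ht

end TC

end Crest.Agent.R153
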