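import Crest.Agent.R153.Root

/-! # Row 153: the upper certificates are primitive recursive -/

set_option autoImplicit false
set_option linter.unusedVariables false
set_option linter.unusedSectionVars false

namespace Crest.Agent.R153

open Finset
open scoped BigOperators

open Crest.Agent.Lib.Comp

section aux
variable {α β : Type*} [Primcodable α] [Primcodable β]

theorem UpCode_mul {f g : α → ℚ} (hf : Primrec f) (hg : Primrec g) :
    Primrec fun a => f a * g a := rat_mul.comp hf hg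

theorem UpCode_add {f g : α → ℚ} (hf : Primrec f) (hg : Primrec g) :
    Primrec fun a => f a + g a := rat_add.comp hf hg

theorem UpCode_sub {f g : α → ℚ} (hf : Primrec f) (hg : Primrec g) :
    Primrec fun a => f a - g a := rat_sub.comp hf hg

theorem UpCode_div {f g : α → ℚ} (hf : Primrec f) (hg : Primrec g) :
    Primrec fun a => f a / g a := rat_div.comp hf hg

theorem UpCode_nmul {f g : α → ℕ} (hf : Primrec f) (hg : Primrec g) :
    Primrec fun a => f a * g a := Primrec.nat_mul.comp hf hg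

theorem UpCode_nadd {f g : α → ℕ} (hf : Primrec f) (hg : Primrec g) :
    Primrec fun a => f a + g a := Primrec.nat_add.comp hf hg

theorem UpCode_le {f g : α → ℚ} (hf : Primrec f) (hg : Primrec g) :
    PrimrecPred fun a => f a ≤ g a := rat_le.comp hf hg

theorem UpCode_lt {f g : α → ℚ} (hf : Primrec f) (hg : Primrec g) :
    PrimrecPred fun a => f a < g a := rat_lt.comp hf hg

theorem UpCode_nlt {f g : α → ℕ} (hf : Primrec f) (hg : Primrec g) :
    PrimrecPred fun a => f a < g a := Primrec.nat_lt.comp hf hg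

theorem UpCode_eq {f g : α → β} (hf : Primrec f) (hg : Primrec g) :
    PrimrecPred fun a => f a = g a := Primrec.eq.comp hf hg

theorem UpCode_imp {p q : α → Prop} (hp : PrimrecPred p) (hq : PrimrecPred q) :
    PrimrecPred fun a => p a → q a := (hp.not.or hq).of_eq fun a => imp_iff_not_or.symm

theorem UpCode_sum {l : α → List β} {f : α → β → ℚ} (hl : Primrec l)
    (hf : Primrec fun x : α × β => f x.1 x.2) : Primrec fun a => ((l a).map (f a)).sum :=
  rat_list_sum.comp (Primrec.list_map hl hf)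

theorem UpCode_prod {l : α → List β} {f : α → β → ℚ} (hl : Primrec l)
    (hf : Primrec fun x : α × β => f x.1 x.2) : Primrec fun a => ((l a).map (f a)).prod :=
  rat_list_prod.comp (Primrec.list_map hl hf)

theorem UpCode_forall {n : α → ℕ} {p : α → ℕ → Prop} (hn : Primrec n)
    (hp : PrimrecPred fun x : α × ℕ => p x.1 x.2) : PrimrecPred fun a => ∀ x < n a, p a x := by
  have h : PrimrecRel fun (x : ℕ) (a : α) => p a x :=
    PrimrecPred.comp hp (Primrec.snd.pair Primrec.fst)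
  exact (h.forall_mem_list.comp (Primrec.list_range.comp hn) Primrec.id).of_eq (by simp)

theorem UpCode_getD {l : α → List β} {n : α → ℕ} (d : β) (hl : Primrec l) (hn : Primrec n) :
    Primrec fun a => (l a).getD (n a) d := (Primrec.list_getD d).comp hl hn

theorem UpCode_range {n : α → ℕ} (hn : Primrec n) : Primrec fun a => List.range (n a) :=
  Primrec.list_range.comp hn

theorem UpCode_allL {l : α → List β} {n : α → ℕ} (hl : Primrec l) (hn : Primrec n) :
    Primrec fun a => allL (l a) (n a) := primrec_allL.comp hl hn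

theorem UpCode_fst {f : α → β} {γ : Type*} [Primcodable γ] (hf : Primrec f) :
    Primrec fun x : α × γ => f x.1 := hf.comp Primrec.fst

variable {T : α → TC}

theorem UpCode_b (hT : Primrec T) : Primrec fun a => (T a).b := Primrec.fst.comp hT

theorem UpCode_r (hT : Primrec T) : Primrec fun a => (T a).r :=
  Primrec.fst.comp (Primrec.snd.comp hT)

theorem UpCode_π {s : α → ℕ} (hT : Primrec T) (hs : Primrec s) :
    Primrec fun a => (T a).π (s a) :=
  UpCode_getD 0 (Primrec.fst.comp (Primrec.snd.comp (Primrec.snd.comp hT))) hs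

theorem UpCode_A {k s s' : α → ℕ} (hT : Primrec T) (hk : Primrec k) (hs : Primrec s)
    (hs' : Primrec s') : Primrec fun a => (T a).A (k a) (s a) (s' a) :=
  UpCode_getD 0 (UpCode_getD [] (UpCode_getD []
    (Primrec.fst.comp (Primrec.snd.comp (Primrec.snd.comp (Primrec.snd.comp hT)))) hk) hs) hs'

theorem UpCode_p {s : α → ℕ} (hT : Primrec T) (hs : Primrec s) :
    Primrec fun a => (T a).p (s a) :=
  UpCode_getD 0 (Primrec.fst.comp (Primrec.snd.comp (Primrec.snd.comp (Primrec.snd.comp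
    (Primrec.snd.comp hT))))) hs

theorem UpCode_m {s : α → ℕ} (hT : Primrec T) (hs : Primrec s) :
    Primrec fun a => (T a).m (s a) :=
  UpCode_getD 0 (Primrec.snd.comp (Primrec.snd.comp (Primrec.snd.comp (Primrec.snd.comp
    (Primrec.snd.comp hT))))) hs

theorem UpCode_q {s : α → ℕ} {σ : α → Bool} (hT : Primrec T) (hs : Primrec s) (hσ : Primrec σ) :
    Primrec fun a => (T a).q (s a) (σ a) :=
  Primrec.ite (UpCode_eq hσ (Primrec.const true)) (UpCode_p hT hs)
    (UpCode_sub (Primrec.const 1) (UpCode_p hT hs))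

theorem UpCode_w {L k : α → ℕ} {s s' : α → List ℕ} (hT : Primrec T) (hL : Primrec L)
    (hk : Primrec k) (hs : Primrec s) (hs' : Primrec s') :
    Primrec fun a => (T a).w (L a) (k a) (s a) (s' a) :=
  UpCode_prod (f := fun a i => (T a).A (k a) ((s a).getD i 0) ((s' a).getD i 0)) (UpCode_range hL)
    (UpCode_A (UpCode_fst hT) (UpCode_fst hk) (UpCode_getD 0 (UpCode_fst hs) Primrec.snd)
      (UpCode_getD 0 (UpCode_fst hs') Primrec.snd))

theorem UpCode_ρ {ρ : α → ℚ → ℚ → ℚ} (hρ : Primrec fun x : α × ℚ × ℚ => ρ x.1 x.2.1 x.2.2)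
    {u : β → α} {f g : β → ℚ} (hu : Primrec u) (hf : Primrec f) (hg : Primrec g) :
    Primrec fun b => ρ (u b) (f b) (g b) := hρ.comp (hu.pair (hf.pair hg))

/-- one step of the table -/
def UpCode_step (T : TC) (ρ : ℚ → ℚ → ℚ) (L k : ℕ) (tab : List (List ℕ × ℚ)) :
    List (List ℕ × ℚ) :=
  (allL (List.range T.b) L).map fun s =>
    (s, ρ ((tab.map fun p => T.w L k s p.1 * ρ p.2 (T.m k)).sum) (T.m k)⁻¹)

theorem UpCode_tab (T : TC) (ρ : ℚ → ℚ → ℚ) (L : ℕ) (W : List ℕ → ℚ) (k : ℕ) :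
    (k.rec (motive := fun _ => List (List ℕ × ℚ))
      ((allL (List.range T.b) L).map fun s => (s, W s))
      fun n IH => UpCode_step T ρ L n IH) =
      (allL (List.range T.b) L).map fun s => (s, T.pmQ ρ L W k s) := by
  induction k with
  | zero => rfl
  | succ k ih =>
    dsimp only
    rw [ih]
    simp only [UpCode_step, List.map_map, TC.pmQ, Function.comp_def]

theorem UpCode_step_primrec {ρ : α → ℚ → ℚ → ℚ} {L k : α → ℕ} {tab : α → List (List ℕ × ℚ)}
    (hT : Primrec T) (hρ : Primrec fun x : α × ℚ × ℚ => ρ x.1 x.2.1 x.2.2) (hL : Primrec L)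
    (hk : Primrec k) (htab : Primrec tab) :
    Primrec fun a => UpCode_step (T a) (ρ a) (L a) (k a) (tab a) := by
  have h1 : Primrec fun x : (α × List ℕ) × (List ℕ × ℚ) =>
      (T x.1.1).w (L x.1.1) (k x.1.1) x.1.2 x.2.1 * ρ x.1.1 x.2.2 ((T x.1.1).m (k x.1.1)) :=
    UpCode_mul
      (UpCode_w (UpCode_fst (UpCode_fst hT)) (UpCode_fst (UpCode_fst hL))
        (UpCode_fst (UpCode_fst hk)) (Primrec.snd.comp Primrec.fst) (Primrec.fst.comp Primrec.snd))
      (UpCode_ρ hρ (Primrec.fst.comp Primrec.fst) (Primrec.snd.comp Primrec.snd)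
        (UpCode_fst (UpCode_fst (UpCode_m hT hk))))
  have h2 : Primrec fun x : α × List ℕ => ((tab x.1).map fun p =>
      (T x.1).w (L x.1) (k x.1) x.2 p.1 * ρ x.1 p.2 ((T x.1).m (k x.1))).sum :=
    UpCode_sum (f := fun (x : α × List ℕ) (p : List ℕ × ℚ) =>
      (T x.1).w (L x.1) (k x.1) x.2 p.1 * ρ x.1 p.2 ((T x.1).m (k x.1))) (UpCode_fst htab) h1
  have h3 : Primrec fun x : α × List ℕ => (x.2, ρ x.1 (((tab x.1).map fun p =>
      (T x.1).w (L x.1) (k x.1) x.2 p.1 * ρ x.1 p.2 ((T x.1).m (k x.1))).sum)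
      ((T x.1).m (k x.1))⁻¹) :=
    Primrec.snd.pair (UpCode_ρ hρ Primrec.fst h2 (UpCode_fst (rat_inv.comp (UpCode_m hT hk))))
  exact Primrec.list_map (UpCode_allL (UpCode_range (UpCode_b hT)) hL) h3.to₂

theorem UpCode_edgeWQ {κ : α → ℚ} {J : α → List Bool} {s : α → List ℕ} (hT : Primrec T)
    (hκ : Primrec κ) (hJ : Primrec J) (hs : Primrec s) :
    Primrec fun a => (T a).edgeWQ (κ a) (J a) (s a) :=
  UpCode_sub (Primrec.const 1) (UpCode_mul hκ
    (UpCode_prod (f := fun a ℓ => (T a).q ((s a).getD ℓ 0) ((J a).getD ℓ false))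
      (Primrec.const (List.range 3))
      (UpCode_q (UpCode_fst hT) (UpCode_getD 0 (UpCode_fst hs) Primrec.snd)
        (UpCode_getD false (UpCode_fst hJ) Primrec.snd))))

theorem UpCode_siteWQ {κ : α → ℚ} {d : α → ℕ} {J : α → List Bool} {s : α → List ℕ}
    (hT : Primrec T) (hκ : Primrec κ) (hd : Primrec d) (hJ : Primrec J) (hs : Primrec s) :
    Primrec fun a => (T a).siteWQ (κ a) (d a) (J a) (s a) := by
  have h1 : Primrec fun x : (α × Bool) × ℕ =>
      1 - κ x.1.1 * (if x.1.2 = (J x.1.1).getD (2 + 3 * x.2) false then 1 else 0) *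
      ((T x.1.1).q ((s x.1.1).getD (2 * x.2) 0) ((J x.1.1).getD (3 * x.2) false) *
        (T x.1.1).q ((s x.1.1).getD (1 + 2 * x.2) 0) ((J x.1.1).getD (1 + 3 * x.2) false)) := by
    have hT' : Primrec fun x : (α × Bool) × ℕ => T x.1.1 := UpCode_fst (UpCode_fst hT)
    have hJ' : Primrec fun x : (α × Bool) × ℕ => J x.1.1 := UpCode_fst (UpCode_fst hJ)
    have hs' : Primrec fun x : (α × Bool) × ℕ => s x.1.1 := UpCode_fst (UpCode_fst hs)
    have h2 : Primrec fun x : (α × Bool) × ℕ => 2 * x.2 :=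
      UpCode_nmul (Primrec.const 2) Primrec.snd
    have h3 : Primrec fun x : (α × Bool) × ℕ => 3 * x.2 :=
      UpCode_nmul (Primrec.const 3) Primrec.snd
    exact UpCode_sub (Primrec.const 1) (UpCode_mul (UpCode_mul (UpCode_fst (UpCode_fst hκ))
      (Primrec.ite (UpCode_eq (Primrec.snd.comp Primrec.fst)
        (UpCode_getD false hJ' (UpCode_nadd (Primrec.const 2) h3))) (Primrec.const 1)
        (Primrec.const 0)))
      (UpCode_mul (UpCode_q hT' (UpCode_getD 0 hs' h2) (UpCode_getD false hJ' h3))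
        (UpCode_q hT' (UpCode_getD 0 hs' (UpCode_nadd (Primrec.const 1) h2))
          (UpCode_getD false hJ' (UpCode_nadd (Primrec.const 1) h3)))))
  have h2 := UpCode_prod (f := fun (x : α × Bool) (j : ℕ) =>
      1 - κ x.1 * (if x.2 = (J x.1).getD (2 + 3 * j) false then 1 else 0) *
      ((T x.1).q ((s x.1).getD (2 * j) 0) ((J x.1).getD (3 * j) false) *
        (T x.1).q ((s x.1).getD (1 + 2 * j) 0) ((J x.1).getD (1 + 3 * j) false)))
    (UpCode_range (UpCode_fst hd)) h1
  exact UpCode_mul (Primrec.const (1 / 2)) (UpCode_sum (f := fun (a : α) (ε : Bool) =>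
    ((List.range (d a)).map fun j =>
      1 - κ a * (if ε = (J a).getD (2 + 3 * j) false then 1 else 0) *
      ((T a).q ((s a).getD (2 * j) 0) ((J a).getD (3 * j) false) *
        (T a).q ((s a).getD (1 + 2 * j) 0) ((J a).getD (1 + 3 * j) false))).prod)
    (Primrec.const bools) h2)

end aux

/-- The table `(allL (range b) L).map fun s => (s, pmQ k s)` satisfies
`tab (k+1) = (allL ..).map fun s => (s, ρ (((tab k).map fun p => w k s p.1 * ρ p.2 (m k)).sum) (m k)⁻¹)`
(`List.map_map`), so it is computed by `Primrec.nat_rec'`; `nvalQ` is a sum over `tab r`.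
First prove that `TC.b, r, π, A, p, m, q, w` are primitive recursive (`Primrec.list_getD`,
`rat_list_prod`). -/
theorem primrec_nvalQ {α : Type*} [Primcodable α] {T : α → TC} {ρ : α → ℚ → ℚ → ℚ}
    {g : α → ℚ → ℚ} {L : α → ℕ} {W : α → List ℕ → ℚ} (hT : Primrec T)
    (hρ : Primrec fun x : α × ℚ × ℚ => ρ x.1 x.2.1 x.2.2) (hg : Primrec₂ g) (hL : Primrec L)
    (hW : Primrec₂ W) : Primrec fun a => (T a).nvalQ (ρ a) (g a) (L a) (W a) := by
  have h0 : Primrec fun a => (allL (List.range (T a).b) (L a)).map fun s => (s, W a s) :=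
    Primrec.list_map (UpCode_allL (UpCode_range (UpCode_b hT)) hL) (Primrec.snd.pair hW).to₂
  have h1 : Primrec fun x : α × (ℕ × List (List ℕ × ℚ)) =>
      UpCode_step (T x.1) (ρ x.1) (L x.1) x.2.1 x.2.2 :=
    UpCode_step_primrec (ρ := fun x : α × (ℕ × List (List ℕ × ℚ)) => ρ x.1) (UpCode_fst hT)
      (UpCode_ρ hρ (Primrec.fst.comp Primrec.fst) (Primrec.fst.comp Primrec.snd)
        (Primrec.snd.comp Primrec.snd)) (UpCode_fst hL)
      (Primrec.fst.comp Primrec.snd) (Primrec.snd.comp Primrec.snd)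
  have h2 : Primrec fun a => (allL (List.range (T a).b) (L a)).map fun s =>
      (s, (T a).pmQ (ρ a) (L a) (W a) (T a).r s) :=
    (Primrec.nat_rec' (h := fun a (p : ℕ × List (List ℕ × ℚ)) =>
      UpCode_step (T a) (ρ a) (L a) p.1 p.2) (UpCode_r hT) h0 h1).of_eq
      fun a => UpCode_tab (T a) (ρ a) (L a) (W a) (T a).r
  have h3 : Primrec fun x : α × (List ℕ × ℚ) =>
      ((List.range (L x.1)).map fun i => (T x.1).π (x.2.1.getD i 0)).prod * g x.1 x.2.2 :=
    UpCode_mul (UpCode_prod (f := fun (x : α × (List ℕ × ℚ)) i => (T x.1).π (x.2.1.getD i 0))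
      (UpCode_range (UpCode_fst hL)) (UpCode_π (UpCode_fst (UpCode_fst hT))
        (UpCode_getD 0 (UpCode_fst (Primrec.fst.comp Primrec.snd)) Primrec.snd)))
      (hg.comp Primrec.fst (Primrec.snd.comp Primrec.snd))
  refine (UpCode_sum (f := fun a (p : List ℕ × ℚ) =>
    ((List.range (L a)).map fun i => (T a).π (p.1.getD i 0)).prod * g a p.2) h2 h3).of_eq
    fun a => ?_
  simp only [TC.nvalQ, List.map_map, Function.comp_def]

section aux2
variable {α : Type*} [Primcodable α] {T : α → TC}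

theorem UpCode_valid (hT : Primrec T) : PrimrecPred fun a => (T a).Valid := by
  have hb : Primrec fun a => (T a).b := UpCode_b hT
  have hr : Primrec fun a => (T a).r := UpCode_r hT
  have hT1 : Primrec fun x : α × ℕ => T x.1 := UpCode_fst hT
  have h1 : PrimrecPred fun a => ∀ s < (T a).b, 0 ≤ (T a).π s ∧ 0 ≤ (T a).p s ∧ (T a).p s ≤ 1 :=
    UpCode_forall (p := fun a s => 0 ≤ (T a).π s ∧ 0 ≤ (T a).p s ∧ (T a).p s ≤ 1) hb
      ((UpCode_le (Primrec.const 0) (UpCode_π hT1 Primrec.snd)).and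
        ((UpCode_le (Primrec.const 0) (UpCode_p hT1 Primrec.snd)).and
          (UpCode_le (UpCode_p hT1 Primrec.snd) (Primrec.const 1))))
  have h2 : PrimrecPred fun a => ((List.range (T a).b).map (T a).π).sum = 1 :=
    UpCode_eq (UpCode_sum (f := fun a => (T a).π) (UpCode_range hb)
      (UpCode_π hT1 Primrec.snd)) (Primrec.const 1)
  have hT2 : Primrec fun x : (α × ℕ) × ℕ => T x.1.1 := UpCode_fst hT1
  have hT3 : Primrec fun x : ((α × ℕ) × ℕ) × ℕ => T x.1.1.1 := UpCode_fst hT2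
  have hA : Primrec fun x : ((α × ℕ) × ℕ) × ℕ => (T x.1.1.1).A x.1.1.2 x.1.2 x.2 :=
    UpCode_A hT3 (Primrec.snd.comp (Primrec.fst.comp Primrec.fst))
      (Primrec.snd.comp Primrec.fst) Primrec.snd
  have hb' : Primrec fun x : (α × ℕ) × ℕ => (T x.1.1).b := UpCode_b hT2
  have h30 : PrimrecPred fun x : (α × ℕ) × ℕ =>
      (∀ s' < (T x.1.1).b, 0 ≤ (T x.1.1).A x.1.2 x.2 s') ∧
      ((List.range (T x.1.1).b).map ((T x.1.1).A x.1.2 x.2)).sum = 1 :=
    (UpCode_forall (p := fun (x : (α × ℕ) × ℕ) s' => 0 ≤ (T x.1.1).A x.1.2 x.2 s') hb'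
      (UpCode_le (Primrec.const 0) hA)).and
      (UpCode_eq (UpCode_sum (f := fun x : (α × ℕ) × ℕ => (T x.1.1).A x.1.2 x.2)
        (UpCode_range hb') hA) (Primrec.const 1))
  have h31 : PrimrecPred fun x : α × ℕ => ∀ s < (T x.1).b,
      (∀ s' < (T x.1).b, 0 ≤ (T x.1).A x.2 s s') ∧
      ((List.range (T x.1).b).map ((T x.1).A x.2 s)).sum = 1 :=
    UpCode_forall (p := fun (x : α × ℕ) s => (∀ s' < (T x.1).b, 0 ≤ (T x.1).A x.2 s s') ∧
      ((List.range (T x.1).b).map ((T x.1).A x.2 s)).sum = 1) (UpCode_b hT1) h30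
  have h3 : PrimrecPred fun a => ∀ k < (T a).r, ∀ s < (T a).b,
      (∀ s' < (T a).b, 0 ≤ (T a).A k s s') ∧
      ((List.range (T a).b).map ((T a).A k s)).sum = 1 :=
    UpCode_forall (p := fun a k => ∀ s < (T a).b, (∀ s' < (T a).b, 0 ≤ (T a).A k s s') ∧
      ((List.range (T a).b).map ((T a).A k s)).sum = 1) hr h31
  have hm : Primrec fun x : α × ℕ => (T x.1).m x.2 := UpCode_m hT1 Primrec.snd
  have hs : Primrec fun x : α × ℕ => x.2 + 1 := UpCode_nadd Primrec.snd (Primrec.const 1)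
  have h4 : PrimrecPred fun a => ∀ k < (T a).r, 0 < (T a).m k ∧ (T a).m k < 1 ∧
      (k + 1 < (T a).r → (T a).m (k + 1) < (T a).m k) :=
    UpCode_forall (p := fun a k =>
      0 < (T a).m k ∧ (T a).m k < 1 ∧ (k + 1 < (T a).r → (T a).m (k + 1) < (T a).m k)) hr
      ((UpCode_lt (Primrec.const 0) hm).and ((UpCode_lt hm (Primrec.const 1)).and
        (UpCode_imp (UpCode_nlt hs (UpCode_r hT1)) (UpCode_lt (UpCode_m hT1 hs) hm))))
  exact h1.and (h2.and (h3.and h4))

theorem UpCode_edgeUp {κ : α → ℚ} {n S : α → ℕ} (hT : Primrec T) (hκ : Primrec κ)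
    (hn : Primrec n) (hS : Primrec S) : Primrec fun a => (T a).edgeUp (κ a) (n a) (S a) := by
  have hρ : Primrec fun y : (α × List Bool) × ℚ × ℚ => rlo (S y.1.1) y.2.1 y.2.2 :=
    UpCode_ρ (ρ := rlo) primrec_rlo (UpCode_fst (UpCode_fst hS))
      (Primrec.fst.comp Primrec.snd) (Primrec.snd.comp Primrec.snd)
  have hg : Primrec fun y : (α × List Bool) × ℚ => nu (n y.1.1) (max y.2 (1 - κ y.1.1)) :=
    primrec_nu.comp (UpCode_fst (UpCode_fst hn))
      (rat_max.comp Primrec.snd (UpCode_sub (Primrec.const 1) (UpCode_fst (UpCode_fst hκ))))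
  have hW : Primrec fun y : (α × List Bool) × List ℕ => (T y.1.1).edgeWQ (κ y.1.1) y.1.2 y.2 :=
    UpCode_edgeWQ (UpCode_fst (UpCode_fst hT)) (UpCode_fst (UpCode_fst hκ))
      (Primrec.snd.comp Primrec.fst) Primrec.snd
  have h := primrec_nvalQ (α := α × List Bool) (T := fun x => T x.1)
    (ρ := fun x => rlo (S x.1)) (g := fun x y => nu (n x.1) (max y (1 - κ x.1)))
    (L := fun _ => 3) (W := fun x => (T x.1).edgeWQ (κ x.1) x.2) (UpCode_fst hT) hρ hg
    (Primrec.const 3) hW
  exact UpCode_div (UpCode_sum (f := fun a (J : List Bool) =>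
    (T a).nvalQ (rlo (S a)) (fun y => nu (n a) (max y (1 - κ a))) 3 ((T a).edgeWQ (κ a) J))
    (Primrec.const (allL bools 3)) h) (Primrec.const 8)

theorem UpCode_siteLo {κ : α → ℚ} {d n S : α → ℕ} (hT : Primrec T) (hκ : Primrec κ)
    (hd : Primrec d) (hn : Primrec n) (hS : Primrec S) :
    Primrec fun a => (T a).siteLo (κ a) (d a) (n a) (S a) := by
  have hρ : Primrec fun y : (α × List Bool) × ℚ × ℚ => rup (S y.1.1) y.2.1 y.2.2 :=
    UpCode_ρ (ρ := rup) primrec_rup (UpCode_fst (UpCode_fst hS))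
      (Primrec.fst.comp Primrec.snd) (Primrec.snd.comp Primrec.snd)
  have hg : Primrec fun y : (α × List Bool) × ℚ => nl (n y.1.1) y.2 :=
    primrec_nl.comp (UpCode_fst (UpCode_fst hn)) Primrec.snd
  have hW : Primrec fun y : (α × List Bool) × List ℕ =>
      (T y.1.1).siteWQ (κ y.1.1) (d y.1.1) y.1.2 y.2 :=
    UpCode_siteWQ (UpCode_fst (UpCode_fst hT)) (UpCode_fst (UpCode_fst hκ))
      (UpCode_fst (UpCode_fst hd)) (Primrec.snd.comp Primrec.fst) Primrec.snd
  have h := primrec_nvalQ (α := α × List Bool) (T := fun x => T x.1)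
    (ρ := fun x => rup (S x.1)) (g := fun x => nl (n x.1))
    (L := fun x => d x.1 * 2) (W := fun x => (T x.1).siteWQ (κ x.1) (d x.1) x.2) (UpCode_fst hT)
    hρ hg (UpCode_nmul (UpCode_fst hd) (Primrec.const 2)) hW
  have h3 : Primrec fun a => d a * 3 := UpCode_nmul hd (Primrec.const 3)
  exact UpCode_div (UpCode_sum (f := fun a (J : List Bool) =>
    (T a).nvalQ (rup (S a)) (nl (n a)) (d a * 2) ((T a).siteWQ (κ a) (d a) J))
    (UpCode_allL (Primrec.const bools) h3) h) (rat_pow.comp (Primrec.const 2) h3)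

theorem UpCode_plo {lam : α → ℚ} {n d : α → ℕ} (hl : Primrec lam) (hn : Primrec n)
    (hd : Primrec d) : Primrec fun a => plo (lam a) (n a) (d a) :=
  (primrec_plo.comp (hl.pair (hn.pair hd))).of_eq fun _ => rfl

theorem UpCode_upCheck {q κ : α → ℚ} {D n S : α → ℕ} (hq : Primrec q) (hT : Primrec T)
    (hκ : Primrec κ) (hD : Primrec D) (hn : Primrec n) (hS : Primrec S) :
    PrimrecPred fun a => upCheck (q a) (T a, κ a, D a, n a, S a) := by
  have h3 : Primrec fun a => q a * 3 := UpCode_mul hq (Primrec.const 3)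
  have hp : Primrec fun y : α × ℕ => plo (q y.1 * 3) (n y.1) y.2 :=
    UpCode_plo (UpCode_fst h3) (UpCode_fst hn) Primrec.snd
  have hs : Primrec fun y : α × ℕ => (T y.1).siteLo (κ y.1) y.2 (n y.1) (S y.1) :=
    UpCode_siteLo (UpCode_fst hT) (UpCode_fst hκ) Primrec.snd (UpCode_fst hn) (UpCode_fst hS)
  have h4 : Primrec fun a => ((List.range (D a)).map fun d =>
      plo (q a * 3) (n a) d * (T a).siteLo (κ a) d (n a) (S a)).sum :=
    UpCode_sum (f := fun a (d : ℕ) => plo (q a * 3) (n a) d * (T a).siteLo (κ a) d (n a) (S a))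
      (UpCode_range hD) (UpCode_mul hp hs)
  have h5 : Primrec fun a => 1 + q a * 2 * (T a).edgeUp (κ a) (n a) (S a) :=
    UpCode_add (Primrec.const 1)
      (UpCode_mul (UpCode_mul hq (Primrec.const 2)) (UpCode_edgeUp hT hκ hn hS))
  have h6 : Primrec fun a => (n a : ℚ) := rat_natCast.comp hn
  exact ((UpCode_valid hT).and ((UpCode_le (Primrec.const 0) hκ).and
    ((UpCode_lt hκ (Primrec.const 1)).and ((UpCode_lt (Primrec.const 0) hq).and
    ((UpCode_nlt (Primrec.const 0) hS).and ((UpCode_le h3 h6).and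
    (UpCode_lt h5 h4))))))).of_eq fun _ => Iff.rfl

end aux2

/-- `PrimrecRel.forall_lt`, `rat_le`, `rat_lt`, `Primrec.eq`, `rat_list_sum`. -/
theorem primrec_TC_valid : PrimrecPred TC.Valid := by
  exact UpCode_valid Primrec.id

theorem primrec_edgeUp :
    Primrec fun x : TC × ℚ × ℕ × ℕ => x.1.edgeUp x.2.1 x.2.2.1 x.2.2.2 := by
  exact UpCode_edgeUp Primrec.fst (Primrec.fst.comp Primrec.snd)
    (Primrec.fst.comp (Primrec.snd.comp Primrec.snd))
    (Primrec.snd.comp (Primrec.snd.comp Primrec.snd))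

theorem primrec_siteLo :
    Primrec fun x : TC × ℚ × ℕ × ℕ × ℕ => x.1.siteLo x.2.1 x.2.2.1 x.2.2.2.1 x.2.2.2.2 := by
  exact UpCode_siteLo Primrec.fst (Primrec.fst.comp Primrec.snd)
    (Primrec.fst.comp (Primrec.snd.comp Primrec.snd))
    (Primrec.fst.comp (Primrec.snd.comp (Primrec.snd.comp Primrec.snd)))
    (Primrec.snd.comp (Primrec.snd.comp (Primrec.snd.comp Primrec.snd)))

theorem primrec_upCheck :
    PrimrecPred fun x : ℚ × (TC × ℚ × ℕ × ℕ × ℕ) => upCheck x.1 x.2 := by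
  exact (UpCode_upCheck (α := ℚ × (TC × ℚ × ℕ × ℕ × ℕ)) Primrec.fst (Primrec.fst.comp Primrec.snd)
    (Primrec.fst.comp (Primrec.snd.comp Primrec.snd))
    (Primrec.fst.comp (Primrec.snd.comp (Primrec.snd.comp Primrec.snd)))
    (Primrec.fst.comp (Primrec.snd.comp (Primrec.snd.comp (Primrec.snd.comp Primrec.snd))))
    (Primrec.snd.comp (Primrec.snd.comp (Primrec.snd.comp (Primrec.snd.comp Primrec.snd))))).of_eq
    fun _ => Iff.rfl

end Crest.Agent.R153
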