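import Crest.Agent.R153.Moment
import Crest.Agent.R153.Sat

/-! # Row 153: the variance bound (statement S0217) -/

set_option autoImplicit false
set_option linter.unusedVariables false
set_option linter.unusedSectionVars false

namespace Crest.Agent.R153

open Finset
open scoped BigOperators
open Crest.ProbabilityR.RandomSAT

/-- Split both series at `Λ n + 1` (`Summable.sum_add_tsum_nat_add`); the first moment is at least
its partial sum, which is nonnegative; use `var_tau` with `M = Λ n`, `EL_tau_eq`, `EL_tau_sq_eq`,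
`tail_satProb` and `1 ≤ n`. -/
theorem var_bound (k : ℕ) (hk : 3 ≤ k) :
    ∃ C : ℝ, ∀ n : ℕ, k ≤ n →
      Summable (fun m : ℕ => satProb k n m) ∧
      Summable (fun m : ℕ => (2 * (m : ℝ) + 1) * satProb k n m) ∧
      (∑' m : ℕ, (2 * (m : ℝ) + 1) * satProb k n m)
          - (∑' m : ℕ, satProb k n m) ^ 2 ≤ C * n := by
  obtain ⟨Λ, C₁, h₁⟩ := tail_satProb k
  obtain ⟨C₂, h₂⟩ := var_tau hk Λ
  refine ⟨C₂ + |C₁|, fun n hn => ⟨summable_satProb hn, summable_mul_satProb hn, ?_⟩⟩
  have a := h₂ n hn (Λ * n) le_rfl 0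
  rw [EL_tau_eq hn, EL_tau_sq_eq hn] at a
  have b := h₁ n hn
  have c := (summable_mul_satProb hn).sum_add_tsum_nat_add (Λ * n + 1)
  have d : ∑ t ∈ range (Λ * n + 1), satProb k n t ≤ ∑' m : ℕ, satProb k n m :=
    (summable_satProb hn).sum_le_tsum _ fun m _ => satProb_nonneg k n m
  have e := pow_le_pow_left₀ (sum_nonneg fun m _ => satProb_nonneg k n m) d 2
  have f : (1 : ℝ) ≤ n := by exact_mod_cast (show 1 ≤ n by omega)
  have g : C₁ ≤ |C₁| * n := (le_abs_self _).trans (le_mul_of_one_le_right (abs_nonneg _) f)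
  rw [← c, add_mul]
  linarith

end Crest.Agent.R153
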